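import Vale.Agent.P063.Convex

/-!
Integration of the master inequality over `t ∈ [1/2, 1]`.
-/

namespace Vale.Agent.P063

open Finset

set_option linter.unusedSectionVars false

variable {ι : Type*} [Fintype ι] [DecidableEq ι] {p : ℝ}

lemma cc_ge (hp0 : 0 < p) (hp1 : p < 1) : 20 ≤ cc p := by
  unfold cc
  have h1 : 0 < min p (1 - p) := lt_min hp0 (by linarith)
  have h2 : min p (1 - p) ≤ 1 := (min_le_left _ _).trans hp1.le
  have h3 : 0 ≤ Real.log (1 / min p (1 - p)) := by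
    apply Real.log_nonneg
    rw [le_div_iff₀ h1]; linarith
  linarith

lemma RHS_le (hp0 : 0 < p) (hp1 : p < 1) {ρ t l : ℝ} (h0 : 0 < ρ) (h1 : ρ ≤ 1 / 2)
    (ht0 : 1 / 2 ≤ t) (ht1 : t ≤ 1) (hl0 : 0 < l) (hl1 : l ≤ 1) (n : ℕ) :
    RHS p ρ t l n ≤ (cc p + (3 + 2 * Real.log (1 / l) + Real.log (1 / ρ)) * ρ)
        * (n * (1 - ρ + ρ * t) ^ (n - 1))
      + cc p * ρ ^ 2 * (n * ((n : ℝ) - 1) * (1 - ρ + ρ * t) ^ (n - 2))
      + ρ * (1 + l / Real.sqrt (p * (1 - p))) * n := by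
  have hc := cc_ge hp0 hp1
  have hs := sqrt_pq_pos hp0 hp1
  have hτ0 : 0 < 1 - ρ + ρ * t := by nlinarith
  have hlog1 : 0 ≤ Real.log (1 / l) := by
    apply Real.log_nonneg
    rw [le_div_iff₀ hl0]; linarith
  have hlog2 : 0 ≤ Real.log (1 / ρ) := by
    apply Real.log_nonneg
    rw [le_div_iff₀ h0]; linarith
  have hρ' : 0 < 1 - ρ := by linarith
  have hlog3 : (1 - ρ) * Real.log (1 / (1 - ρ)) ≤ ρ := by
    have h2 : Real.log (1 / (1 - ρ)) ≤ 1 / (1 - ρ) - 1 :=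
      Real.log_le_sub_one_of_pos (by positivity)
    calc (1 - ρ) * Real.log (1 / (1 - ρ)) ≤ (1 - ρ) * (1 / (1 - ρ) - 1) :=
          mul_le_mul_of_nonneg_left h2 hρ'.le
      _ = ρ := by field_simp; ring
  set A := (n : ℝ) * (1 - ρ + ρ * t) ^ (n - 1) with hA
  set B := (n : ℝ) * ((n : ℝ) - 1) * (1 - ρ + ρ * t) ^ (n - 2) with hB
  have hn0 : (0 : ℝ) ≤ n := Nat.cast_nonneg n
  have hA0 : 0 ≤ A := by positivity
  have hB0 : 0 ≤ B := by
    rcases Nat.eq_zero_or_pos n with h | h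
    · rw [hB, h]; simp
    · have : (1 : ℝ) ≤ n := by exact_mod_cast h
      have h2 : 0 ≤ (n : ℝ) - 1 := by linarith
      positivity
  unfold RHS
  have e1 : cc p * ((1 - ρ) * n * (1 - ρ + ρ * t) ^ (n - 1)) ≤ cc p * A := by
    have : (1 - ρ) * n * (1 - ρ + ρ * t) ^ (n - 1) = (1 - ρ) * A := by rw [hA]; ring
    rw [this]
    have h3 : (1 - ρ) * A ≤ A := by nlinarith
    exact mul_le_mul_of_nonneg_left h3 (by linarith)
  have e2 : (1 - t) * (ρ * n) ≤ ρ * n := by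
    have : 0 ≤ ρ * n := by positivity
    nlinarith
  have e3 : (2 + 2 * Real.log (1 / l)) * (ρ * t * n * (1 - ρ + ρ * t) ^ (n - 1))
      ≤ (2 + 2 * Real.log (1 / l)) * (ρ * A) := by
    refine mul_le_mul_of_nonneg_left ?_ (by linarith)
    have : ρ * t * n * (1 - ρ + ρ * t) ^ (n - 1) = t * (ρ * A) := by rw [hA]; ring
    rw [this]
    have h3 : 0 ≤ ρ * A := by positivity
    nlinarith
  have e4 : cc p * (ρ ^ 2 * t ^ 2 * n * (n - 1) * (1 - ρ + ρ * t) ^ (n - 2))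
      ≤ cc p * ρ ^ 2 * B := by
    have : ρ ^ 2 * t ^ 2 * n * (n - 1) * (1 - ρ + ρ * t) ^ (n - 2) = t ^ 2 * (ρ ^ 2 * B) := by
      rw [hB]; ring
    rw [this, mul_assoc (cc p)]
    refine mul_le_mul_of_nonneg_left ?_ (by linarith)
    have h3 : 0 ≤ ρ ^ 2 * B := by positivity
    have h4 : t ^ 2 ≤ 1 := pow_le_one₀ (by linarith) ht1
    nlinarith
  have e5 : 2 * l / (2 * Real.sqrt (p * (1 - p))) * (ρ * n)
      = ρ * (l / Real.sqrt (p * (1 - p))) * n := by
    field_simp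
  have e6 : Real.log (1 / ρ) * (ρ * t * n * (1 - ρ + ρ * t) ^ (n - 1))
      ≤ Real.log (1 / ρ) * (ρ * A) := by
    refine mul_le_mul_of_nonneg_left ?_ hlog2
    have : ρ * t * n * (1 - ρ + ρ * t) ^ (n - 1) = t * (ρ * A) := by rw [hA]; ring
    rw [this]
    have h3 : 0 ≤ ρ * A := by positivity
    nlinarith
  have e7 : Real.log (1 / (1 - ρ)) * ((1 - ρ) * n * (1 - ρ + ρ * t) ^ (n - 1)) ≤ ρ * A := by
    have : Real.log (1 / (1 - ρ)) * ((1 - ρ) * n * (1 - ρ + ρ * t) ^ (n - 1))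
        = ((1 - ρ) * Real.log (1 / (1 - ρ))) * A := by rw [hA]; ring
    rw [this]
    exact mul_le_mul_of_nonneg_right hlog3 hA0
  rw [e5]
  nlinarith

lemma main_integrated (hp0 : 0 < p) (hp1 : p < 1) (q q' : Finset ι → ℝ) (hq : ∀ S, 0 ≤ q S)
    (hq' : ∀ S, 0 ≤ q' S) {ρ l ℓ : ℝ} (h0 : 0 < ρ)
    (h1 : ρ ≤ 1 / 2) (hl0 : 0 < l) (hl1 : l ≤ 1) (hℓ : 0 ≤ ℓ)
    (h : ∀ t : ℝ, 1 / 2 ≤ t → t ≤ 1 →
      ℓ * (∑ S : Finset ι, q' S * (ρ * t * S.card / 4 * (1 - ρ + ρ * t) ^ S.card))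
        ≤ ∑ S : Finset ι, q S * RHS p ρ t l S.card) :
    3 * ℓ / 32 * (∑ S : Finset ι, q' S * (1 - (1 - ρ / 2) ^ S.card))
      ≤ (cc p / ρ + 3 + 2 * Real.log (1 / l) + Real.log (1 / ρ)) *
          (∑ S : Finset ι, if S = ∅ then 0 else q S)
        + (cc p + 1 + l / Real.sqrt (p * (1 - p))) * ρ * (∑ S : Finset ι, (S.card : ℝ) * q S) := by
  have hc := cc_ge hp0 hp1
  have hs := sqrt_pq_pos hp0 hp1
  have hlog1 : 0 ≤ Real.log (1 / l) := by
    apply Real.log_nonneg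
    rw [le_div_iff₀ hl0]; linarith
  have hlog2 : 0 ≤ Real.log (1 / ρ) := by
    apply Real.log_nonneg
    rw [le_div_iff₀ h0]; linarith
  set G : ℝ := cc p + (3 + 2 * Real.log (1 / l) + Real.log (1 / ρ)) * ρ with hG
  have hG0 : 0 ≤ G := by
    have : 0 ≤ (3 + 2 * Real.log (1 / l) + Real.log (1 / ρ)) * ρ := by positivity
    rw [hG]; linarith
  set I : ℝ := ∑ S : Finset ι, (S.card : ℝ) * q S with hI
  have hI0 : 0 ≤ I := Finset.sum_nonneg (fun S _ => mul_nonneg (Nat.cast_nonneg _) (hq S))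
  set E : ℝ := ρ * (1 + l / Real.sqrt (p * (1 - p))) with hE
  have hE0 : 0 ≤ E := by rw [hE]; positivity
  set H : ℝ → ℝ := fun t =>
    (∑ S : Finset ι, q S * (G / ρ * (1 - ρ + ρ * t) ^ S.card
      + cc p * ρ * (S.card * (1 - ρ + ρ * t) ^ (S.card - 1)))) + E * I * t
      - 3 * ℓ / 32 * (∑ S : Finset ι, q' S * (1 - ρ + ρ * t) ^ S.card) with hH
  have hτder : ∀ (n : ℕ) (t : ℝ), HasDerivAt (fun t : ℝ => (1 - ρ + ρ * t) ^ n)
      (n * (1 - ρ + ρ * t) ^ (n - 1) * ρ) t := by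
    intro n t
    have h2 : HasDerivAt (fun t : ℝ => 1 - ρ + ρ * t) ρ t := by
      simpa using ((hasDerivAt_id t).const_mul ρ).const_add (1 - ρ)
    exact h2.pow n
  have hder : ∀ t : ℝ, HasDerivAt H
      ((∑ S : Finset ι, q S * (G / ρ * (S.card * (1 - ρ + ρ * t) ^ (S.card - 1) * ρ)
      + cc p * ρ * (S.card * (((S.card - 1 : ℕ) : ℝ) * (1 - ρ + ρ * t) ^ (S.card - 1 - 1) * ρ))))
        + E * I
      - 3 * ℓ / 32 * (∑ S : Finset ι, q' S * (S.card * (1 - ρ + ρ * t) ^ (S.card - 1) * ρ))) t := by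
    intro t
    rw [hH]
    refine HasDerivAt.sub (HasDerivAt.add ?_ ?_) (HasDerivAt.const_mul _ ?_)
    · refine HasDerivAt.fun_sum (fun S _ => ?_)
      exact HasDerivAt.const_mul _ (HasDerivAt.add (HasDerivAt.const_mul _ (hτder _ t))
        (HasDerivAt.const_mul _ (HasDerivAt.const_mul _ (hτder _ t))))
    · simpa using (hasDerivAt_id t).const_mul (E * I)
    · refine HasDerivAt.fun_sum (fun S _ => ?_)
      exact HasDerivAt.const_mul _ (hτder _ t)
  have hmono : H (1 / 2) ≤ H 1 := by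
    have hm : MonotoneOn H (Set.Icc (1 / 2) 1) := by
      refine monotoneOn_of_deriv_nonneg (convex_Icc _ _)
        (fun t _ => (hder t).continuousAt.continuousWithinAt)
        (fun t _ => (hder t).differentiableAt.differentiableWithinAt) (fun t ht => ?_)
      rw [interior_Icc] at ht
      have ht0 : 1 / 2 ≤ t := ht.1.le
      have ht1 : t ≤ 1 := ht.2.le
      rw [(hder t).deriv]
      have hh := h t ht0 ht1
      have hτ34 : 3 / 4 ≤ 1 - ρ + ρ * t := by nlinarith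
      -- upper bound
      have u1 : ∑ S : Finset ι, q S * RHS p ρ t l S.card
          ≤ ∑ S : Finset ι, (q S * (G / ρ * (S.card * (1 - ρ + ρ * t) ^ (S.card - 1) * ρ)
      + cc p * ρ * (S.card * (((S.card - 1 : ℕ) : ℝ) * (1 - ρ + ρ * t) ^ (S.card - 1 - 1) * ρ)))
          + E * ((S.card : ℝ) * q S)) := by
        refine Finset.sum_le_sum (fun S _ => ?_)
        have := mul_le_mul_of_nonneg_left (RHS_le hp0 hp1 h0 h1 ht0 ht1 hl0 hl1 S.card) (hq S)
        refine this.trans (le_of_eq ?_)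
        have e1 : (S.card : ℝ) * (((S.card - 1 : ℕ) : ℝ)) = (S.card : ℝ) * ((S.card : ℝ) - 1) := by
          rcases Nat.eq_zero_or_pos S.card with h3 | h3
          · rw [h3]; simp
          · rw [Nat.cast_sub h3]; simp
        have e2 : S.card - 1 - 1 = S.card - 2 := by omega
        have e3 : G / ρ * (S.card * (1 - ρ + ρ * t) ^ (S.card - 1) * ρ)
            = G * (S.card * (1 - ρ + ρ * t) ^ (S.card - 1)) := by field_simp
        rw [e2, e3, hE]
        have e4 : cc p * ρ * (S.card * (((S.card - 1 : ℕ) : ℝ) * (1 - ρ + ρ * t) ^ (S.card - 2) * ρ))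
            = cc p * ρ ^ 2 * (((S.card : ℝ) * (((S.card - 1 : ℕ) : ℝ))) *
              (1 - ρ + ρ * t) ^ (S.card - 2)) := by ring
        rw [e4, e1, ← hG]
        ring
      rw [Finset.sum_add_distrib, ← Finset.mul_sum] at u1
      -- lower bound
      have l1 : 3 * ℓ / 32 * (∑ S : Finset ι, q' S * (S.card * (1 - ρ + ρ * t) ^ (S.card - 1) * ρ))
          ≤ ℓ * (∑ S : Finset ι, q' S * (ρ * t * S.card / 4 * (1 - ρ + ρ * t) ^ S.card)) := by
        rw [Finset.mul_sum, Finset.mul_sum]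
        refine Finset.sum_le_sum (fun S _ => ?_)
        rcases Nat.eq_zero_or_pos S.card with h3 | h3
        · rw [h3]; simp
        · have e5 : (1 - ρ + ρ * t) ^ S.card = (1 - ρ + ρ * t) ^ (S.card - 1) * (1 - ρ + ρ * t) := by
            rw [← pow_succ, Nat.sub_add_cancel h3]
          rw [e5]
          have hX : 0 ≤ ℓ * q' S * (ρ * S.card * (1 - ρ + ρ * t) ^ (S.card - 1)) := by
            have h5 : 0 ≤ (1 - ρ + ρ * t) ^ (S.card - 1) := pow_nonneg (by linarith) _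
            have h6 := hq' S
            positivity
          have hprod : 3 / 32 ≤ t / 4 * (1 - ρ + ρ * t) := by nlinarith
          have := mul_le_mul_of_nonneg_left hprod hX
          nlinarith
      linarith
    exact hm ⟨le_refl _, by norm_num⟩ ⟨by norm_num, le_refl _⟩ (by norm_num)
  rw [hH] at hmono
  simp only at hmono
  have e6 : (1 - ρ + ρ * (1 / 2) : ℝ) = 1 - ρ / 2 := by ring
  have e7 : (1 - ρ + ρ * 1 : ℝ) = 1 := by ring
  rw [e6, e7] at hmono
  simp only [one_pow, mul_one] at hmono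
  have hτ0 : 0 ≤ 1 - ρ / 2 := by linarith
  have hτ1 : 1 - ρ / 2 ≤ 1 := by linarith
  have f1 : (∑ S : Finset ι, q S * (G / ρ + cc p * ρ * S.card))
      - (∑ S : Finset ι, q S * (G / ρ * (1 - ρ / 2) ^ S.card
      + cc p * ρ * (S.card * (1 - ρ / 2) ^ (S.card - 1))))
      ≤ G / ρ * (∑ S : Finset ι, if S = ∅ then 0 else q S) + cc p * ρ * I := by
    rw [← Finset.sum_sub_distrib, Finset.mul_sum, hI, Finset.mul_sum, ← Finset.sum_add_distrib]
    refine Finset.sum_le_sum (fun S _ => ?_)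
    by_cases hS : S = ∅
    · simp [hS]
    · simp only [hS, if_false]
      have g1 : 0 ≤ G / ρ * q S * (1 - ρ / 2) ^ S.card := by
        have := hq S; positivity
      have g2 : 0 ≤ cc p * ρ * q S * (S.card * (1 - ρ / 2) ^ (S.card - 1)) := by
        have := hq S
        have : 0 ≤ cc p := by linarith
        positivity
      nlinarith
  have f2 : 3 * ℓ / 32 * (∑ S : Finset ι, q' S * (1 - (1 - ρ / 2) ^ S.card))
      = 3 * ℓ / 32 * (∑ S : Finset ι, q' S)
        - 3 * ℓ / 32 * (∑ S : Finset ι, q' S * (1 - ρ / 2) ^ S.card) := by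
    rw [← mul_sub, ← Finset.sum_sub_distrib]
    congr 1
    exact Finset.sum_congr rfl (fun S _ => by ring)
  have f3 : E * I - E * I * (1 / 2) ≤ E * I := by
    have : 0 ≤ E * I := mul_nonneg hE0 hI0
    linarith
  have f4 : G / ρ = cc p / ρ + 3 + 2 * Real.log (1 / l) + Real.log (1 / ρ) := by
    rw [hG]; field_simp; ring
  rw [f2, ← f4]
  have f5 : (cc p + 1 + l / Real.sqrt (p * (1 - p))) * ρ * I = cc p * ρ * I + E * I := by
    rw [hE]; ring
  rw [f5]
  linarith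

end Vale.Agent.P063
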