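import Vale.Agent.P063.Defs

/-!
Elementary estimates valid for large arguments.
-/

namespace Vale.Agent.P063

lemma big (r : ℕ) : ∃ Λ0 : ℝ, ∀ Λ : ℝ, Λ0 ≤ Λ →
    1000 ≤ Λ ∧ Real.log Λ ≤ Λ / 100 ∧ 2 * Real.exp (-(Λ / 400)) * Λ * 20 ≤ 1 / 1000 ∧
    Λ ^ 2 ≤ Real.exp (Λ / 8) ∧ 2 * (r : ℝ) * Λ ^ 2 ≤ Real.exp (Λ / 2) ∧
    2 * Real.exp (-(Λ / 400)) ≤ 1 := by
  refine ⟨max (10 ^ 11) (2 * r * 1000), fun Λ hΛ => ?_⟩
  have h1 : (10 : ℝ) ^ 11 ≤ Λ := (le_max_left _ _).trans hΛ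
  have h2 : 2 * (r : ℝ) * 1000 ≤ Λ := (le_max_right _ _).trans hΛ
  have hpos : 0 < Λ := by linarith [show (0:ℝ) < 10 ^ 11 by norm_num]
  have h1' : (100000000000 : ℝ) ≤ Λ := by norm_num at h1; exact h1
  -- exp lower bounds
  have hexp : ∀ x : ℝ, 0 ≤ x → x ^ 2 / 2 ≤ Real.exp x := fun x hx => by
    have := Real.quadratic_le_exp_of_nonneg hx
    linarith
  have hexp3 : ∀ x : ℝ, 0 ≤ x → (x / 3) ^ 3 ≤ Real.exp x := fun x hx => by
    have h3 : x / 3 ≤ Real.exp (x / 3) := by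
      have := Real.add_one_le_exp (x / 3); linarith
    have h4 : Real.exp x = (Real.exp (x / 3)) ^ 3 := by
      rw [← Real.exp_nat_mul]; congr 1; push_cast; ring
    rw [h4]
    exact pow_le_pow_left₀ (by positivity) h3 3
  have e1 : 2 * Real.exp (-(Λ / 400)) * Λ * 20 ≤ 1 / 1000 := by
    rw [Real.exp_neg]
    have h5 := hexp (Λ / 400) (by positivity)
    have h6 : 0 < Real.exp (Λ / 400) := Real.exp_pos _
    have h7 : 2 * (Real.exp (Λ / 400))⁻¹ * Λ * 20 = 40 * Λ / Real.exp (Λ / 400) := by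
      field_simp; ring
    rw [h7, div_le_iff₀ h6]
    nlinarith
  refine ⟨by linarith, ?_, e1, ?_, ?_, ?_⟩
  · have h5 : Real.log (Λ / 200) ≤ Λ / 200 - 1 := Real.log_le_sub_one_of_pos (by positivity)
    rw [Real.log_div (ne_of_gt hpos) (by norm_num)] at h5
    have h6 : Real.log 200 ≤ 200 - 1 := Real.log_le_sub_one_of_pos (by norm_num)
    linarith
  · have h5 := hexp3 (Λ / 8) (by positivity)
    refine le_trans ?_ h5
    have h6 : (Λ / 8 / 3) ^ 3 = Λ ^ 2 * (Λ / 13824) := by ring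
    rw [h6]
    have h7 : 1 ≤ Λ / 13824 := by linarith
    nlinarith [sq_nonneg Λ]
  · have h5 := hexp3 (Λ / 2) (by positivity)
    refine le_trans ?_ h5
    have h6 : (Λ / 2 / 3) ^ 3 = Λ ^ 2 * (Λ / 216) := by ring
    rw [h6]
    have h7 : 2 * (r : ℝ) ≤ Λ / 216 := by
      have : (0 : ℝ) ≤ 2 * r := by positivity
      linarith
    nlinarith [sq_nonneg Λ]
  · have h5 : 0 < Real.exp (-(Λ / 400)) := Real.exp_pos _
    have h6 : 2 * Real.exp (-(Λ / 400)) * 1 ≤ 2 * Real.exp (-(Λ / 400)) * (Λ * 20) :=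
      mul_le_mul_of_nonneg_left (by linarith) (by positivity)
    nlinarith

end Vale.Agent.P063
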