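import Vale.Agent.P063.Lower
import Vale.Agent.P063.Integrate
import Vale.Agent.P063.Numeric

/-!
The influence bound `I ≥ κ · Var · (log n / c_p)^{r/(r-1)}`.
-/

namespace Vale.Agent.P063

open Finset

set_option linter.unusedSectionVars false

/-- `√(p(1-p))` is not too small when `log (1/min p (1-p))` is much smaller than `Λ`. -/
lemma l_div_s {p Λ : ℝ} (hp0 : 0 < p) (hp1 : p < 1) (hΛ : 0 ≤ Λ) (h : 10 ^ 4 * cc p ≤ Λ) :
    Real.exp (-(Λ / 200)) / Real.sqrt (p * (1 - p)) ≤ 2 * Real.exp (-(Λ / 400)) := by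
  have hs := sqrt_pq_pos hp0 hp1
  set m := min p (1 - p) with hm
  have hm0 : 0 < m := lt_min hp0 (by linarith)
  have hlogm : Real.log (1 / m) ≤ Λ / 200 := by
    unfold cc at h
    rw [← hm] at h
    nlinarith
  have hmexp : Real.exp (-(Λ / 200)) ≤ m := by
    rw [one_div, Real.log_inv] at hlogm
    have : -(Λ / 200) ≤ Real.log m := by linarith
    calc Real.exp (-(Λ / 200)) ≤ Real.exp (Real.log m) := Real.exp_le_exp.mpr this
      _ = m := Real.exp_log hm0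
  have hpq : m / 2 ≤ p * (1 - p) := by
    rcases le_total p (1 - p) with h1 | h1
    · rw [hm, min_eq_left h1]; nlinarith
    · rw [hm, min_eq_right h1]; nlinarith
  rw [div_le_iff₀ hs]
  have h1 : Real.exp (-(Λ / 400)) ^ 2 = Real.exp (-(Λ / 200)) := by
    rw [← Real.exp_nat_mul]; congr 1; push_cast; ring
  have h2 : Real.exp (-(Λ / 400)) ≤ 2 * Real.sqrt (p * (1 - p)) := by
    apply (sq_le_sq₀ (Real.exp_pos _).le (by positivity)).mp
    rw [h1, mul_pow, sq_sqrt_pq hp0 hp1]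
    nlinarith
  have h3 : 0 < Real.exp (-(Λ / 400)) := Real.exp_pos _
  rw [← h1]
  nlinarith

/-- facts about the exponent and the cut-off -/
lemma params {r : ℕ} (hr : 2 ≤ r) {L : ℝ} (hL : 10 ^ 4 ≤ L) {ρ K : ℝ} (hρ : ρ = 1000 / L)
    (hK : K = (1 / ρ) ^ ((r : ℝ) / ((r : ℝ) - 1))) :
    0 < K ∧ K ≤ (L / 1000) ^ 2 ∧ K ^ (r - 1) = (1 / ρ) ^ r ∧
      L ^ ((r : ℝ) / ((r : ℝ) - 1)) ≤ 10 ^ 6 * K := by
  have hLpos : 0 < L := by linarith [show (0:ℝ) < 10 ^ 4 by norm_num]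
  have hρpos : 0 < ρ := by rw [hρ]; positivity
  have hinvρ : 1 / ρ = L / 1000 := by rw [hρ]; field_simp
  have hinvρ1 : 1 ≤ 1 / ρ := by
    rw [hinvρ]; linarith [show (10:ℝ) ^ 4 = 10000 by norm_num]
  have hr2 : (2 : ℝ) ≤ r := by exact_mod_cast hr
  have hr1pos : (0 : ℝ) < (r : ℝ) - 1 := by linarith
  set a : ℝ := (r : ℝ) / ((r : ℝ) - 1) with ha
  have ha2 : a ≤ 2 := by rw [ha, div_le_iff₀ hr1pos]; linarith
  refine ⟨?_, ?_, ?_, ?_⟩
  · rw [hK]; exact Real.rpow_pos_of_pos (by positivity) _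
  · rw [hK, ← Real.rpow_natCast (L / 1000) 2, ← hinvρ]
    exact Real.rpow_le_rpow_of_exponent_le hinvρ1 (by push_cast; exact ha2)
  · rw [hK, ← Real.rpow_natCast, ← Real.rpow_mul (by positivity), ← Real.rpow_natCast (1 / ρ) r]
    congr 1
    rw [Nat.cast_sub (by omega), ha]
    push_cast
    field_simp
  · have h1 : L = 1000 * (1 / ρ) := by rw [hinvρ]; ring
    rw [h1, Real.mul_rpow (by norm_num) (by positivity), hK]
    refine mul_le_mul_of_nonneg_right ?_ (Real.rpow_nonneg (by positivity) _)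
    calc (1000 : ℝ) ^ a ≤ (1000 : ℝ) ^ (2 : ℝ) :=
          Real.rpow_le_rpow_of_exponent_le (by norm_num) ha2
      _ = 10 ^ 6 := by
          rw [show (2 : ℝ) = ((2 : ℕ) : ℝ) by norm_num, Real.rpow_natCast]; norm_num

/-- the good sets are those of size at most `K` -/
lemma good_iff {r : ℕ} (hr : 2 ≤ r) {ρ K : ℝ} (hρ : 0 < ρ) (hK0 : 0 < K)
    (hKr : K ^ (r - 1) = (1 / ρ) ^ r) (m : ℕ) :
    (m : ℝ) ^ (r - 1) * ρ ^ r ≤ 1 ↔ (m : ℝ) ≤ K := by
  have e : (m : ℝ) ^ (r - 1) * ρ ^ r ≤ 1 ↔ (m : ℝ) ^ (r - 1) ≤ K ^ (r - 1) := by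
    rw [hKr, div_pow, one_pow, le_div_iff₀ (by positivity)]
  rw [e]
  constructor
  · intro h
    exact le_of_pow_le_pow_left₀ (by omega) hK0.le h
  · intro h
    exact pow_le_pow_left₀ (Nat.cast_nonneg _) h _

/-- the number of potential edges -/
lemma log_card_edge {n r : ℕ} (hr : 2 ≤ r) (h1 : 2 * (r : ℝ) ≤ Real.sqrt n) :
    Real.log n ≤ Real.log (Fintype.card (Edge n r)) := by
  have hcard : Fintype.card (Edge n r) = n.choose r := by
    rw [Fintype.card_subtype]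
    have : (Finset.univ.filter (fun e : Finset (Fin n) => e.card = r))
        = Finset.powersetCard r (Finset.univ : Finset (Fin n)) := by
      ext e; simp
    rw [this, Finset.card_powersetCard]; simp
  rw [hcard]
  have h2 := log_choose_ge h1
  refine le_trans ?_ h2
  have hr2 : (2 : ℝ) ≤ r := by exact_mod_cast hr
  have h3 : 0 ≤ Real.log n := Real.log_natCast_nonneg n
  nlinarith

/-- the pointwise KKL inequality with numeric constants inserted -/
lemma kkl_numeric {n r : ℕ} {p : ℝ} (hp0 : 0 < p) (hp1 : p < 1) (f : HG n r → ℝ)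
    (hf : ∀ x, f x = 1 ∨ f x = -1) (htr : TransInv f) {Λ l : ℝ} (hΛ : 0 < Λ)
    (hN : Λ ≤ Real.log (Fintype.card (Edge n r))) (hl : l = Real.exp (-(Λ / 200)))
    (hI : ∑ S : Finset (Edge n r), (S.card : ℝ) * (fc p f S) ^ 2 ≤ Real.exp (Λ / 8))
    {t : ℝ} (ht0 : 0 < t) (ht1 : t ≤ 1) :
    Λ / 2 * (∑ S : Finset (Edge n r), (S.card : ℝ) * (t ^ S.card * (fc p f S) ^ 2))
      ≤ cc p * (∑ S : Finset (Edge n r),
          (S.card : ℝ) * (((S.card : ℝ) - 1) * t ^ S.card * (fc p f S) ^ 2))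
        + l / Real.sqrt (p * (1 - p)) *
          (∑ S : Finset (Edge n r), (S.card : ℝ) * (fc p f S) ^ 2) := by
  have hc20 := cc_ge hp0 hp1
  have hspos := sqrt_pq_pos hp0 hp1
  have hlpos : 0 < l := by rw [hl]; exact Real.exp_pos _
  have hlogl : Real.log (1 / l) = Λ / 200 := by
    rw [one_div, Real.log_inv, hl, Real.log_exp]; ring
  have hNpos : (0 : ℝ) < Fintype.card (Edge n r) := by
    by_contra h
    push Not at h
    have h0 : (Fintype.card (Edge n r) : ℝ) = 0 := le_antisymm h (Nat.cast_nonneg _)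
    rw [h0, Real.log_zero] at hN
    linarith
  have hNnat : 0 < Fintype.card (Edge n r) := by exact_mod_cast hNpos
  have : Nonempty (Edge n r) := Fintype.card_pos_iff.mp hNnat
  have hk := kkl_pointwise hp0 hp1 f hf htr ht0 ht1 hlpos
  have hI0 : 0 ≤ ∑ S : Finset (Edge n r), (S.card : ℝ) * (fc p f S) ^ 2 :=
    Finset.sum_nonneg (fun S _ => mul_nonneg (Nat.cast_nonneg _) (sq_nonneg _))
  have hΘ0 : 0 ≤ ∑ S : Finset (Edge n r), (S.card : ℝ) * (t ^ S.card * (fc p f S) ^ 2) :=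
    Finset.sum_nonneg (fun S _ => mul_nonneg (Nat.cast_nonneg _)
      (mul_nonneg (pow_nonneg ht0.le _) (sq_nonneg _)))
  have hΘI : ∑ S : Finset (Edge n r), (S.card : ℝ) * (t ^ S.card * (fc p f S) ^ 2)
      ≤ ∑ S : Finset (Edge n r), (S.card : ℝ) * (fc p f S) ^ 2 := by
    refine Finset.sum_le_sum (fun S _ => mul_le_mul_of_nonneg_left ?_ (Nat.cast_nonneg _))
    exact mul_le_of_le_one_left (sq_nonneg _) (pow_le_one₀ ht0.le ht1)
  have hΘ20 : 0 ≤ ∑ S : Finset (Edge n r),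
      (S.card : ℝ) * (((S.card : ℝ) - 1) * t ^ S.card * (fc p f S) ^ 2) :=
    Finset.sum_nonneg (fun S _ => by
      rcases Nat.eq_zero_or_pos S.card with h | h
      · rw [h]; simp
      · have : (1 : ℝ) ≤ S.card := by exact_mod_cast h
        have h2 : 0 ≤ (S.card : ℝ) - 1 := by linarith
        exact mul_nonneg (Nat.cast_nonneg _) (mul_nonneg (mul_nonneg h2 (pow_nonneg ht0.le _))
          (sq_nonneg _)))
  generalize (∑ S : Finset (Edge n r), (S.card : ℝ) * (fc p f S) ^ 2) = I at *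
  generalize (∑ S : Finset (Edge n r), (S.card : ℝ) * (t ^ S.card * (fc p f S) ^ 2)) = Θ at *
  generalize (∑ S : Finset (Edge n r),
      (S.card : ℝ) * (((S.card : ℝ) - 1) * t ^ S.card * (fc p f S) ^ 2)) = Θ2 at *
  generalize (Fintype.card (Edge n r) : ℝ) = N at *
  generalize Real.sqrt (p * (1 - p)) = s at *
  rw [hlogl] at hk
  have hb : 2 * l * (I / (2 * s)) = l / s * I := by
    field_simp
  rw [hb] at hk
  have hlI : 0 ≤ l / s * I := mul_nonneg (div_pos hlpos hspos).le hI0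
  rcases hΘ0.eq_or_lt with h | h
  · rw [← h]
    have := mul_nonneg (by linarith : 0 ≤ cc p) hΘ20
    linarith
  · have hlogΘ : Real.log Θ ≤ Λ / 8 := by
      have h1 : Θ ≤ Real.exp (Λ / 8) := hΘI.trans hI
      calc Real.log Θ ≤ Real.log (Real.exp (Λ / 8)) := Real.log_le_log h h1
        _ = Λ / 8 := Real.log_exp _
    have hphi : N * phi (Θ / N) = Θ * (Real.log N - Real.log Θ) := by
      unfold phi Real.negMulLog
      rw [Real.log_div (ne_of_gt h) (ne_of_gt hNpos)]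
      field_simp
      ring
    rw [hphi] at hk
    have h2 : Θ * (7 / 8 * Λ) ≤ Θ * (Real.log N - Real.log Θ) :=
      mul_le_mul_of_nonneg_left (by linarith) h.le
    have h3 : 0 ≤ Θ * Λ := mul_nonneg h.le hΛ.le
    linarith

/-- the final numerical contradiction -/
lemma numeric_contradiction {Λ c L ls ρ V I K W T lr : ℝ} (hΛ : 1000 ≤ Λ)
    (hb3 : ls * Λ * 20 ≤ 1 / 1000) (hls0 : 0 < ls) (hls1 : ls ≤ 1)
    (hc20 : 20 ≤ c) (hcL : c * L = Λ) (hLpos : 0 < L)
    (hρ : ρ = 1000 / L) (hV : 0 < V) (hI0 : 0 ≤ I) (hKpos : 0 < K) (hKle : K ≤ (L / 1000) ^ 2)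
    (hKΛ : K ≤ Λ ^ 2) (hIlt : I < V * K / 100) (hlr : lr ≤ Λ / 100)
    (hkkl : Λ / 2 * W ≤ Λ / 2 * (1 / 1000) * V + c * V / (1 - (1 - ρ / 2)) + ls * I / (1 / 1000))
    (hmass : V - I / K - W ≤ T)
    (hmain : 3 * (Λ / 2) / 32 * T ≤ (c / ρ + 3 + 2 * (Λ / 200) + lr) * V
      + (c + 1 + ls) * ρ * I) : False := by
  have hΛpos : 0 < Λ := by linarith
  have hcpos : 0 < c := by linarith
  have hρpos : 0 < ρ := by rw [hρ]; positivity
  have hcρ : c / ρ = Λ / 1000 := by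
    rw [hρ]; field_simp; rw [← hcL]
  have hρI : ρ * I ≤ V * L / 10 ^ 5 := by
    have h1 : ρ * I ≤ ρ * (V * K / 100) := mul_le_mul_of_nonneg_left hIlt.le hρpos.le
    have h2 : ρ * K ≤ L / 1000 := by
      have h3 : ρ * K ≤ ρ * (L / 1000) ^ 2 := mul_le_mul_of_nonneg_left hKle hρpos.le
      have h4 : ρ * (L / 1000) ^ 2 = L / 1000 := by rw [hρ]; field_simp
      rw [h4] at h3
      exact h3
    have h5 := mul_le_mul_of_nonneg_left h2 hV.le
    have h6 : ρ * (V * K / 100) = V * (ρ * K) / 100 := by ring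
    rw [h6] at h1
    linarith
  have hterm2 : (c + 1 + ls) * ρ * I ≤ V * Λ / 10 ^ 4 := by
    have h1 : (c + 1 + ls) ≤ 2 * c := by linarith
    have h2 : 0 ≤ ρ * I := by positivity
    have h3 : (c + 1 + ls) * (ρ * I) ≤ 2 * c * (ρ * I) := mul_le_mul_of_nonneg_right h1 h2
    have h4 : 2 * c * (ρ * I) ≤ 2 * c * (V * L / 10 ^ 5) :=
      mul_le_mul_of_nonneg_left hρI (by positivity)
    have h5 : 2 * c * (V * L / 10 ^ 5) = 2 * V * (c * L) / 10 ^ 5 := by ring
    rw [h5, hcL] at h4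
    have h6 : 0 ≤ V * Λ := by positivity
    have h7 : (c + 1 + ls) * ρ * I = (c + 1 + ls) * (ρ * I) := by ring
    rw [h7]
    refine h3.trans (h4.trans ?_)
    linarith
  have hWbound : W ≤ 6 / 1000 * V := by
    have h1 : c * V / (1 - (1 - ρ / 2)) = V * Λ * (2 / 1000) := by
      have : c * V / (1 - (1 - ρ / 2)) = 2 * V * (c / ρ) := by
        have e : (1 - (1 - ρ / 2)) = ρ / 2 := by ring
        rw [e]; field_simp
      rw [this, hcρ]; ring
    rw [h1] at hkkl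
    have h2 : ls * I / (1 / 1000) ≤ Λ * V / 2000 := by
      have h3 : ls * I ≤ ls * (V * Λ ^ 2 / 100) := by
        refine mul_le_mul_of_nonneg_left ?_ hls0.le
        refine hIlt.le.trans ?_
        have := mul_le_mul_of_nonneg_left hKΛ hV.le
        linarith
      have h4 : ls * (V * Λ ^ 2 / 100) = (ls * Λ * 20) * (V * Λ) / 2000 := by ring
      have h5 : (ls * Λ * 20) * (V * Λ) ≤ 1 / 1000 * (V * Λ) :=
        mul_le_mul_of_nonneg_right hb3 (by positivity)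
      rw [h4] at h3
      have h6 : ls * I / (1 / 1000) = 1000 * (ls * I) := by ring
      rw [h6]
      linarith
    have h8 : Λ / 2 * W ≤ Λ / 2 * (6 / 1000 * V) := by linarith
    exact le_of_mul_le_mul_left h8 (by positivity)
  have hIK : I / K ≤ V / 100 := by
    rw [div_le_iff₀ hKpos]; linarith
  have hT : 98 / 100 * V ≤ T := by linarith
  have h1 : 3 * (Λ / 2) / 32 * (98 / 100 * V) ≤ 3 * (Λ / 2) / 32 * T :=
    mul_le_mul_of_nonneg_left hT (by positivity)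
  rw [hcρ] at hmain
  have h2 : (Λ / 1000 + 3 + 2 * (Λ / 200) + lr) * V
      ≤ (Λ / 1000 + 3 + 2 * (Λ / 200) + Λ / 100) * V :=
    mul_le_mul_of_nonneg_right (by linarith) hV.le
  have h3 : 0 < V * Λ := by positivity
  have h4 : 3 * V ≤ 3 / 1000 * (V * Λ) := by nlinarith
  have h5 : (Λ / 1000 + 3 + 2 * (Λ / 200) + Λ / 100) * V
      = 21 / 1000 * (V * Λ) + 3 * V := by ring
  have h6 : 3 * (Λ / 2) / 32 * (98 / 100 * V) = 294 / 6400 * (V * Λ) := by ring
  rw [h5] at h2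
  rw [h6] at h1
  linarith

/-- lower bound for the mass of the good nonempty sets -/
lemma mass_bound {ι : Type*} [Fintype ι] [DecidableEq ι] (q q' : Finset ι → ℝ)
    (hq : ∀ S, 0 ≤ q S) {ρ K : ℝ} (hρ0 : 0 < ρ) (hρ1 : ρ ≤ 1) (hK : 0 < K)
    (hg : ∀ S, q' S = q S ∨ (q' S = 0 ∧ K ≤ (S.card : ℝ))) :
    (∑ S : Finset ι, if S = ∅ then 0 else q S) - (∑ S : Finset ι, (S.card : ℝ) * q S) / K
      - (∑ S : Finset ι, if S = ∅ then 0 else q S * (1 - ρ / 2) ^ S.card)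
      ≤ ∑ S : Finset ι, q' S * (1 - (1 - ρ / 2) ^ S.card) := by
  rw [Finset.sum_div, ← Finset.sum_sub_distrib, ← Finset.sum_sub_distrib]
  refine Finset.sum_le_sum (fun S _ => ?_)
  by_cases hS : S = ∅
  · subst hS; simp
  · simp only [hS, if_false]
    have hτ1 : (1 - ρ / 2) ^ S.card ≤ 1 := pow_le_one₀ (by linarith) (by linarith)
    have hτ0 : 0 ≤ (1 - ρ / 2) ^ S.card := pow_nonneg (by linarith) _
    have hqS := hq S
    rcases hg S with h | ⟨h, hKS⟩
    · rw [h]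
      have : 0 ≤ (S.card : ℝ) * q S / K := by positivity
      linarith
    · rw [h]
      have h3 : q S ≤ (S.card : ℝ) * q S / K := by
        rw [le_div_iff₀ hK, mul_comm]
        exact mul_le_mul_of_nonneg_right hKS hqS
      have h4 : 0 ≤ q S * (1 - ρ / 2) ^ S.card := mul_nonneg hqS hτ0
      linarith

theorem influence_bound (r : ℕ) (hr : 2 ≤ r) : InfluenceBound r := by
  obtain ⟨Λ0, hΛ0⟩ := big r
  refine ⟨1 / 10 ^ 8, by norm_num, 10 ^ 4, by norm_num, ⌈Real.exp Λ0⌉₊ + 1, ?_⟩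
  intro n hn p hp0 hp1 hL f hf hinv
  by_contra hcon
  push Not at hcon
  -- basic quantities
  have hn1 : (1 : ℝ) ≤ n := by
    have : 1 ≤ n := by omega
    exact_mod_cast this
  have hnpos : (0 : ℝ) < n := by linarith
  have hΛge : Λ0 ≤ Real.log n := by
    rw [Real.le_log_iff_exp_le hnpos]
    have h1 : Real.exp Λ0 ≤ ⌈Real.exp Λ0⌉₊ := Nat.le_ceil _
    have h2 : ((⌈Real.exp Λ0⌉₊ : ℕ) : ℝ) ≤ n := by
      have : ⌈Real.exp Λ0⌉₊ ≤ n := by omega
      exact_mod_cast this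
    linarith
  obtain ⟨hb1, hb2, hb3, hb4, hb5, hb6⟩ := hΛ0 (Real.log n) hΛge
  have hexpΛ : Real.exp (Real.log n) = n := Real.exp_log hnpos
  have hsqrtn : Real.sqrt n = Real.exp (Real.log n / 2) := by
    conv_lhs => rw [← hexpΛ]
    rw [← Real.exp_half]
  generalize hΛdef : Real.log n = Λ at *
  have hΛpos : 0 < Λ := by linarith
  have hc20 : 20 ≤ cc p := cc_ge hp0 hp1
  have hls := l_div_s hp0 hp1 hΛpos.le hL
  have hcpos : 0 < cc p := by linarith
  obtain ⟨L, hLdef⟩ : ∃ L, L = Λ / cc p := ⟨_, rfl⟩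
  have hLge : 10 ^ 4 ≤ L := by
    rw [hLdef, le_div_iff₀ hcpos]; exact hL
  have hL4 : (10000 : ℝ) ≤ L := by norm_num at hLge; exact hLge
  have hLpos : 0 < L := by linarith
  have hcL : cc p * L = Λ := by rw [hLdef]; field_simp
  have hLΛ : L ≤ Λ := by
    rw [← hcL]; nlinarith
  rw [← hLdef] at hcon
  have hspos : 0 < Real.sqrt (p * (1 - p)) := sqrt_pq_pos hp0 hp1
  obtain ⟨l, hl⟩ : ∃ l, l = Real.exp (-(Λ / 200)) := ⟨_, rfl⟩
  rw [← hl] at hls
  have hlpos : 0 < l := by rw [hl]; exact Real.exp_pos _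
  have hl1 : l ≤ 1 := by rw [hl, Real.exp_le_one_iff]; linarith
  have hlogl : Real.log (1 / l) = Λ / 200 := by
    rw [one_div, Real.log_inv, hl, Real.log_exp]; ring
  have hls0 : 0 < l / Real.sqrt (p * (1 - p)) := div_pos hlpos hspos
  have hls1 : l / Real.sqrt (p * (1 - p)) ≤ 1 := hls.trans hb6
  obtain ⟨ρ, hρ⟩ : ∃ ρ : ℝ, ρ = 1000 / L := ⟨_, rfl⟩
  have hρpos : 0 < ρ := by rw [hρ]; positivity
  have hρle : ρ ≤ 1 / 10 := by
    rw [hρ, div_le_iff₀ hLpos]; linarith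
  have hinvρ : 1 / ρ = L / 1000 := by rw [hρ]; field_simp
  obtain ⟨K, hK⟩ : ∃ K : ℝ, K = (1 / ρ) ^ ((r : ℝ) / ((r : ℝ) - 1)) := ⟨_, rfl⟩
  obtain ⟨hKpos, hKle, hKr, hLa⟩ := params hr hLge hρ hK
  have hgood := good_iff hr hρpos hKpos hKr
  -- Fourier weights
  have hq0 : ∀ S : Finset (Edge n r), 0 ≤ (fc p f S) ^ 2 := fun S => sq_nonneg _
  have hqsum : ∑ S : Finset (Edge n r), (fc p f S) ^ 2 = 1 := by
    rw [parseval hp0 hp1]
    have : ∀ x, f x ^ 2 = 1 := fun x => by rcases hf x with h | h <;> rw [h] <;> norm_num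
    rw [EE_congr p this, EE_const]
  have hVsum : (∑ S : Finset (Edge n r), if S = ∅ then 0 else (fc p f S) ^ 2)
      = 1 - (fc p f ∅) ^ 2 := by
    have h1 : ∑ S : Finset (Edge n r), (fc p f S) ^ 2
        = (∑ S : Finset (Edge n r), if S = ∅ then 0 else (fc p f S) ^ 2) + (fc p f ∅) ^ 2 := by
      have h2 : (fc p f ∅) ^ 2
          = ∑ S : Finset (Edge n r), if S = ∅ then (fc p f S) ^ 2 else 0 := by
        rw [Finset.sum_ite_eq']; simp
      rw [h2, ← Finset.sum_add_distrib]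
      refine Finset.sum_congr rfl (fun S _ => ?_)
      split_ifs <;> ring
    rw [hqsum] at h1
    linarith
  have hV0 : 0 ≤ 1 - (fc p f ∅) ^ 2 := by
    rw [← hVsum]
    refine Finset.sum_nonneg (fun S _ => ?_)
    split_ifs
    · exact le_refl _
    · exact hq0 S
  have hV1 : 1 - (fc p f ∅) ^ 2 ≤ 1 := by linarith [sq_nonneg (fc p f ∅)]
  have hI0 : 0 ≤ ∑ S : Finset (Edge n r), (S.card : ℝ) * (fc p f S) ^ 2 :=
    Finset.sum_nonneg (fun S _ => mul_nonneg (Nat.cast_nonneg _) (sq_nonneg _))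
  have hIlt : ∑ S : Finset (Edge n r), (S.card : ℝ) * (fc p f S) ^ 2
      < (1 - (fc p f ∅) ^ 2) * K / 100 := by
    refine lt_of_lt_of_le hcon ?_
    have h1 : 1 / 10 ^ 8 * (1 - (fc p f ∅) ^ 2) * L ^ ((r : ℝ) / ((r : ℝ) - 1))
        ≤ 1 / 10 ^ 8 * (1 - (fc p f ∅) ^ 2) * (10 ^ 6 * K) :=
      mul_le_mul_of_nonneg_left hLa (mul_nonneg (by norm_num) hV0)
    refine h1.trans (le_of_eq ?_)
    ring
  have hKΛ : K ≤ Λ ^ 2 := by
    refine hKle.trans ?_
    exact pow_le_pow_left₀ (by positivity) (by linarith) 2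
  have hsqrt : 2 * (r : ℝ) ≤ Real.sqrt n := by
    rw [hsqrtn]
    refine le_trans ?_ hb5
    have h1 : 1 ≤ Λ ^ 2 := by nlinarith
    have h0 : (0 : ℝ) ≤ 2 * r := by positivity
    calc 2 * (r : ℝ) = 2 * r * 1 := by ring
      _ ≤ 2 * r * Λ ^ 2 := mul_le_mul_of_nonneg_left h1 h0
  have hKcond : ∀ m : ℕ, (m : ℝ) ^ (r - 1) * ρ ^ r ≤ 1 → 2 * ((r : ℝ) * m) ≤ Real.sqrt n := by
    intro m hm
    rw [hsqrtn]
    refine le_trans ?_ hb5
    have h1 : (m : ℝ) ≤ Λ ^ 2 := ((hgood m).mp hm).trans hKΛ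
    have h0 : (0 : ℝ) ≤ 2 * r := by positivity
    calc 2 * ((r : ℝ) * m) = 2 * r * m := by ring
      _ ≤ 2 * r * Λ ^ 2 := mul_le_mul_of_nonneg_left h1 h0
  -- main integrated inequality
  have hmain := main_integrated hp0 hp1 (fun S => (fc p f S) ^ 2) (fun S =>
    if (S.card : ℝ) ^ (r - 1) * ρ ^ r ≤ 1 then (fc p f S) ^ 2 else 0) hq0
    (fun S => by
      split_ifs
      · exact hq0 S
      · exact le_refl _) hρpos (by linarith) hlpos hl1
    (ℓ := Λ / 2) (by positivity) (fun t ht0 ht1 => by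
      have h1 := lower_bound hr hp0 hp1 f hf hinv hρpos (by linarith : ρ < 1)
        (by linarith : 0 < t) ht1 hKcond
      have h2 := master hp0 hp1 f hf hρpos (by linarith : ρ < 1) (by linarith : 0 < t) ht1 hlpos
      rw [hΛdef] at h1
      exact h1.trans h2)
  rw [hVsum, hlogl] at hmain
  -- the KKL part
  have hNlog : Λ ≤ Real.log (Fintype.card (Edge n r)) := by
    rw [← hΛdef]; exact log_card_edge hr hsqrt
  have hIexp : ∑ S : Finset (Edge n r), (S.card : ℝ) * (fc p f S) ^ 2 ≤ Real.exp (Λ / 8) := by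
    refine le_trans ?_ hb4
    refine hIlt.le.trans ?_
    have h1 : (1 - (fc p f ∅) ^ 2) * K ≤ 1 * Λ ^ 2 :=
      mul_le_mul hV1 hKΛ hKpos.le (by norm_num)
    have h2 : 0 ≤ (1 - (fc p f ∅) ^ 2) * K := mul_nonneg hV0 hKpos.le
    linarith
  have hkkl := kkl_integrated (fun S => (fc p f S) ^ 2) hq0 (t0 := 1 / 1000) (τ := 1 - ρ / 2)
    (D := Λ / 2) (c := cc p)
    (b := (l / Real.sqrt (p * (1 - p))) *
      (∑ S : Finset (Edge n r), (S.card : ℝ) * (fc p f S) ^ 2)) (by norm_num) (by linarith)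
    (by linarith) (by positivity) hcpos.le (mul_nonneg hls0.le hI0) (fun t ht0 ht1 =>
      kkl_numeric hp0 hp1 f hf (transInv_of_invariant f hinv) hΛpos hNlog hl hIexp
        (by linarith) (by linarith))
  rw [hVsum] at hkkl
  have hmass := mass_bound (fun S => (fc p f S) ^ 2) (fun S =>
    if (S.card : ℝ) ^ (r - 1) * ρ ^ r ≤ 1 then (fc p f S) ^ 2 else 0) hq0 hρpos
    (by linarith : ρ ≤ 1) hKpos (fun S => by
      by_cases h : (S.card : ℝ) ^ (r - 1) * ρ ^ r ≤ 1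
      · left; rw [if_pos h]
      · right
        rw [if_neg h]
        refine ⟨rfl, ?_⟩
        by_contra hlt
        push Not at hlt
        exact h ((hgood S.card).mpr hlt.le))
  rw [hVsum] at hmass
  have hVpos : 0 < 1 - (fc p f ∅) ^ 2 := by
    rcases hV0.eq_or_lt with h | h
    · rw [← h] at hIlt
      simp only [zero_mul, zero_div] at hIlt
      linarith
    · exact h
  have hlogρ : Real.log (1 / ρ) ≤ Λ / 100 := by
    refine le_trans (Real.log_le_log (by positivity) ?_) hb2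
    rw [hinvρ]; linarith
  have hb3' : l / Real.sqrt (p * (1 - p)) * Λ * 20 ≤ 1 / 1000 := by
    refine le_trans ?_ hb3
    have := mul_le_mul_of_nonneg_right hls (by positivity : 0 ≤ Λ * 20)
    linarith
  exact numeric_contradiction hb1 hb3' hls0 hls1 hc20 hcL hLpos hρ hVpos hI0 hKpos hKle hKΛ hIlt
    hlogρ hkkl hmass hmain

end Vale.Agent.P063
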