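import Vale.Agent.P063.Defs

/-!
Fourier analysis on the `p`-biased cube: product formula, orthonormality, inversion, Parseval,
influences.
-/

namespace Vale.Agent.P063

open Finset

set_option linter.unusedSectionVars false

variable {ι : Type*} [Fintype ι] [DecidableEq ι]

lemma EE_prod (p : ℝ) (h : ι → Bool → ℝ) :
    EE p (fun x : ι → Bool => ∏ i, h i (x i)) = ∏ i, (p * h i true + (1 - p) * h i false) := by
  unfold EE
  have h1 : ∀ x : ι → Bool, (∏ i, wt p (x i)) * ∏ i, h i (x i) = ∏ i, (wt p (x i) * h i (x i)) :=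
    fun x => (Finset.prod_mul_distrib).symm
  simp_rw [h1]
  have h2 := Finset.prod_univ_sum (fun _ : ι => (Finset.univ : Finset Bool))
    (fun i b => wt p b * h i b)
  rw [Fintype.piFinset_univ] at h2
  rw [← h2]
  refine Finset.prod_congr rfl (fun i _ => ?_)
  rw [Fintype.sum_bool]
  simp [wt]

lemma EE_add (p : ℝ) (F G : (ι → Bool) → ℝ) :
    EE p (fun x => F x + G x) = EE p F + EE p G := by
  unfold EE
  rw [← Finset.sum_add_distrib]
  exact Finset.sum_congr rfl (fun x _ => by ring)

lemma EE_sub (p : ℝ) (F G : (ι → Bool) → ℝ) :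
    EE p (fun x => F x - G x) = EE p F - EE p G := by
  unfold EE
  rw [← Finset.sum_sub_distrib]
  exact Finset.sum_congr rfl (fun x _ => by ring)

lemma EE_mul_left (p c : ℝ) (F : (ι → Bool) → ℝ) :
    EE p (fun x => c * F x) = c * EE p F := by
  unfold EE
  rw [Finset.mul_sum]
  exact Finset.sum_congr rfl (fun x _ => by ring)

lemma EE_mul_right (p c : ℝ) (F : (ι → Bool) → ℝ) :
    EE p (fun x => F x * c) = EE p F * c := by
  unfold EE
  rw [Finset.sum_mul]
  exact Finset.sum_congr rfl (fun x _ => by ring)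

lemma EE_sum {α : Type*} (p : ℝ) (s : Finset α) (F : α → (ι → Bool) → ℝ) :
    EE p (fun x => ∑ a ∈ s, F a x) = ∑ a ∈ s, EE p (F a) := by
  unfold EE
  rw [Finset.sum_comm]
  refine Finset.sum_congr rfl (fun x _ => ?_)
  rw [Finset.mul_sum]

lemma EE_const (p c : ℝ) : EE p (fun _ : ι → Bool => c) = c := by
  have h := EE_prod (ι := ι) p (fun _ _ => 1)
  simp only [Finset.prod_const_one, mul_one] at h
  have h2 : EE p (fun _ : ι → Bool => c) = c * EE p (fun _ : ι → Bool => (1 : ℝ)) := by
    rw [← EE_mul_left]; simp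
  rw [h2, h]
  simp

lemma wt_nonneg {p : ℝ} (hp0 : 0 ≤ p) (hp1 : p ≤ 1) (b : Bool) : 0 ≤ wt p b := by
  unfold wt; split_ifs <;> linarith

lemma wt_pos {p : ℝ} (hp0 : 0 < p) (hp1 : p < 1) (b : Bool) : 0 < wt p b := by
  unfold wt; split_ifs <;> linarith

lemma EE_mono {p : ℝ} (hp0 : 0 ≤ p) (hp1 : p ≤ 1) {F G : (ι → Bool) → ℝ}
    (h : ∀ x, F x ≤ G x) : EE p F ≤ EE p G := by
  unfold EE
  exact Finset.sum_le_sum (fun x _ => mul_le_mul_of_nonneg_left (h x)
    (Finset.prod_nonneg (fun i _ => wt_nonneg hp0 hp1 _)))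

lemma EE_nonneg {p : ℝ} (hp0 : 0 ≤ p) (hp1 : p ≤ 1) {F : (ι → Bool) → ℝ}
    (h : ∀ x, 0 ≤ F x) : 0 ≤ EE p F := by
  unfold EE
  exact Finset.sum_nonneg (fun x _ => mul_nonneg
    (Finset.prod_nonneg (fun i _ => wt_nonneg hp0 hp1 _)) (h x))

lemma EE_congr (p : ℝ) {F G : (ι → Bool) → ℝ} (h : ∀ x, F x = G x) : EE p F = EE p G := by
  have : F = G := funext h
  rw [this]

lemma EE_comm (p : ℝ) (F : (ι → Bool) → (ι → Bool) → ℝ) :
    EE p (fun x => EE p (fun y => F x y)) = EE p (fun y => EE p (fun x => F x y)) := by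
  unfold EE
  simp_rw [Finset.mul_sum]
  rw [Finset.sum_comm]
  exact Finset.sum_congr rfl (fun x _ => Finset.sum_congr rfl (fun y _ => by ring))

section ph

variable {p : ℝ}

lemma sq_sqrt_pq (hp0 : 0 < p) (hp1 : p < 1) :
    Real.sqrt (p * (1 - p)) ^ 2 = p * (1 - p) :=
  Real.sq_sqrt (by nlinarith)

lemma sqrt_pq_pos (hp0 : 0 < p) (hp1 : p < 1) : 0 < Real.sqrt (p * (1 - p)) :=
  Real.sqrt_pos.mpr (by nlinarith)

lemma ph_mean (_hp0 : 0 < p) (_hp1 : p < 1) : p * ph p true + (1 - p) * ph p false = 0 := by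
  unfold ph
  simp only [if_true, Bool.false_eq_true, if_false]
  ring

lemma ph_sq_true (hp0 : 0 < p) (hp1 : p < 1) : ph p true ^ 2 = (1 - p) / p := by
  unfold ph
  rw [div_pow, sq_sqrt_pq hp0 hp1]
  simp only [if_true]
  field_simp

lemma ph_sq_false (hp0 : 0 < p) (hp1 : p < 1) : ph p false ^ 2 = p / (1 - p) := by
  unfold ph
  have h1 : (1 - p) ≠ 0 := by linarith
  rw [div_pow, sq_sqrt_pq hp0 hp1]
  simp only [Bool.false_eq_true, if_false]
  field_simp
  ring

lemma ph_mul (hp0 : 0 < p) (hp1 : p < 1) : ph p true * ph p false = -1 := by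
  unfold ph
  have h1 : (1 - p) ≠ 0 := by linarith
  rw [div_mul_div_comm, ← sq, sq_sqrt_pq hp0 hp1]
  simp only [if_true, Bool.false_eq_true, if_false]
  field_simp
  ring

lemma ph_var (hp0 : 0 < p) (hp1 : p < 1) :
    p * (ph p true * ph p true) + (1 - p) * (ph p false * ph p false) = 1 := by
  have h1 := ph_sq_true hp0 hp1
  have h2 := ph_sq_false hp0 hp1
  have h3 : (1 - p) ≠ 0 := by linarith
  rw [← sq, ← sq, h1, h2]
  field_simp
  ring

lemma ph_diff (_hp0 : 0 < p) (_hp1 : p < 1) :
    ph p true - ph p false = 1 / Real.sqrt (p * (1 - p)) := by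
  unfold ph
  simp only [if_true, Bool.false_eq_true, if_false]
  ring

lemma one_add_ph (hp0 : 0 < p) (hp1 : p < 1) (a b : Bool) :
    1 + ph p a * ph p b = if a = b then 1 / wt p a else 0 := by
  have h3 : (1 - p) ≠ 0 := by linarith
  cases a <;> cases b
  · have := ph_sq_false hp0 hp1
    rw [sq] at this
    simp only [if_true, wt, Bool.false_eq_true, if_false]
    rw [this]; field_simp; ring
  · have := ph_mul hp0 hp1
    simp; linarith
  · have := ph_mul hp0 hp1
    simp; linarith
  · have := ph_sq_true hp0 hp1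
    rw [sq] at this
    simp only [if_true, wt]
    rw [this]; field_simp; ring

lemma one_add_s_ph_nonneg (hp0 : 0 < p) (hp1 : p < 1) {s : ℝ} (hs0 : 0 ≤ s) (hs1 : s ≤ 1)
    (a b : Bool) : 0 ≤ 1 + s * (ph p a * ph p b) := by
  have h := one_add_ph hp0 hp1 a b
  have h2 : 0 ≤ 1 + ph p a * ph p b := by
    rw [h]
    split_ifs
    · exact le_of_lt (div_pos one_pos (wt_pos hp0 hp1 a))
    · exact le_refl _
  nlinarith

end ph

section chi

variable {p : ℝ}

lemma chi_eq_prod (p : ℝ) (S : Finset ι) (x : ι → Bool) :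
    chi p S x = ∏ i, (if i ∈ S then ph p (x i) else 1) := by
  unfold chi
  rw [Finset.prod_ite_mem]
  simp

lemma chi_orthonormal (hp0 : 0 < p) (hp1 : p < 1) (S T : Finset ι) :
    EE p (fun x => chi p S x * chi p T x) = if S = T then 1 else 0 := by
  have h1 : ∀ x : ι → Bool, chi p S x * chi p T x =
      ∏ i, ((if i ∈ S then ph p (x i) else 1) * (if i ∈ T then ph p (x i) else 1)) := by
    intro x
    rw [chi_eq_prod, chi_eq_prod, ← Finset.prod_mul_distrib]
  rw [EE_congr p h1]
  rw [EE_prod p (fun i b => (if i ∈ S then ph p b else 1) * (if i ∈ T then ph p b else 1))]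
  split_ifs with h
  · subst h
    refine Finset.prod_eq_one (fun i _ => ?_)
    by_cases hi : i ∈ S
    · simp only [hi, if_true]; exact ph_var hp0 hp1
    · simp only [hi, if_false]; ring
  · have : ∃ i, ¬ (i ∈ S ↔ i ∈ T) := by
      by_contra hcon
      push Not at hcon
      exact h (Finset.ext hcon)
    obtain ⟨i, hi⟩ := this
    refine Finset.prod_eq_zero (Finset.mem_univ i) ?_
    have hm := ph_mean hp0 hp1
    by_cases h1 : i ∈ S
    · have h2 : i ∉ T := fun h2 => hi (by tauto)
      simp only [h1, h2, if_true, if_false, mul_one]; exact hm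
    · have h2 : i ∈ T := by by_contra h2; exact hi (by tauto)
      simp only [h1, h2, if_true, if_false, one_mul]; exact hm

lemma sum_chi_mul_chi (s : ℝ) (x y : ι → Bool) :
    ∑ S : Finset ι, s ^ S.card * (chi p S x * chi p S y)
      = ∏ i, (1 + s * (ph p (x i) * ph p (y i))) := by
  rw [Finset.prod_one_add]
  rw [Finset.powerset_univ]
  refine Finset.sum_congr rfl (fun S _ => ?_)
  unfold chi
  rw [Finset.prod_mul_distrib, Finset.prod_const, Finset.prod_mul_distrib]

lemma inversion (hp0 : 0 < p) (hp1 : p < 1) (f : (ι → Bool) → ℝ) (x : ι → Bool) :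
    f x = ∑ S : Finset ι, fc p f S * chi p S x := by
  have h1 : ∑ S : Finset ι, fc p f S * chi p S x
      = EE p (fun y => f y * ∏ i, (1 + 1 * (ph p (y i) * ph p (x i)))) := by
    have : ∀ y : ι → Bool, f y * ∏ i, (1 + 1 * (ph p (y i) * ph p (x i)))
        = ∑ S : Finset ι, (f y * chi p S y) * chi p S x := by
      intro y
      rw [← sum_chi_mul_chi, Finset.mul_sum]
      exact Finset.sum_congr rfl (fun S _ => by rw [one_pow]; ring)
    rw [EE_congr p this, EE_sum]
    refine Finset.sum_congr rfl (fun S _ => ?_)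
    rw [EE_mul_right]
    rfl
  rw [h1]
  unfold EE
  rw [Finset.sum_eq_single x]
  · have : ∀ i, 1 + 1 * (ph p (x i) * ph p (x i)) = 1 / wt p (x i) := by
      intro i
      rw [one_mul, one_add_ph hp0 hp1]; simp
    simp_rw [this]
    have h2 : (∏ i, wt p (x i)) * ∏ i, (1 / wt p (x i)) = 1 := by
      rw [← Finset.prod_mul_distrib]
      refine Finset.prod_eq_one (fun i _ => ?_)
      have := wt_pos hp0 hp1 (x i)
      field_simp
    calc f x = f x * ((∏ i, wt p (x i)) * ∏ i, (1 / wt p (x i))) := by rw [h2, mul_one]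
      _ = _ := by ring
  · intro y _ hy
    have : ∃ i, y i ≠ x i := by
      by_contra hcon
      push Not at hcon
      exact hy (funext hcon)
    obtain ⟨i, hi⟩ := this
    have h2 : ∏ i, (1 + 1 * (ph p (y i) * ph p (x i))) = 0 := by
      refine Finset.prod_eq_zero (Finset.mem_univ i) ?_
      rw [one_mul, one_add_ph hp0 hp1, if_neg hi]
    simp only [h2, mul_zero]
  · intro h; exact absurd (Finset.mem_univ x) h

lemma inversion_syn (hp0 : 0 < p) (hp1 : p < 1) (f : (ι → Bool) → ℝ) :
    f = syn p (fc p f) := funext (fun x => inversion hp0 hp1 f x)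

lemma fc_syn (hp0 : 0 < p) (hp1 : p < 1) (a : Finset ι → ℝ) (S : Finset ι) :
    fc p (syn p a) S = a S := by
  unfold fc
  have h1 : ∀ x : ι → Bool, syn p a x * chi p S x
      = ∑ T : Finset ι, a T * (chi p T x * chi p S x) := by
    intro x
    unfold syn
    rw [Finset.sum_mul]
    exact Finset.sum_congr rfl (fun T _ => by ring)
  rw [EE_congr p h1, EE_sum]
  simp_rw [EE_mul_left, chi_orthonormal hp0 hp1]
  simp

lemma parseval_syn (hp0 : 0 < p) (hp1 : p < 1) (a : Finset ι → ℝ) :
    EE p (fun x => syn p a x ^ 2) = ∑ S : Finset ι, a S ^ 2 := by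
  have h1 : ∀ x : ι → Bool, syn p a x ^ 2 = ∑ S : Finset ι, a S * (syn p a x * chi p S x) := by
    intro x
    rw [sq]
    conv_lhs => rw [show syn p a x * syn p a x = syn p a x * ∑ S : Finset ι, a S * chi p S x from rfl]
    rw [Finset.mul_sum]
    exact Finset.sum_congr rfl (fun S _ => by ring)
  rw [EE_congr p h1, EE_sum]
  refine Finset.sum_congr rfl (fun S _ => ?_)
  rw [EE_mul_left]
  have := fc_syn hp0 hp1 a S
  unfold fc at this
  rw [this, sq]

theorem parseval (hp0 : 0 < p) (hp1 : p < 1) (f : (ι → Bool) → ℝ) :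
    ∑ S : Finset ι, (fc p f S) ^ 2 = EE p (fun x => f x ^ 2) := by
  rw [← parseval_syn hp0 hp1]
  congr 1
  rw [← inversion_syn hp0 hp1]

/-- coefficients of the (normalized) derivative in direction `i` -/
def der (i : ι) (a : Finset ι → ℝ) : Finset ι → ℝ :=
  fun T => if i ∈ T then 0 else a (insert i T)

lemma chi_update (p : ℝ) (S : Finset ι) (x : ι → Bool) (i : ι) (b : Bool) :
    chi p S (Function.update x i b) = if i ∈ S then ph p b * chi p (S.erase i) x else chi p S x := by
  unfold chi
  split_ifs with h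
  · rw [← Finset.mul_prod_erase S _ h]
    congr 1
    · simp
    · refine Finset.prod_congr rfl (fun j hj => ?_)
      rw [Function.update_of_ne (Finset.ne_of_mem_erase hj)]
  · refine Finset.prod_congr rfl (fun j hj => ?_)
    rw [Function.update_of_ne (fun hji => h (by rw [← hji]; exact hj))]

lemma sum_erase_mem (i : ι) (g : Finset ι → ℝ) (hg : ∀ T, i ∈ T → g T = 0) :
    ∑ T : Finset ι, g T = ∑ S : Finset ι, if i ∈ S then g (S.erase i) else 0 := by
  have h1 : ∑ T : Finset ι, g T = ∑ T ∈ (Finset.univ : Finset (Finset ι)) with i ∉ T, g T := by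
    rw [Finset.sum_filter]
    refine Finset.sum_congr rfl (fun T _ => ?_)
    by_cases h : i ∈ T
    · simp [h, hg T h]
    · simp [h]
  rw [h1, ← Finset.sum_filter]
  refine Finset.sum_bij' (fun T _ => insert i T) (fun S _ => S.erase i) ?_ ?_ ?_ ?_ ?_
  · intro T hT; simp
  · intro S hS; simp
  · intro T hT
    have : i ∉ T := by simpa using hT
    exact Finset.erase_insert this
  · intro S hS
    have : i ∈ S := by simpa using hS
    exact Finset.insert_erase this
  · intro T hT
    have : i ∉ T := by simpa using hT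
    simp [Finset.erase_insert this]

lemma diff_syn (hp0 : 0 < p) (hp1 : p < 1) (a : Finset ι → ℝ) (i : ι) (x : ι → Bool) :
    Real.sqrt (p * (1 - p)) *
      (syn p a (Function.update x i true) - syn p a (Function.update x i false))
      = syn p (der i a) x := by
  have h0 := sqrt_pq_pos hp0 hp1
  have h1 : syn p (der i a) x
      = ∑ S : Finset ι, if i ∈ S then (der i a (S.erase i) * chi p (S.erase i) x) else 0 := by
    unfold syn
    exact sum_erase_mem i (fun T => der i a T * chi p T x) (fun T hT => by simp [der, hT])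
  rw [h1]
  unfold syn
  rw [← Finset.sum_sub_distrib, Finset.mul_sum]
  refine Finset.sum_congr rfl (fun S _ => ?_)
  rw [chi_update, chi_update]
  split_ifs with h
  · have h2 : der i a (S.erase i) = a S := by
      simp [der, Finset.insert_erase h]
    rw [h2]
    have h3 := ph_diff hp0 hp1
    have : Real.sqrt (p * (1 - p)) * (a S * (ph p true * chi p (S.erase i) x)
        - a S * (ph p false * chi p (S.erase i) x))
        = (Real.sqrt (p * (1 - p)) * (ph p true - ph p false)) * (a S * chi p (S.erase i) x) := by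
      ring
    rw [this, h3, mul_one_div_cancel (ne_of_gt h0), one_mul]
  · ring

lemma sum_der_sq (i : ι) (a : Finset ι → ℝ) (w : ℕ → ℝ) :
    ∑ T : Finset ι, w (T.card + 1) * der i a T ^ 2
      = ∑ S : Finset ι, if i ∈ S then w S.card * a S ^ 2 else 0 := by
  rw [sum_erase_mem i (fun T => w (T.card + 1) * der i a T ^ 2)
    (fun T hT => by simp [der, hT])]
  refine Finset.sum_congr rfl (fun S _ => ?_)
  split_ifs with h
  · have h2 : der i a (S.erase i) = a S := by
      simp [der, Finset.insert_erase h]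
    rw [h2, Finset.card_erase_of_mem h]
    have : S.card - 1 + 1 = S.card := Nat.sub_add_cancel (Finset.card_pos.mpr ⟨i, h⟩)
    rw [this]
  · rfl

lemma sum_ite_mem_card (g : Finset ι → ℝ) :
    ∑ i : ι, ∑ S : Finset ι, (if i ∈ S then g S else 0) = ∑ S : Finset ι, (S.card : ℝ) * g S := by
  rw [Finset.sum_comm]
  refine Finset.sum_congr rfl (fun S _ => ?_)
  rw [← Finset.sum_filter]
  simp

/-- the energy in direction `i` equals the sum of squared coefficients at sets containing `i` -/
lemma influence_one (hp0 : 0 < p) (hp1 : p < 1) (f : (ι → Bool) → ℝ) (i : ι) :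
    p * (1 - p) * EE p (fun x =>
      (f (Function.update x i true) - f (Function.update x i false)) ^ 2)
      = ∑ S : Finset ι, if i ∈ S then (fc p f S) ^ 2 else 0 := by
  have h1 : ∀ x : ι → Bool, p * (1 - p) *
      (f (Function.update x i true) - f (Function.update x i false)) ^ 2
      = syn p (der i (fc p f)) x ^ 2 := by
    intro x
    rw [← diff_syn hp0 hp1, ← inversion_syn hp0 hp1, mul_pow, sq_sqrt_pq hp0 hp1]
  rw [← EE_mul_left, EE_congr p h1, parseval_syn hp0 hp1]
  have := sum_der_sq i (fc p f) (fun _ => 1)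
  simpa using this

theorem influence_formula (hp0 : 0 < p) (hp1 : p < 1) (f : (ι → Bool) → ℝ) :
    ∑ S : Finset ι, (S.card : ℝ) * (fc p f S) ^ 2
      = ∑ i, p * (1 - p) * EE p (fun x =>
        (f (Function.update x i true) - f (Function.update x i false)) ^ 2) := by
  simp_rw [influence_one hp0 hp1]
  rw [sum_ite_mem_card]

end chi

end Vale.Agent.P063
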