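import Vale.Agent.P063.Defs

/-!
Binomial identities over subsets for P063.
-/

namespace Vale.Agent.P063

open Finset

variable {ι : Type*} [DecidableEq ι]

/-- (C1) the trace on `S` of a `ρ`-random set is a `ρ`-random subset of `S`. -/
theorem binom_trace [Fintype ι] (S : Finset ι) (ρ : ℝ) (ψ : Finset ι → ℝ) :
    ∑ R : Finset ι, ρ ^ R.card * (1 - ρ) ^ (Fintype.card ι - R.card) * ψ (S ∩ R) =
      ∑ J ∈ S.powerset, ρ ^ J.card * (1 - ρ) ^ (S.card - J.card) * ψ J := by
  classical
  have h1 : ∑ R : Finset ι, ρ ^ R.card * (1 - ρ) ^ (Fintype.card ι - R.card) * ψ (S ∩ R) =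
      ∑ q ∈ S.powerset ×ˢ (Sᶜ).powerset,
        (ρ ^ q.1.card * (1 - ρ) ^ (S.card - q.1.card) * ψ q.1) *
          (ρ ^ q.2.card * (1 - ρ) ^ ((Sᶜ).card - q.2.card)) := by
    refine Finset.sum_nbij' (fun R => (S ∩ R, Sᶜ ∩ R)) (fun q => q.1 ∪ q.2) ?_ ?_ ?_ ?_ ?_
    · intro R _
      simp only [Finset.mem_product, Finset.mem_powerset]
      exact ⟨Finset.inter_subset_left, Finset.inter_subset_left⟩
    · intro q _
      exact Finset.mem_univ _
    · intro R _
      ext a
      simp only [Finset.mem_union, Finset.mem_inter, Finset.mem_compl]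
      tauto
    · intro q hq
      simp only [Finset.mem_product, Finset.mem_powerset] at hq
      obtain ⟨hq1, hq2⟩ := hq
      ext a
      · simp only [Finset.mem_union, Finset.mem_inter]
        constructor
        · rintro ⟨h1, h2 | h2⟩
          · exact h2
          · exact absurd h1 (Finset.mem_compl.1 (hq2 h2))
        · intro h
          exact ⟨hq1 h, Or.inl h⟩
      · simp only [Finset.mem_union, Finset.mem_inter]
        constructor
        · rintro ⟨h1, h2 | h2⟩
          · exact absurd (hq1 h2) (Finset.mem_compl.1 h1)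
          · exact h2
        · intro h
          exact ⟨hq2 h, Or.inr h⟩
    · intro R _
      have hc : (S ∩ R).card + (Sᶜ ∩ R).card = R.card := by
        rw [Finset.inter_comm S R, Finset.inter_comm Sᶜ R, ← Finset.sdiff_eq_inter_compl]
        exact Finset.card_inter_add_card_sdiff R S
      have hS : S.card + (Sᶜ).card = Fintype.card ι := Finset.card_add_card_compl S
      have hle1 : (S ∩ R).card ≤ S.card := Finset.card_le_card Finset.inter_subset_left
      have hle2 : (Sᶜ ∩ R).card ≤ (Sᶜ).card := Finset.card_le_card Finset.inter_subset_left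
      have he : Fintype.card ι - R.card =
          (S.card - (S ∩ R).card) + ((Sᶜ).card - (Sᶜ ∩ R).card) := by omega
      simp only
      rw [he, ← hc, pow_add, pow_add]
      ring
  rw [h1, Finset.sum_product]
  apply Finset.sum_congr rfl
  intro J _
  simp only
  rw [← Finset.mul_sum, Finset.sum_pow_mul_eq_add_pow]
  simp

/-- one-step recursion for sums over subsets -/
theorem sum_powerset_insert_weight {a : ι} {S : Finset ι} (ha : a ∉ S) (x y : ℝ) (g : ℕ → ℝ) :
    ∑ J ∈ (insert a S).powerset, x ^ J.card * y ^ ((insert a S).card - J.card) * g J.card =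
      ∑ J ∈ S.powerset, x ^ J.card * y ^ (S.card - J.card) *
        (y * g J.card + x * g (J.card + 1)) := by
  rw [Finset.sum_powerset_insert ha, ← Finset.sum_add_distrib]
  apply Finset.sum_congr rfl
  intro J hJ
  rw [Finset.mem_powerset] at hJ
  have haJ : a ∉ J := fun h => ha (hJ h)
  have hle : J.card ≤ S.card := Finset.card_le_card hJ
  rw [Finset.card_insert_of_notMem ha, Finset.card_insert_of_notMem haJ]
  have e1 : S.card + 1 - J.card = (S.card - J.card) + 1 := by omega
  have e2 : S.card + 1 - (J.card + 1) = S.card - J.card := by omega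
  rw [e1, e2, pow_succ, pow_succ]
  ring

omit [DecidableEq ι] in
theorem sum_powerset_one (S : Finset ι) (x y : ℝ) :
    ∑ J ∈ S.powerset, x ^ J.card * y ^ (S.card - J.card) = (x + y) ^ S.card :=
  Finset.sum_pow_mul_eq_add_pow x y S

theorem sum_powerset_card (S : Finset ι) (x y : ℝ) :
    ∑ J ∈ S.powerset, x ^ J.card * y ^ (S.card - J.card) * (J.card : ℝ) =
      x * S.card * (x + y) ^ (S.card - 1) := by
  induction S using Finset.induction_on with
  | empty => simp
  | insert a S ha ih =>
    rw [sum_powerset_insert_weight ha x y (fun k => (k : ℝ))]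
    have h : ∀ J ∈ S.powerset, x ^ J.card * y ^ (S.card - J.card) *
        (y * (J.card : ℝ) + x * ((J.card + 1 : ℕ) : ℝ)) =
        (x + y) * (x ^ J.card * y ^ (S.card - J.card) * (J.card : ℝ)) +
          x * (x ^ J.card * y ^ (S.card - J.card)) := by
      intro J _
      push_cast
      ring
    rw [Finset.sum_congr rfl h, Finset.sum_add_distrib, ← Finset.mul_sum, ← Finset.mul_sum, ih,
      sum_powerset_one, Finset.card_insert_of_notMem ha]
    rcases Nat.eq_zero_or_pos S.card with h0 | h0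
    · rw [h0]; simp
    · obtain ⟨m, hm⟩ : ∃ m, S.card = m + 1 := ⟨S.card - 1, by omega⟩
      rw [hm]
      simp only [Nat.add_sub_cancel]
      push_cast
      ring

theorem sum_powerset_card_card (S : Finset ι) (x y : ℝ) :
    ∑ J ∈ S.powerset, x ^ J.card * y ^ (S.card - J.card) * ((J.card : ℝ) * ((J.card : ℝ) - 1)) =
      x ^ 2 * S.card * (S.card - 1) * (x + y) ^ (S.card - 2) := by
  induction S using Finset.induction_on with
  | empty => simp
  | insert a S ha ih =>
    rw [sum_powerset_insert_weight ha x y (fun k => (k : ℝ) * ((k : ℝ) - 1))]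
    have h : ∀ J ∈ S.powerset, x ^ J.card * y ^ (S.card - J.card) *
        (y * ((J.card : ℝ) * ((J.card : ℝ) - 1)) +
          x * (((J.card + 1 : ℕ) : ℝ) * (((J.card + 1 : ℕ) : ℝ) - 1))) =
        (x + y) * (x ^ J.card * y ^ (S.card - J.card) * ((J.card : ℝ) * ((J.card : ℝ) - 1))) +
          2 * x * (x ^ J.card * y ^ (S.card - J.card) * (J.card : ℝ)) := by
      intro J _
      push_cast
      ring
    rw [Finset.sum_congr rfl h, Finset.sum_add_distrib, ← Finset.mul_sum, ← Finset.mul_sum, ih,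
      sum_powerset_card, Finset.card_insert_of_notMem ha]
    rcases Nat.eq_zero_or_pos S.card with h0 | h0
    · rw [h0]; simp
    · obtain ⟨m, hm⟩ : ∃ m, S.card = m + 1 := ⟨S.card - 1, by omega⟩
      rw [hm]
      rcases Nat.eq_zero_or_pos m with h1 | h1
      · rw [h1]; norm_num
        ring
      · obtain ⟨k, hk⟩ : ∃ k, m = k + 1 := ⟨m - 1, by omega⟩
        rw [hk]
        have e1 : k + 1 + 1 - 2 = k := by omega
        have e2 : k + 1 + 1 - 1 = k + 1 := by omega
        have e3 : k + 1 + 1 + 1 - 2 = k + 1 := by omega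
        rw [e1, e2, e3]
        push_cast
        ring

/-- (C2) -/
theorem binom_C2 (S : Finset ι) (ρ t : ℝ) :
    ∑ J ∈ S.powerset, ρ ^ J.card * (1 - ρ) ^ (S.card - J.card) * t ^ J.card =
      (1 - ρ + ρ * t) ^ S.card := by
  rw [show 1 - ρ + ρ * t = ρ * t + (1 - ρ) by ring, ← sum_powerset_one]
  apply Finset.sum_congr rfl
  intro J _
  rw [mul_pow]; ring

/-- (C3) -/
theorem binom_C3 (S : Finset ι) (ρ t : ℝ) :
    ∑ J ∈ S.powerset, ρ ^ J.card * (1 - ρ) ^ (S.card - J.card) * t ^ J.card * (J.card : ℝ) =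
      ρ * t * S.card * (1 - ρ + ρ * t) ^ (S.card - 1) := by
  rw [show 1 - ρ + ρ * t = ρ * t + (1 - ρ) by ring, ← sum_powerset_card]
  apply Finset.sum_congr rfl
  intro J _
  rw [mul_pow]; ring

/-- (C4) -/
theorem binom_C4 (S : Finset ι) (ρ t : ℝ) :
    ∑ J ∈ S.powerset, ρ ^ J.card * (1 - ρ) ^ (S.card - J.card) * t ^ J.card *
        ((S.card : ℝ) - J.card) =
      (1 - ρ) * S.card * (1 - ρ + ρ * t) ^ (S.card - 1) := by
  have h : ∀ J ∈ S.powerset, ρ ^ J.card * (1 - ρ) ^ (S.card - J.card) * t ^ J.card *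
        ((S.card : ℝ) - J.card) =
        S.card * (ρ ^ J.card * (1 - ρ) ^ (S.card - J.card) * t ^ J.card) -
        ρ ^ J.card * (1 - ρ) ^ (S.card - J.card) * t ^ J.card * (J.card : ℝ) := by
    intro J _
    ring
  rw [Finset.sum_congr rfl h, Finset.sum_sub_distrib, ← Finset.mul_sum, binom_C2, binom_C3]
  rcases Nat.eq_zero_or_pos S.card with h0 | h0
  · rw [h0]; simp
  · obtain ⟨m, hm⟩ : ∃ m, S.card = m + 1 := ⟨S.card - 1, by omega⟩
    rw [hm]
    simp only [Nat.add_sub_cancel]
    ring

/-- (C5) -/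
theorem binom_C5 (S : Finset ι) (ρ t : ℝ) :
    ∑ J ∈ S.powerset, ρ ^ J.card * (1 - ρ) ^ (S.card - J.card) * t ^ J.card *
        ((J.card : ℝ) * ((J.card : ℝ) - 1)) =
      ρ ^ 2 * t ^ 2 * S.card * (S.card - 1) * (1 - ρ + ρ * t) ^ (S.card - 2) := by
  rw [show 1 - ρ + ρ * t = ρ * t + (1 - ρ) by ring, ← mul_pow, ← sum_powerset_card_card]
  apply Finset.sum_congr rfl
  intro J _
  rw [mul_pow]; ring

end Vale.Agent.P063
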