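import Vale.Agent.P063.Graph

/-!
Combinatorial lemmas for P063: orbit bound for vertex sets, and the degree lemma.
-/

namespace Vale.Agent.P063

open Finset

/-- Any two finsets of the same size in a finite type are related by a permutation. -/
theorem exists_perm_map_eq {α : Type*} [Fintype α] [DecidableEq α] (A B : Finset α)
    (h : A.card = B.card) : ∃ σ : Equiv.Perm α, A.map σ.toEmbedding = B := by
  classical
  let e : {x // x ∈ A} ≃ {x // x ∈ B} := Finset.equivOfCardEq h
  refine ⟨e.extendSubtype, ?_⟩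
  apply Finset.eq_of_subset_of_card_le
  · intro y hy
    rw [Finset.mem_map] at hy
    obtain ⟨x, hx, rfl⟩ := hy
    exact Equiv.extendSubtype_mem e x hx
  · rw [Finset.card_map, h]

theorem verts_image {n r : ℕ} (σ : Equiv.Perm (Fin n)) (J : Finset (Edge n r)) :
    verts (J.image (edgeMap σ)) = (verts J).map σ.toEmbedding := by
  classical
  ext u
  simp only [verts, Finset.mem_biUnion, Finset.mem_image, Finset.mem_map, edgeMap]
  constructor
  · rintro ⟨e, ⟨a, ha, rfl⟩, hu⟩
    simp only [Finset.mem_map] at hu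
    obtain ⟨x, hx, rfl⟩ := hu
    exact ⟨x, ⟨a, ha, hx⟩, rfl⟩
  · rintro ⟨x, ⟨a, ha, hx⟩, rfl⟩
    exact ⟨_, ⟨a, ha, rfl⟩, by simpa using hx⟩

theorem orbit_bound {n r : ℕ} (Q : Finset (Edge n r) → ℝ) (hQ : ∀ J, 0 ≤ Q J)
    (hsum : ∑ J, Q J ≤ 1)
    (hinv : ∀ (σ : Equiv.Perm (Fin n)) (J : Finset (Edge n r)), Q (J.image (edgeMap σ)) = Q J)
    (J : Finset (Edge n r)) : Q J * (n.choose (verts J).card : ℝ) ≤ 1 := by
  classical
  have hex : ∀ W : Finset (Fin n), W ∈ Finset.powersetCard (verts J).card (Finset.univ) →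
      ∃ σ : Equiv.Perm (Fin n), (verts J).map σ.toEmbedding = W := by
    intro W hW
    rw [Finset.mem_powersetCard] at hW
    exact exists_perm_map_eq _ _ hW.2.symm
  choose! σ hσ using hex
  have hinj : Set.InjOn (fun W => J.image (edgeMap (σ W)))
      (Finset.powersetCard (verts J).card (Finset.univ) : Finset (Finset (Fin n))) := by
    intro W hW W' hW' h
    have h1 := congrArg verts h
    simp only [verts_image] at h1
    rw [hσ W hW, hσ W' hW'] at h1
    exact h1
  have h1 : ∑ W ∈ Finset.powersetCard (verts J).card (Finset.univ : Finset (Fin n)),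
      Q (J.image (edgeMap (σ W))) ≤ ∑ J, Q J := by
    rw [← Finset.sum_image (f := Q) hinj]
    exact Finset.sum_le_sum_of_subset_of_nonneg (Finset.subset_univ _) (fun i _ _ => hQ i)
  have h2 : ∑ W ∈ Finset.powersetCard (verts J).card (Finset.univ : Finset (Fin n)),
      Q (J.image (edgeMap (σ W))) = Q J * (n.choose (verts J).card : ℝ) := by
    rw [Finset.sum_congr rfl (fun W _ => hinv (σ W) J), Finset.sum_const,
      Finset.card_powersetCard, Finset.card_univ, Fintype.card_fin, nsmul_eq_mul, mul_comm]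
  linarith

/-- `1 - (1-x)^d ≥ min 1 (d x) / 2` for `0 ≤ x ≤ 1`. -/
theorem one_sub_pow_ge {x : ℝ} (hx0 : 0 ≤ x) (hx1 : x ≤ 1) (d : ℕ) :
    min 1 (x * d) / 2 ≤ 1 - (1 - x) ^ d := by
  have h1 : (1 + d * x) * (1 - x) ^ d ≤ 1 := by
    calc (1 + d * x) * (1 - x) ^ d ≤ (1 + x) ^ d * (1 - x) ^ d := by
          apply mul_le_mul_of_nonneg_right
          · exact one_add_mul_le_pow (by linarith) d
          · exact pow_nonneg (by linarith) d
      _ = (1 - x ^ 2) ^ d := by rw [← mul_pow]; ring_nf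
      _ ≤ 1 := pow_le_one₀ (by nlinarith) (by nlinarith)
  have hd : 0 ≤ x * d := by positivity
  have hpos : (0 : ℝ) < 1 + d * x := by nlinarith
  have h2 : (1 - x) ^ d ≤ 1 / (1 + d * x) := by
    rw [le_div_iff₀ hpos]
    linarith
  have h3 : min 1 (x * d) / 2 ≤ 1 - 1 / (1 + d * x) := by
    rw [one_sub_div hpos.ne', div_le_div_iff₀ (by norm_num) hpos]
    rcases le_total 1 (x * d) with h | h
    · rw [min_eq_left h]; nlinarith
    · rw [min_eq_right h]; nlinarith
  linarith

/-- the degree of a vertex in a set of edges -/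
def deg {n r : ℕ} (S : Finset (Edge n r)) (u : Fin n) : ℕ :=
  (S.filter (fun e => u ∈ e.1)).card

theorem sum_powerset_weight {α : Type*} [DecidableEq α] (S : Finset α) (T : Finset α)
    (hT : T ⊆ S) (ρ t : ℝ) :
    ∑ J ∈ T.powerset, ρ ^ J.card * (1 - ρ) ^ (S.card - J.card) * t ^ J.card =
      (1 - ρ) ^ (S.card - T.card) * (1 - ρ + ρ * t) ^ T.card := by
  have h := Finset.sum_pow_mul_eq_add_pow (ρ * t) (1 - ρ) T
  rw [show 1 - ρ + ρ * t = ρ * t + (1 - ρ) by ring, ← h, Finset.mul_sum]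
  apply Finset.sum_congr rfl
  intro J hJ
  rw [Finset.mem_powerset] at hJ
  have h1 : J.card ≤ T.card := Finset.card_le_card hJ
  have h2 : T.card ≤ S.card := Finset.card_le_card hT
  have h3 : S.card - J.card = (S.card - T.card) + (T.card - J.card) := by omega
  rw [h3, pow_add, mul_pow]
  ring

theorem vertex_sum {n r : ℕ} (S : Finset (Edge n r)) {ρ t : ℝ} (hρ0 : 0 < ρ) (hρ1 : ρ ≤ 1)
    (ht0 : 0 < t) (ht1 : t ≤ 1) (u : Fin n) :
    (1 - ρ + ρ * t) ^ S.card * (min 1 (ρ * t * deg S u) / 2) ≤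
      ∑ J ∈ S.powerset, ρ ^ J.card * (1 - ρ) ^ (S.card - J.card) * t ^ J.card *
        (if u ∈ verts J then 1 else 0) := by
  classical
  set τ := 1 - ρ + ρ * t with hτ
  have hτ0 : 0 < τ := by nlinarith [mul_pos hρ0 ht0]
  have hτ1 : τ ≤ 1 := by nlinarith
  set S' := S.filter (fun e => u ∉ e.1) with hS'
  have hcard : S'.card + deg S u = S.card := by
    rw [deg, hS', add_comm]
    exact Finset.card_filter_add_card_filter_not _
  have hsub : S' ⊆ S := Finset.filter_subset _ _
  have hfil : S.powerset.filter (fun J => u ∉ verts J) = S'.powerset := by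
    ext J
    simp only [Finset.mem_filter, Finset.mem_powerset, verts, Finset.mem_biUnion, hS',
      Finset.subset_iff]
    constructor
    · rintro ⟨h1, h2⟩ e he
      exact ⟨h1 he, fun hu => h2 ⟨e, he, hu⟩⟩
    · intro h
      exact ⟨fun e he => (h he).1, fun ⟨e, he, hu⟩ => (h he).2 hu⟩
  have h1 : ∑ J ∈ S.powerset, ρ ^ J.card * (1 - ρ) ^ (S.card - J.card) * t ^ J.card *
        (if u ∈ verts J then 1 else 0) = τ ^ S.card - (1 - ρ) ^ (deg S u) * τ ^ S'.card := by
    have e1 : ∑ J ∈ S.powerset, ρ ^ J.card * (1 - ρ) ^ (S.card - J.card) * t ^ J.card *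
        (if u ∈ verts J then (1:ℝ) else 0) =
        ∑ J ∈ S.powerset, ρ ^ J.card * (1 - ρ) ^ (S.card - J.card) * t ^ J.card -
        ∑ J ∈ S.powerset.filter (fun J => u ∉ verts J),
          ρ ^ J.card * (1 - ρ) ^ (S.card - J.card) * t ^ J.card := by
      rw [Finset.sum_filter, ← Finset.sum_sub_distrib]
      apply Finset.sum_congr rfl
      intro J _
      by_cases h : u ∈ verts J <;> simp [h]
    rw [e1, hfil, sum_powerset_weight S S (Finset.Subset.refl _),
      sum_powerset_weight S S' hsub]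
    have : S.card - S'.card = deg S u := by omega
    rw [this, Nat.sub_self, pow_zero, one_mul]
  rw [h1]
  have h2 : (1 - ρ) ^ (deg S u) ≤ (1 - ρ * t) ^ (deg S u) * τ ^ (deg S u) := by
    rw [← mul_pow]
    apply pow_le_pow_left₀ (by linarith)
    -- (1 - ρ t) τ ≥ 1 - ρ
    have : (1 - ρ * t) * τ - (1 - ρ) = ρ * t * (1 - τ) := by rw [hτ]; ring
    nlinarith [mul_nonneg (mul_nonneg hρ0.le ht0.le) (sub_nonneg.2 hτ1)]
  have h3 : (1 - ρ) ^ (deg S u) * τ ^ S'.card ≤ (1 - ρ * t) ^ (deg S u) * τ ^ S.card := by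
    calc (1 - ρ) ^ (deg S u) * τ ^ S'.card
        ≤ ((1 - ρ * t) ^ (deg S u) * τ ^ (deg S u)) * τ ^ S'.card :=
          mul_le_mul_of_nonneg_right h2 (pow_nonneg hτ0.le _)
      _ = (1 - ρ * t) ^ (deg S u) * τ ^ S.card := by
          rw [← hcard, pow_add]; ring
  have h4 := one_sub_pow_ge (x := ρ * t) (by positivity) (by nlinarith) (deg S u)
  have h5 : 0 < τ ^ S.card := pow_pos hτ0 _
  nlinarith [mul_le_mul_of_nonneg_left h4 h5.le]

/-- Either few edges live on the high degree vertices, or there are many such vertices. -/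
theorem sum_min_degree {n r : ℕ} (hr : 2 ≤ r) (S : Finset (Edge n r)) {ρ t : ℝ} (hρ0 : 0 < ρ)
    (ht0 : 0 < t) (ht1 : t ≤ 1)
    (hS : (S.card : ℝ) ^ (r - 1) * ρ ^ r ≤ 1) :
    ρ * t * S.card / 2 ≤ ∑ u : Fin n, min 1 (ρ * t * deg S u) := by
  classical
  set A : Finset (Fin n) := Finset.univ.filter (fun u => 1 ≤ ρ * t * deg S u) with hA
  have hmin0 : ∀ u : Fin n, 0 ≤ min 1 (ρ * t * (deg S u : ℝ)) := by
    intro u
    exact le_min zero_le_one (by positivity)
  set I := S.filter (fun e => e.1 ⊆ A) with hI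
  by_cases hcase : 2 * I.card ≤ S.card
  · -- the edges leaving A
    have h1 : (S.card : ℝ) / 2 ≤ ∑ u ∈ Aᶜ, (deg S u : ℝ) := by
      have h2 : (S.filter (fun e => ¬ e.1 ⊆ A)).card ≤ ∑ u ∈ Aᶜ, deg S u := by
        simp only [deg]
        have h3 : S.filter (fun e => ¬ e.1 ⊆ A) ⊆
            Aᶜ.biUnion (fun u => S.filter (fun e => u ∈ e.1)) := by
          intro e he
          rw [Finset.mem_filter] at he
          obtain ⟨u, hu, huA⟩ := Finset.not_subset.1 he.2
          rw [Finset.mem_biUnion]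
          exact ⟨u, Finset.mem_compl.2 huA, Finset.mem_filter.2 ⟨he.1, hu⟩⟩
        exact (Finset.card_le_card h3).trans Finset.card_biUnion_le
      have h4 : I.card + (S.filter (fun e => ¬ e.1 ⊆ A)).card = S.card :=
        Finset.card_filter_add_card_filter_not _
      have h5 : S.card ≤ 2 * ∑ u ∈ Aᶜ, deg S u := by omega
      have h6 : (S.card : ℝ) ≤ 2 * ∑ u ∈ Aᶜ, (deg S u : ℝ) := by exact_mod_cast h5
      linarith
    calc ρ * t * S.card / 2 = ρ * t * ((S.card : ℝ) / 2) := by ring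
      _ ≤ ρ * t * ∑ u ∈ Aᶜ, (deg S u : ℝ) := mul_le_mul_of_nonneg_left h1 (by positivity)
      _ = ∑ u ∈ Aᶜ, min 1 (ρ * t * (deg S u : ℝ)) := by
          rw [Finset.mul_sum]
          apply Finset.sum_congr rfl
          intro u hu
          rw [Finset.mem_compl, hA, Finset.mem_filter] at hu
          have : ¬ 1 ≤ ρ * t * (deg S u : ℝ) := fun h => hu ⟨Finset.mem_univ _, h⟩
          rw [min_eq_right (not_le.1 this).le]
      _ ≤ ∑ u : Fin n, min 1 (ρ * t * (deg S u : ℝ)) :=
          Finset.sum_le_sum_of_subset_of_nonneg (Finset.subset_univ _) (fun u _ _ => hmin0 u)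
  · -- many high degree vertices
    push Not at hcase
    have hIcard : I.card ≤ A.card.choose r := by
      rw [← Finset.card_powersetCard]
      have : (I.image (fun e : Edge n r => e.1)).card = I.card :=
        Finset.card_image_of_injective _ Subtype.val_injective
      rw [← this]
      apply Finset.card_le_card
      intro W hW
      rw [Finset.mem_image] at hW
      obtain ⟨e, he, rfl⟩ := hW
      rw [Finset.mem_powersetCard]
      exact ⟨(Finset.mem_filter.1 he).2, e.2⟩
    have hch : 2 * A.card.choose r ≤ A.card ^ r := by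
      have h1 : r.factorial * A.card.choose r ≤ A.card ^ r := by
        rw [← Nat.descFactorial_eq_factorial_mul_choose]
        exact Nat.descFactorial_le_pow _ _
      have h2 : 2 ≤ r.factorial := by
        calc 2 = Nat.factorial 2 := rfl
          _ ≤ r.factorial := Nat.factorial_le hr
      calc 2 * A.card.choose r ≤ r.factorial * A.card.choose r := Nat.mul_le_mul_right _ h2
        _ ≤ _ := h1
    have hsA : (S.card : ℝ) < (A.card : ℝ) ^ r := by
      have : S.card < A.card ^ r := by omega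
      exact_mod_cast this
    have hAge : ρ * t * S.card / 2 ≤ A.card := by
      by_contra hlt
      push Not at hlt
      have h1 : (A.card : ℝ) ≤ ρ * S.card := by
        have : ρ * t * S.card / 2 ≤ ρ * S.card := by
          have h : 0 ≤ ρ * (S.card : ℝ) := by positivity
          nlinarith
        linarith
      have h2 : (A.card : ℝ) ^ r ≤ (ρ * S.card) ^ r :=
        pow_le_pow_left₀ (Nat.cast_nonneg _) h1 r
      have h3 : (ρ * S.card) ^ r = S.card * ((S.card : ℝ) ^ (r - 1) * ρ ^ r) := by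
        rw [mul_pow]
        have : (S.card : ℝ) ^ r = S.card * (S.card : ℝ) ^ (r - 1) := by
          rw [← pow_succ']
          congr 1
          omega
        rw [this]; ring
      have h4 : (S.card : ℝ) * ((S.card : ℝ) ^ (r - 1) * ρ ^ r) ≤ S.card * 1 :=
        mul_le_mul_of_nonneg_left hS (Nat.cast_nonneg _)
      linarith
    calc ρ * t * S.card / 2 ≤ A.card := hAge
      _ = ∑ u ∈ A, (1 : ℝ) := by simp
      _ = ∑ u ∈ A, min 1 (ρ * t * (deg S u : ℝ)) := by
          apply Finset.sum_congr rfl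
          intro u hu
          rw [hA, Finset.mem_filter] at hu
          rw [min_eq_left hu.2]
      _ ≤ ∑ u : Fin n, min 1 (ρ * t * (deg S u : ℝ)) :=
          Finset.sum_le_sum_of_subset_of_nonneg (Finset.subset_univ _) (fun u _ _ => hmin0 u)

theorem degree_lemma {n r : ℕ} (hr : 2 ≤ r) (S : Finset (Edge n r)) {ρ t : ℝ} (hρ0 : 0 < ρ)
    (hρ1 : ρ ≤ 1) (ht0 : 0 < t) (ht1 : t ≤ 1) (hS : (S.card : ℝ) ^ (r - 1) * ρ ^ r ≤ 1) :
    ρ * t * S.card / 4 * (1 - ρ + ρ * t) ^ S.card ≤
      ∑ J ∈ S.powerset, ρ ^ J.card * (1 - ρ) ^ (S.card - J.card) * t ^ J.card *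
        ((verts J).card : ℝ) := by
  classical
  have h1 : ∀ J : Finset (Edge n r), ((verts J).card : ℝ) =
      ∑ u : Fin n, (if u ∈ verts J then (1:ℝ) else 0) := by
    intro J
    simp
  have h2 : ∑ J ∈ S.powerset, ρ ^ J.card * (1 - ρ) ^ (S.card - J.card) * t ^ J.card *
        ((verts J).card : ℝ) = ∑ u : Fin n, ∑ J ∈ S.powerset,
        ρ ^ J.card * (1 - ρ) ^ (S.card - J.card) * t ^ J.card *
          (if u ∈ verts J then (1:ℝ) else 0) := by
    rw [Finset.sum_comm]
    apply Finset.sum_congr rfl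
    intro J _
    rw [h1 J, Finset.mul_sum]
  rw [h2]
  have hτ0 : 0 < 1 - ρ + ρ * t := by nlinarith [mul_pos hρ0 ht0]
  calc ρ * t * S.card / 4 * (1 - ρ + ρ * t) ^ S.card
      = (1 - ρ + ρ * t) ^ S.card * ((ρ * t * S.card / 2) / 2) := by ring
    _ ≤ (1 - ρ + ρ * t) ^ S.card * ((∑ u : Fin n, min 1 (ρ * t * deg S u)) / 2) := by
        apply mul_le_mul_of_nonneg_left _ (pow_nonneg hτ0.le _)
        have := sum_min_degree hr S hρ0 ht0 ht1 hS
        linarith
    _ = ∑ u : Fin n, (1 - ρ + ρ * t) ^ S.card * (min 1 (ρ * t * deg S u) / 2) := by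
        rw [Finset.sum_div, Finset.mul_sum]
    _ ≤ _ := Finset.sum_le_sum (fun u _ => vertex_sum S hρ0 hρ1 ht0 ht1 u)

end Vale.Agent.P063
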