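import Vale.Agent.P063.Restrict
import Vale.Agent.P063.Binom

/-!
Averaging over a Bernoulli random set `R`.
-/

namespace Vale.Agent.P063

open Finset

set_option linter.unusedSectionVars false

variable {ι : Type*} [Fintype ι] [DecidableEq ι] {p : ℝ}

/-- Bernoulli weight of the set `R` -/
noncomputable def wR (ρ : ℝ) (R : Finset ι) : ℝ :=
  ρ ^ R.card * (1 - ρ) ^ (Fintype.card ι - R.card)

/-- probability that `S ∩ R = J`, for fixed `J ⊆ S` and Bernoulli `R` -/
noncomputable def bb (ρ : ℝ) (S J : Finset ι) : ℝ :=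
  ρ ^ J.card * (1 - ρ) ^ (S.card - J.card)

/-- probability that `S ∩ R = J` when `S` is distributed according to `u` and `R` is Bernoulli -/
noncomputable def Pbar (ρ : ℝ) (u : Finset ι → ℝ) (J : Finset ι) : ℝ :=
  ∑ S : Finset ι, if J ⊆ S then u S * bb ρ S J else 0

lemma wR_nonneg {ρ : ℝ} (h0 : 0 < ρ) (h1 : ρ < 1) (R : Finset ι) : 0 ≤ wR ρ R := by
  unfold wR
  have : 0 < 1 - ρ := by linarith
  positivity

lemma bb_pos {ρ : ℝ} (h0 : 0 < ρ) (h1 : ρ < 1) (S J : Finset ι) : 0 < bb ρ S J := by
  unfold bb
  have : 0 < 1 - ρ := by linarith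
  positivity

lemma sum_wR (ρ : ℝ) (S : Finset ι) (ψ : Finset ι → ℝ) :
    ∑ R : Finset ι, wR ρ R * ψ (S ∩ R) = ∑ J ∈ S.powerset, bb ρ S J * ψ J := binom_trace S ρ ψ

lemma sum_wR_eq (ρ : ℝ) (S J : Finset ι) :
    ∑ R : Finset ι, wR ρ R * (if S ∩ R = J then (1:ℝ) else 0)
      = if J ⊆ S then bb ρ S J else 0 := by
  rw [sum_wR ρ S (fun T => if T = J then (1:ℝ) else 0)]
  simp only [mul_ite, mul_one, mul_zero]
  rw [Finset.sum_ite_eq']
  simp [Finset.mem_powerset]

lemma sum_wR_PR (ρ : ℝ) (u : Finset ι → ℝ) (J : Finset ι) :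
    ∑ R : Finset ι, wR ρ R * PR u R J = Pbar ρ u J := by
  unfold PR Pbar
  simp_rw [Finset.mul_sum]
  rw [Finset.sum_comm]
  refine Finset.sum_congr rfl (fun S _ => ?_)
  have : ∀ R : Finset ι, wR ρ R * (if S ∩ R = J then u S else 0)
      = u S * (wR ρ R * (if S ∩ R = J then (1:ℝ) else 0)) := by
    intro R; split_ifs <;> ring
  simp_rw [this]
  rw [← Finset.mul_sum, sum_wR_eq]
  split_ifs <;> ring

lemma convex_avg {ρ : ℝ} (h0 : 0 < ρ) (h1 : ρ < 1) (u : Finset ι → ℝ) (hu : ∀ S, 0 ≤ u S)
    (J : Finset ι) :
    phi (Pbar ρ u J) ≤ ∑ R : Finset ι, wR ρ R * phi (PR u R J)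
      + ∑ S : Finset ι, if J ⊆ S then u S * (bb ρ S J * (- Real.log (bb ρ S J))) else 0 := by
  have hPb0 : 0 ≤ Pbar ρ u J := by
    unfold Pbar
    refine Finset.sum_nonneg (fun S _ => ?_)
    split_ifs
    · exact mul_nonneg (hu S) (bb_pos h0 h1 S J).le
    · exact le_refl _
  have hPR0 : ∀ R, 0 ≤ PR u R J := fun R => by
    unfold PR
    refine Finset.sum_nonneg (fun S _ => ?_)
    split_ifs
    · exact hu S
    · exact le_refl _
  rcases hPb0.eq_or_lt with hPb | hPb
  · -- trivial case
    have hz : ∀ S, J ⊆ S → u S = 0 := by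
      intro S hJS
      unfold Pbar at hPb
      have := (Finset.sum_eq_zero_iff_of_nonneg (fun S _ => by
        split_ifs
        · exact mul_nonneg (hu S) (bb_pos h0 h1 S J).le
        · exact le_refl _)).mp hPb.symm S (Finset.mem_univ S)
      rw [if_pos hJS] at this
      rcases mul_eq_zero.mp this with h | h
      · exact h
      · exact absurd h (ne_of_gt (bb_pos h0 h1 S J))
    have hPR : ∀ R, PR u R J = 0 := by
      intro R
      unfold PR
      refine Finset.sum_eq_zero (fun S _ => ?_)
      split_ifs with h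
      · exact hz S (by rw [← h]; exact Finset.inter_subset_left)
      · rfl
    have e1 : ∀ S : Finset ι, (if J ⊆ S then u S * (bb ρ S J * (- Real.log (bb ρ S J))) else 0)
        = 0 := by
      intro S
      split_ifs with h
      · rw [hz S h]; ring
      · rfl
    rw [← hPb]
    simp_rw [hPR, e1]
    simp [phi, Real.negMulLog]
  · -- main case
    set P := Pbar ρ u J with hP
    have key : ∑ R : Finset ι, wR ρ R * (PR u R J * Real.log (PR u R J))
        ≤ P * Real.log P
          + ∑ S : Finset ι, if J ⊆ S then u S * (bb ρ S J * (- Real.log (bb ρ S J))) else 0 := by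
      have hpt : ∀ R : Finset ι, PR u R J * Real.log (PR u R J)
          ≤ ∑ S : Finset ι, (if S ∩ R = J then u S * (bb ρ S J * PR u R J / P - 1
              + Real.log P - Real.log (bb ρ S J)) else 0) := by
        intro R
        have e1 : PR u R J * Real.log (PR u R J)
            = ∑ S : Finset ι, (if S ∩ R = J then u S * Real.log (PR u R J) else 0) := by
          conv_lhs => unfold PR
          rw [Finset.sum_mul]
          refine Finset.sum_congr rfl (fun S _ => ?_)
          split_ifs
          · rfl
          · rw [zero_mul]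
        rw [e1]
        refine Finset.sum_le_sum (fun S _ => ?_)
        split_ifs with hS
        · rcases (hu S).eq_or_lt with h | h
          · rw [← h]; simp
          · refine mul_le_mul_of_nonneg_left ?_ (hu S)
            have hx : 0 < PR u R J := by
              refine lt_of_lt_of_le h ?_
              have := Finset.single_le_sum (f := fun S => if S ∩ R = J then u S else 0)
                (fun S _ => by
                  split_ifs
                  · exact hu S
                  · exact le_refl _) (Finset.mem_univ S)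
              unfold PR
              simpa [hS] using this
            have hb := bb_pos h0 h1 S J
            have hy : 0 < bb ρ S J * PR u R J / P := by positivity
            have := Real.log_le_sub_one_of_pos hy
            rw [Real.log_div (by positivity) (ne_of_gt hPb), Real.log_mul (ne_of_gt hb)
              (ne_of_gt hx)] at this
            linarith
        · exact le_refl _
      have h2 : ∑ R : Finset ι, wR ρ R * (PR u R J * Real.log (PR u R J))
          ≤ ∑ R : Finset ι, wR ρ R * ∑ S : Finset ι,
            (if S ∩ R = J then u S * (bb ρ S J * PR u R J / P - 1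
              + Real.log P - Real.log (bb ρ S J)) else 0) :=
        Finset.sum_le_sum (fun R _ => mul_le_mul_of_nonneg_left (hpt R) (wR_nonneg h0 h1 R))
      refine h2.trans ?_
      -- split
      have h3 : ∀ R : Finset ι, wR ρ R * ∑ S : Finset ι,
            (if S ∩ R = J then u S * (bb ρ S J * PR u R J / P - 1
              + Real.log P - Real.log (bb ρ S J)) else 0)
          ≤ wR ρ R * (PR u R J)
            + ∑ S : Finset ι, u S * (- 1 + Real.log P - Real.log (bb ρ S J))
              * (wR ρ R * (if S ∩ R = J then (1:ℝ) else 0)) := by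
        intro R
        have e1 : ∑ S : Finset ι, u S * (- 1 + Real.log P - Real.log (bb ρ S J))
              * (wR ρ R * (if S ∩ R = J then (1:ℝ) else 0))
            = wR ρ R * ∑ S : Finset ι, (if S ∩ R = J then
                u S * (- 1 + Real.log P - Real.log (bb ρ S J)) else 0) := by
          rw [Finset.mul_sum]
          refine Finset.sum_congr rfl (fun S _ => ?_)
          split_ifs <;> ring
        rw [e1, ← mul_add]
        refine mul_le_mul_of_nonneg_left ?_ (wR_nonneg h0 h1 R)
        have e2 : ∑ S : Finset ι, (if S ∩ R = J then u S * (bb ρ S J * PR u R J / P - 1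
              + Real.log P - Real.log (bb ρ S J)) else 0)
            = ∑ S : Finset ι, (if S ∩ R = J then u S * bb ρ S J * (PR u R J / P) else 0)
              + ∑ S : Finset ι, (if S ∩ R = J then
                u S * (- 1 + Real.log P - Real.log (bb ρ S J)) else 0) := by
          rw [← Finset.sum_add_distrib]
          refine Finset.sum_congr rfl (fun S _ => ?_)
          split_ifs <;> ring
        rw [e2]
        refine add_le_add ?_ (le_refl _)
        have e3 : ∑ S : Finset ι, (if S ∩ R = J then u S * bb ρ S J * (PR u R J / P) else 0)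
            ≤ ∑ S : Finset ι, (if J ⊆ S then u S * bb ρ S J * (PR u R J / P) else 0) := by
          refine Finset.sum_le_sum (fun S _ => ?_)
          have hnn : 0 ≤ u S * bb ρ S J * (PR u R J / P) :=
            mul_nonneg (mul_nonneg (hu S) (bb_pos h0 h1 S J).le)
              (div_nonneg (hPR0 R) hPb.le)
          by_cases hS : S ∩ R = J
          · have : J ⊆ S := by rw [← hS]; exact Finset.inter_subset_left
            rw [if_pos hS, if_pos this]
          · rw [if_neg hS]
            split_ifs
            · exact hnn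
            · exact le_refl _
        refine e3.trans (le_of_eq ?_)
        have e4 : ∑ S : Finset ι, (if J ⊆ S then u S * bb ρ S J * (PR u R J / P) else 0)
            = P * (PR u R J / P) := by
          rw [hP]
          conv_rhs => unfold Pbar
          rw [← hP, Finset.sum_mul]
          refine Finset.sum_congr rfl (fun S _ => ?_)
          split_ifs
          · rfl
          · rw [zero_mul]
        rw [e4]
        field_simp
      refine (Finset.sum_le_sum (fun R _ => h3 R)).trans ?_
      rw [Finset.sum_add_distrib, sum_wR_PR, Finset.sum_comm]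
      have h4 : ∀ S : Finset ι, ∑ R : Finset ι, u S * (- 1 + Real.log P - Real.log (bb ρ S J))
              * (wR ρ R * (if S ∩ R = J then (1:ℝ) else 0))
          = (if J ⊆ S then u S * bb ρ S J else 0) * (-1 + Real.log P)
            + (if J ⊆ S then u S * (bb ρ S J * (- Real.log (bb ρ S J))) else 0) := by
        intro S
        rw [← Finset.mul_sum, sum_wR_eq]
        split_ifs <;> ring
      simp_rw [h4]
      rw [Finset.sum_add_distrib, ← Finset.sum_mul]
      have h5 : ∑ S : Finset ι, (if J ⊆ S then u S * bb ρ S J else 0) = P := rfl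
      rw [h5]
      linarith
    have e1 : ∑ R : Finset ι, wR ρ R * phi (PR u R J)
        = - ∑ R : Finset ι, wR ρ R * (PR u R J * Real.log (PR u R J)) := by
      rw [← Finset.sum_neg_distrib]
      refine Finset.sum_congr rfl (fun R _ => ?_)
      unfold phi Real.negMulLog
      ring
    rw [e1]
    unfold phi Real.negMulLog
    linarith

/-- the right-hand side of the master inequality, for a set of size `n` -/
noncomputable def RHS (p ρ t l : ℝ) (n : ℕ) : ℝ :=
  cc p * ((1 - ρ) * n * (1 - ρ + ρ * t) ^ (n - 1))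
    + (1 - t) * (ρ * n)
    + (2 + 2 * Real.log (1 / l)) * (ρ * t * n * (1 - ρ + ρ * t) ^ (n - 1))
    + cc p * (ρ ^ 2 * t ^ 2 * n * (n - 1) * (1 - ρ + ρ * t) ^ (n - 2))
    + 2 * l / (2 * Real.sqrt (p * (1 - p))) * (ρ * n)
    + Real.log (1 / ρ) * (ρ * t * n * (1 - ρ + ρ * t) ^ (n - 1))
    + Real.log (1 / (1 - ρ)) * ((1 - ρ) * n * (1 - ρ + ρ * t) ^ (n - 1))

lemma card_sdiff_real (S R : Finset ι) :
    ((S \ R).card : ℝ) = (S.card : ℝ) - ((S ∩ R).card : ℝ) := by
  have := Finset.card_sdiff_add_card_inter S R
  have h : ((S \ R).card : ℝ) + ((S ∩ R).card : ℝ) = (S.card : ℝ) := by exact_mod_cast this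
  linarith

/-- Master inequality. -/
lemma master (hp0 : 0 < p) (hp1 : p < 1) (f : (ι → Bool) → ℝ)
    (hf : ∀ x, f x = 1 ∨ f x = -1) {ρ t l : ℝ} (h0 : 0 < ρ) (h1 : ρ < 1) (ht0 : 0 < t)
    (ht1 : t ≤ 1) (hl0 : 0 < l) :
    ∑ J : Finset ι, t ^ J.card * phi (Pbar ρ (fun S => (fc p f S) ^ 2) J)
      ≤ ∑ S : Finset ι, (fc p f S) ^ 2 * RHS p ρ t l S.card := by
  set q : Finset ι → ℝ := fun S => (fc p f S) ^ 2 with hq
  have hq0 : ∀ S, 0 ≤ q S := fun S => sq_nonneg _
  have hρ' : 0 < 1 - ρ := by linarith
  -- step 1 : convexity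
  have s1 : ∑ J : Finset ι, t ^ J.card * phi (Pbar ρ q J)
      ≤ ∑ J : Finset ι, t ^ J.card * (∑ R : Finset ι, wR ρ R * phi (PR q R J)
      + ∑ S : Finset ι, if J ⊆ S then q S * (bb ρ S J * (- Real.log (bb ρ S J))) else 0) :=
    Finset.sum_le_sum (fun J _ => mul_le_mul_of_nonneg_left (convex_avg h0 h1 q hq0 J)
      (pow_nonneg ht0.le _))
  -- step 2 : first level
  have s2 : ∑ J : Finset ι, t ^ J.card * ∑ R : Finset ι, wR ρ R * phi (PR q R J)
      ≤ ∑ S : Finset ι, q S * ∑ J ∈ S.powerset, bb ρ S J *
          (cc p * (t ^ J.card * ((S.card : ℝ) - J.card)) + Psi p t l J.card) := by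
    have e1 : ∑ J : Finset ι, t ^ J.card * ∑ R : Finset ι, wR ρ R * phi (PR q R J)
        = ∑ R : Finset ι, wR ρ R * ∑ J : Finset ι, t ^ J.card * phi (PR q R J) := by
      simp_rw [Finset.mul_sum]
      rw [Finset.sum_comm]
      refine Finset.sum_congr rfl (fun R _ => Finset.sum_congr rfl (fun J _ => by ring))
    rw [e1]
    have e2 : ∑ R : Finset ι, wR ρ R * ∑ J : Finset ι, t ^ J.card * phi (PR q R J)
        ≤ ∑ R : Finset ι, wR ρ R * ∑ S : Finset ι, q S *
          (cc p * (t ^ (S ∩ R).card * (S \ R).card) + Psi p t l (S ∩ R).card) :=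
      Finset.sum_le_sum (fun R _ => mul_le_mul_of_nonneg_left
        (first_level hp0 hp1 f hf R ht0 ht1 hl0) (wR_nonneg h0 h1 R))
    refine e2.trans (le_of_eq ?_)
    simp_rw [Finset.mul_sum]
    rw [Finset.sum_comm]
    refine Finset.sum_congr rfl (fun S _ => ?_)
    rw [← Finset.mul_sum, ← sum_wR ρ S (fun J =>
      (cc p * (t ^ J.card * ((S.card : ℝ) - J.card)) + Psi p t l J.card)), Finset.mul_sum]
    refine Finset.sum_congr rfl (fun R _ => ?_)
    rw [card_sdiff_real]
    ring
  -- step 3 : the entropy of the Bernoulli subset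
  have s3 : ∑ J : Finset ι, t ^ J.card *
      (∑ S : Finset ι, if J ⊆ S then q S * (bb ρ S J * (- Real.log (bb ρ S J))) else 0)
      = ∑ S : Finset ι, q S * ∑ J ∈ S.powerset, bb ρ S J * (t ^ J.card *
        ((J.card : ℝ) * Real.log (1 / ρ) + ((S.card : ℝ) - J.card) * Real.log (1 / (1 - ρ)))) := by
    simp_rw [Finset.mul_sum]
    rw [Finset.sum_comm]
    refine Finset.sum_congr rfl (fun S _ => ?_)
    have e0 : ∀ J : Finset ι, t ^ J.card *
        (if J ⊆ S then q S * (bb ρ S J * (- Real.log (bb ρ S J))) else 0)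
        = if J ∈ S.powerset then q S * (bb ρ S J * (t ^ J.card *
          ((J.card : ℝ) * Real.log (1 / ρ) + ((S.card : ℝ) - J.card) * Real.log (1 / (1 - ρ)))))
          else 0 := by
      intro J
      by_cases hJ : J ⊆ S
      · rw [if_pos hJ, if_pos (Finset.mem_powerset.mpr hJ)]
        have hc : J.card ≤ S.card := Finset.card_le_card hJ
        have : Real.log (bb ρ S J)
            = (J.card : ℝ) * Real.log ρ + ((S.card : ℝ) - J.card) * Real.log (1 - ρ) := by
          unfold bb
          rw [Real.log_mul (by positivity) (by positivity), Real.log_pow, Real.log_pow,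
            Nat.cast_sub hc]
        rw [this, one_div, one_div, Real.log_inv, Real.log_inv]
        ring
      · rw [if_neg hJ, if_neg (fun h => hJ (Finset.mem_powerset.mp h)), mul_zero]
    simp_rw [e0]
    rw [Finset.sum_ite_mem, Finset.univ_inter]
  simp_rw [mul_add] at s1
  rw [Finset.sum_add_distrib] at s1
  refine s1.trans ?_
  rw [s3]
  refine (add_le_add s2 (le_refl _)).trans ?_
  rw [← Finset.sum_add_distrib]
  refine Finset.sum_le_sum (fun S _ => ?_)
  rw [← mul_add]
  refine mul_le_mul_of_nonneg_left (le_of_eq ?_) (hq0 S)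
  rw [← Finset.sum_add_distrib]
  have c3 := binom_C3 S ρ t
  have c4 := binom_C4 S ρ t
  have c5 := binom_C5 S ρ t
  have c31 := binom_C3 S ρ 1
  simp only [one_pow, mul_one] at c31
  have e1 : (1 - ρ + ρ) ^ (S.card - 1) = (1:ℝ) := by
    rw [sub_add_cancel, one_pow]
  rw [e1, mul_one] at c31
  unfold RHS
  rw [← c3, ← c4, ← c5, ← c31]
  simp_rw [Finset.mul_sum]
  rw [← Finset.sum_add_distrib, ← Finset.sum_add_distrib, ← Finset.sum_add_distrib,
    ← Finset.sum_add_distrib, ← Finset.sum_add_distrib, ← Finset.sum_add_distrib]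
  refine Finset.sum_congr rfl (fun J _ => ?_)
  unfold bb Psi
  ring

end Vale.Agent.P063
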