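import Mathlib

/-!
Basic definitions for the p-biased cube over a finite index type, used for P063.
-/

namespace Vale.Agent.P063

open Finset

variable {ι : Type*} [Fintype ι] [DecidableEq ι]

/-- weight of a bit under the `p`-biased measure -/
def wt (p : ℝ) (b : Bool) : ℝ := if b then p else 1 - p

/-- expectation over the `p`-biased cube `ι → Bool` -/
noncomputable def EE (p : ℝ) (F : (ι → Bool) → ℝ) : ℝ :=
  ∑ x : ι → Bool, (∏ i, wt p (x i)) * F x

/-- normalized one-bit character: mean zero, variance one -/
noncomputable def ph (p : ℝ) (b : Bool) : ℝ :=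
  ((if b then 1 else 0) - p) / Real.sqrt (p * (1 - p))

/-- the character of a set -/
noncomputable def chi (p : ℝ) (S : Finset ι) (x : ι → Bool) : ℝ := ∏ i ∈ S, ph p (x i)

/-- Fourier coefficient -/
noncomputable def fc (p : ℝ) (f : (ι → Bool) → ℝ) (S : Finset ι) : ℝ :=
  EE p (fun x => f x * chi p S x)

/-- synthesis: the function with given Fourier coefficients -/
noncomputable def syn (p : ℝ) (a : Finset ι → ℝ) (x : ι → Bool) : ℝ :=
  ∑ S : Finset ι, a S * chi p S x

/-- the function `φ(x) = - x log x` -/
noncomputable def phi (x : ℝ) : ℝ := Real.negMulLog x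

/-- log-Sobolev constant -/
noncomputable def cc (p : ℝ) : ℝ := 20 * (1 + Real.log (1 / min p (1 - p)))

end Vale.Agent.P063
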