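import Mathlib

/-!
Hypergraph properties, their `p`-biased measure, critical probabilities and threshold widths.
-/

namespace Vale.Agent.P063

open Finset

/-- The set `E_{n,r}` of potential edges: the `r`-element subsets of `[n]`. -/
abbrev Edge (n r : ℕ) := {e : Finset (Fin n) // e.card = r}

/-- `r`-uniform hypergraphs on the vertex set `[n]`, i.e. points of `{0,1}^{E_{n,r}}`. -/
abbrev HG (n r : ℕ) := Edge n r → Bool

/-- The image of an edge under a permutation of the vertices. -/
def edgeMap {n r : ℕ} (σ : Equiv.Perm (Fin n)) (e : Edge n r) : Edge n r :=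
  ⟨e.1.map σ.toEmbedding, by rw [Finset.card_map]; exact e.2⟩

/-- The hypergraph obtained by relabelling the vertices by `σ`. -/
def relabel {n r : ℕ} (σ : Equiv.Perm (Fin n)) (x : HG n r) : HG n r :=
  fun e => x (edgeMap σ e)

/-- A hypergraph property: a family of hypergraphs invariant under all vertex permutations. -/
def IsProperty {n r : ℕ} (P : Set (HG n r)) : Prop :=
  ∀ (σ : Equiv.Perm (Fin n)) (x : HG n r), relabel σ x ∈ P ↔ x ∈ P

open Classical in
/-- `μ_p(P)`: the probability that the random hypergraph, with each edge present independently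
with probability `p`, lies in `P`. -/
noncomputable def mu {n r : ℕ} (p : ℝ) (P : Set (HG n r)) : ℝ :=
  ∑ x : HG n r, if x ∈ P then ∏ e, (if x e then p else 1 - p) else 0

/-- `p_a(P) = inf {p ∈ [0,1] : μ_p(P) ≥ a}`. -/
noncomputable def pcrit {n r : ℕ} (P : Set (HG n r)) (a : ℝ) : ℝ :=
  sInf {p : ℝ | p ∈ Set.Icc (0 : ℝ) 1 ∧ a ≤ mu p P}

/-- The threshold width `w_ε(P) = p_{1-ε}(P) - p_ε(P)`. -/
noncomputable def width {n r : ℕ} (P : Set (HG n r)) (ε : ℝ) : ℝ :=
  pcrit P (1 - ε) - pcrit P ε

/-- The set of vertices touched by a set of edges. -/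
def verts {n r : ℕ} (J : Finset (Edge n r)) : Finset (Fin n) := J.biUnion (fun e => e.1)

end Vale.Agent.P063
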