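import Vale.Agent.P063.Defs
import Vale.Agent.P063.Graph

/-!
Statement of the influence bound (proved in `Assembly.lean`).
-/

namespace Vale.Agent.P063

open Finset

/-- The influence bound that is the heart of the matter (proved in `Assembly.lean`). -/
def InfluenceBound (r : ℕ) : Prop :=
  ∃ κ : ℝ, 0 < κ ∧ ∃ L0 : ℝ, 0 < L0 ∧ ∃ n0 : ℕ, ∀ n : ℕ, n0 ≤ n → ∀ p : ℝ, 0 < p → p < 1 →
    L0 * cc p ≤ Real.log n → ∀ f : HG n r → ℝ, (∀ x, f x = 1 ∨ f x = -1) →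
    (∀ (σ : Equiv.Perm (Fin n)) (x : HG n r), f (relabel σ x) = f x) →
    κ * (1 - (fc p f ∅) ^ 2) * (Real.log n / cc p) ^ ((r : ℝ) / ((r : ℝ) - 1))
      ≤ ∑ S : Finset (Edge n r), (S.card : ℝ) * (fc p f S) ^ 2

end Vale.Agent.P063
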