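import Vale.Agent.P063.Graph
import Vale.Agent.P063.Influence
import Vale.Agent.P063.Basic

/-!
From the influence bound to the width bound for P063 (Russo–Margulis formula and integration).
-/

namespace Vale.Agent.P063

open Finset

set_option linter.unusedSectionVars false

section cube

variable {ι : Type*} [Fintype ι] [DecidableEq ι]

theorem sum_split (i : ι) (G : (ι → Bool) → ℝ) :
    ∑ x : ι → Bool, G x =
      (1 / 2) * ∑ x : ι → Bool,
        (G (Function.update x i true) + G (Function.update x i false)) := by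
  have hinv : Function.Involutive (fun x : ι → Bool => Function.update x i (!(x i))) := by
    intro x
    funext j
    by_cases h : j = i
    · subst h; simp
    · simp [h]
  have h1 : ∑ x : ι → Bool, G x = ∑ x : ι → Bool, G (Function.update x i (!(x i))) :=
    (Fintype.sum_equiv hinv.toPerm (fun x => G (Function.update x i (!(x i)))) G
      (fun x => rfl)).symm
  have h2 : ∀ x : ι → Bool, G (Function.update x i true) + G (Function.update x i false) =
      G x + G (Function.update x i (!(x i))) := by
    intro x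
    cases hx : x i
    · have h3 : Function.update x i false = x := by
        conv_rhs => rw [← Function.update_eq_self i x, hx]
      rw [h3]; simp [add_comm]
    · have h3 : Function.update x i true = x := by
        conv_rhs => rw [← Function.update_eq_self i x, hx]
      rw [h3]; simp
  rw [Finset.sum_congr rfl (fun x _ => h2 x), Finset.sum_add_distrib, ← h1]
  ring

/-- the derivative of `wt` -/
def sg (b : Bool) : ℝ := if b then 1 else -1

theorem hasDerivAt_wt (p : ℝ) (b : Bool) : HasDerivAt (fun q => wt q b) (sg b) p := by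
  cases b
  · have h : (fun q : ℝ => wt q false) = fun q => 1 - q := by funext q; simp [wt]
    rw [h]
    have := (hasDerivAt_id' p).const_sub 1
    simpa [sg] using this
  · have h : (fun q : ℝ => wt q true) = fun q => q := by funext q; simp [wt]
    rw [h]
    have := hasDerivAt_id' p
    simpa [sg] using this

/-- The Russo–Margulis formula. -/
theorem hasDerivAt_EE (p : ℝ) (F : (ι → Bool) → ℝ) :
    HasDerivAt (fun q => EE q F)
      (∑ i, EE p (fun x => F (Function.update x i true) - F (Function.update x i false))) p := by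
  have h1 : HasDerivAt (fun q => EE q F)
      (∑ x : ι → Bool, (∑ i, (∏ j ∈ Finset.univ.erase i, wt p (x j)) • sg (x i)) * F x) p := by
    unfold EE
    apply HasDerivAt.fun_sum
    intro x _
    apply HasDerivAt.mul_const
    exact HasDerivAt.fun_finsetProd (fun i _ => hasDerivAt_wt p (x i))
  have h2 : (∑ x : ι → Bool, (∑ i, (∏ j ∈ Finset.univ.erase i, wt p (x j)) • sg (x i)) * F x) =
      ∑ i, EE p (fun x => F (Function.update x i true) - F (Function.update x i false)) := by
    simp_rw [Finset.sum_mul]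
    rw [Finset.sum_comm]
    apply Finset.sum_congr rfl
    intro i _
    rw [sum_split i]
    unfold EE
    rw [sum_split i (fun x => (∏ j, wt p (x j)) *
      (F (Function.update x i true) - F (Function.update x i false)))]
    congr 1
    apply Finset.sum_congr rfl
    intro x _
    have e1 : ∀ b : Bool, (∏ j ∈ Finset.univ.erase i, wt p (Function.update x i b j)) =
        ∏ j ∈ Finset.univ.erase i, wt p (x j) := by
      intro b
      apply Finset.prod_congr rfl
      intro j hj
      rw [Function.update_of_ne (Finset.ne_of_mem_erase hj)]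
    have e2 : ∀ b : Bool, (∏ j, wt p (Function.update x i b j)) =
        wt p b * ∏ j ∈ Finset.univ.erase i, wt p (x j) := by
      intro b
      rw [← Finset.mul_prod_erase Finset.univ _ (Finset.mem_univ i), e1 b]
      simp
    simp only [e1, e2, Function.update_self, Function.update_idem, smul_eq_mul]
    simp only [sg, wt, if_true, Bool.false_eq_true, if_false]
    ring
  rw [← h2]
  exact h1

open Classical in
/-- indicator of a family -/
noncomputable def ind (P : Set (ι → Bool)) (x : ι → Bool) : ℝ := if x ∈ P then 1 else 0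

theorem ind_nonneg (P : Set (ι → Bool)) (x : ι → Bool) : 0 ≤ ind P x := by
  unfold ind; split_ifs <;> norm_num

theorem ind_le_one (P : Set (ι → Bool)) (x : ι → Bool) : ind P x ≤ 1 := by
  unfold ind; split_ifs <;> norm_num

theorem update_le_update (x : ι → Bool) (i : ι) :
    Function.update x i false ≤ Function.update x i true := by
  intro j
  by_cases h : j = i
  · subst h; simp
  · simp [h]

theorem ind_diff_sq (P : Set (ι → Bool)) (hP : IsUpperSet P) (x : ι → Bool) (i : ι) :
    (ind P (Function.update x i true) - ind P (Function.update x i false)) ^ 2 =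
      ind P (Function.update x i true) - ind P (Function.update x i false) := by
  have h := @hP _ _ (update_le_update x i)
  unfold ind
  by_cases h1 : Function.update x i false ∈ P
  · simp [h1, h h1]
  · by_cases h2 : Function.update x i true ∈ P <;> simp [h1, h2]

theorem ind_diff_nonneg (P : Set (ι → Bool)) (hP : IsUpperSet P) (x : ι → Bool) (i : ι) :
    0 ≤ ind P (Function.update x i true) - ind P (Function.update x i false) := by
  rw [← ind_diff_sq P hP]
  positivity

/-- total influence of the indicator in terms of the Fourier weights of the `±1` version -/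
theorem deriv_formula {p : ℝ} (hp0 : 0 < p) (hp1 : p < 1) (P : Set (ι → Bool))
    (hP : IsUpperSet P) :
    4 * (p * (1 - p)) *
      ∑ i, EE p (fun x => ind P (Function.update x i true) - ind P (Function.update x i false)) =
      ∑ S : Finset ι, (S.card : ℝ) * (fc p (fun x => 2 * ind P x - 1) S) ^ 2 := by
  rw [influence_formula hp0 hp1, Finset.mul_sum]
  apply Finset.sum_congr rfl
  intro i _
  rw [← EE_mul_left, ← EE_mul_left]
  apply EE_congr
  intro x
  have h := ind_diff_sq P hP x i
  have e : (2 * ind P (Function.update x i true) - 1 -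
      (2 * ind P (Function.update x i false) - 1)) ^ 2 =
      4 * (ind P (Function.update x i true) - ind P (Function.update x i false)) ^ 2 := by ring
  rw [e, h]
  ring

theorem fc_empty (p : ℝ) (f : (ι → Bool) → ℝ) : fc p f ∅ = EE p f := by
  unfold fc chi
  simp

theorem influence_ge_var {p : ℝ} (hp0 : 0 < p) (hp1 : p < 1) (f : (ι → Bool) → ℝ) :
    EE p (fun x => f x ^ 2) - (fc p f ∅) ^ 2 ≤
      ∑ S : Finset ι, (S.card : ℝ) * (fc p f S) ^ 2 := by
  rw [← parseval hp0 hp1, ← Finset.add_sum_erase Finset.univ _ (Finset.mem_univ (∅ : Finset ι)),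
    ← Finset.add_sum_erase Finset.univ (fun S : Finset ι => (S.card : ℝ) * (fc p f S) ^ 2)
      (Finset.mem_univ (∅ : Finset ι))]
  simp only [Finset.card_empty, Nat.cast_zero, zero_mul, zero_add, add_sub_cancel_left]
  apply Finset.sum_le_sum
  intro S hS
  have h1 : S ≠ ∅ := Finset.ne_of_mem_erase hS
  have h2 : 1 ≤ S.card := Finset.card_pos.2 (Finset.nonempty_iff_ne_empty.2 h1)
  have h3 : (1 : ℝ) ≤ S.card := by exact_mod_cast h2
  nlinarith [sq_nonneg (fc p f S)]

theorem mono_EE_ind (P : Set (ι → Bool)) (hP : IsUpperSet P) :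
    MonotoneOn (fun p => EE p (ind P)) (Set.Icc 0 1) := by
  apply monotoneOn_of_deriv_nonneg (convex_Icc 0 1)
  · exact fun p _ => (hasDerivAt_EE p (ind P)).continuousAt.continuousWithinAt
  · exact fun p _ => (hasDerivAt_EE p (ind P)).differentiableAt.differentiableWithinAt
  · intro p hp
    rw [interior_Icc] at hp
    rw [(hasDerivAt_EE p (ind P)).deriv]
    apply Finset.sum_nonneg
    intro i _
    exact EE_nonneg hp.1.le hp.2.le (fun x => ind_diff_nonneg P hP x i)

theorem EE_zero (F : (ι → Bool) → ℝ) : EE 0 F = F (fun _ => false) := by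
  unfold EE
  rw [Finset.sum_eq_single (fun _ => false)]
  · simp [wt]
  · intro x _ hx
    have : ∃ i, x i = true := by
      by_contra h
      push Not at h
      exact hx (funext fun i => by simpa using h i)
    obtain ⟨i, hi⟩ := this
    rw [Finset.prod_eq_zero (Finset.mem_univ i) (by simp [wt, hi]), zero_mul]
  · intro h; exact absurd (Finset.mem_univ _) h

theorem EE_one (F : (ι → Bool) → ℝ) : EE 1 F = F (fun _ => true) := by
  unfold EE
  rw [Finset.sum_eq_single (fun _ => true)]
  · simp [wt]
  · intro x _ hx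
    have : ∃ i, x i = false := by
      by_contra h
      push Not at h
      exact hx (funext fun i => by simpa using h i)
    obtain ⟨i, hi⟩ := this
    rw [Finset.prod_eq_zero (Finset.mem_univ i) (by simp [wt, hi]), zero_mul]
  · intro h; exact absurd (Finset.mem_univ _) h

theorem EE_ind_le_one {p : ℝ} (hp0 : 0 ≤ p) (hp1 : p ≤ 1) (P : Set (ι → Bool)) :
    EE p (ind P) ≤ 1 := by
  have := EE_mono hp0 hp1 (fun x => ind_le_one P x)
  rwa [EE_const] at this

theorem EE_ind_nonneg {p : ℝ} (hp0 : 0 ≤ p) (hp1 : p ≤ 1) (P : Set (ι → Bool)) :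
    0 ≤ EE p (ind P) := EE_nonneg hp0 hp1 (fun x => ind_nonneg P x)

theorem bot_notMem (P : Set (ι → Bool)) (hP : IsUpperSet P) (h : P ≠ Set.univ) :
    (fun _ => false) ∉ P := by
  intro h1
  apply h
  rw [Set.eq_univ_iff_forall]
  intro x
  exact hP (fun i => Bool.false_le (x i)) h1

theorem top_mem (P : Set (ι → Bool)) (hP : IsUpperSet P) (h : P.Nonempty) :
    (fun _ => true) ∈ P := by
  obtain ⟨x, hx⟩ := h
  exact hP (fun i => Bool.le_true (x i)) hx

end cube

theorem mu_eq_EE {n r : ℕ} (p : ℝ) (P : Set (HG n r)) : mu p P = EE p (ind P) := by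
  classical
  unfold mu EE
  apply Finset.sum_congr rfl
  intro x _
  unfold ind wt
  by_cases h : x ∈ P <;> simp [h]

/-- analytic fact: `u ↦ (1+u)^2 exp(-u) ≤ 2` -/
theorem one_add_sq_le_exp {u : ℝ} (hu : 0 ≤ u) : (1 + u) ^ 2 ≤ 2 * Real.exp u := by
  have := Real.quadratic_le_exp_of_nonneg hu
  nlinarith

theorem exponent_bounds (r : ℕ) (hr : 2 ≤ r) :
    1 < (r : ℝ) / ((r : ℝ) - 1) ∧ (r : ℝ) / ((r : ℝ) - 1) ≤ 2 := by
  have h : (2 : ℝ) ≤ r := by exact_mod_cast hr
  constructor
  · rw [lt_div_iff₀ (by linarith)]; linarith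
  · rw [div_le_iff₀ (by linarith)]; linarith

/-- lower bound of the derivative -/
theorem deriv_lower (r : ℕ) (hr : 2 ≤ r) (H : InfluenceBound r) (ε : ℝ) (hε0 : 0 < ε)
    (hε1 : ε < 1 / 2) : ∃ c : ℝ, 0 < c ∧ ∃ n1 : ℕ, 3 ≤ n1 ∧ ∀ n : ℕ, n1 ≤ n →
      ∀ P : Set (HG n r), IsProperty P → IsUpperSet P → ∀ p : ℝ, 0 < p → p < 1 →
      ε ≤ EE p (ind P) → EE p (ind P) ≤ 1 - ε →
      c * (Real.log n) ^ ((r : ℝ) / ((r : ℝ) - 1)) ≤
        ∑ i, EE p (fun x => ind P (Function.update x i true) -
          ind P (Function.update x i false)) := by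
  obtain ⟨κ, hκ, L0, hL0, n0, H⟩ := H
  obtain ⟨hα1, hα2⟩ := exponent_bounds r hr
  set α : ℝ := (r : ℝ) / ((r : ℝ) - 1) with hα
  refine ⟨min (κ * ε / 1600) (ε / (2 * Real.exp 1 * (800 * L0 ^ 2))), by positivity, max n0 3,
    le_max_right _ _, ?_⟩
  intro n hn P hPprop hPup p hp0 hp1 hmu0 hmu1
  have hn0 : n0 ≤ n := (le_max_left _ _).trans hn
  have hn3 : 3 ≤ n := (le_max_right _ _).trans hn
  have hlog1 : 1 ≤ Real.log n := by
    rw [Real.le_log_iff_exp_le (by positivity)]
    have h3 : (3 : ℝ) ≤ n := by exact_mod_cast hn3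
    have := Real.exp_one_lt_d9
    linarith
  set L := Real.log n with hL
  have hLα : L ^ α ≤ L ^ 2 := by
    have := Real.rpow_le_rpow_of_exponent_le hlog1 hα2
    rwa [Real.rpow_two] at this
  have hLα0 : 0 < L ^ α := Real.rpow_pos_of_pos (by linarith) _
  -- variance
  set f : HG n r → ℝ := fun x => 2 * ind P x - 1 with hf
  have hfpm : ∀ x, f x = 1 ∨ f x = -1 := by
    intro x
    simp only [hf, ind]
    split_ifs
    · left; norm_num
    · right; norm_num
  have hfinv : ∀ (σ : Equiv.Perm (Fin n)) (x : HG n r), f (relabel σ x) = f x := by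
    intro σ x
    have h := hPprop σ x
    simp only [hf, ind]
    by_cases hx : x ∈ P
    · rw [if_pos (h.2 hx), if_pos hx]
    · rw [if_neg (fun h' => hx (h.1 h')), if_neg hx]
  have hEf : fc p f ∅ = 2 * EE p (ind P) - 1 := by
    rw [fc_empty, hf, EE_sub, EE_mul_left, EE_const]
  have hEf2 : EE p (fun x => f x ^ 2) = 1 := by
    rw [← EE_const (ι := Edge n r) p 1]
    apply EE_congr
    intro x
    rcases hfpm x with h | h <;> rw [h] <;> norm_num
  have hvar : 2 * ε ≤ 1 - (fc p f ∅) ^ 2 := by
    rw [hEf]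
    nlinarith
  set I := ∑ S : Finset (Edge n r), (S.card : ℝ) * (fc p f S) ^ 2 with hI
  have hder : 4 * (p * (1 - p)) * (∑ i, EE p (fun x => ind P (Function.update x i true) -
          ind P (Function.update x i false))) = I := deriv_formula hp0 hp1 P hPup
  set D := ∑ i, EE p (fun x => ind P (Function.update x i true) -
          ind P (Function.update x i false)) with hD
  set lam := min p (1 - p) with hlam
  have hlam0 : 0 < lam := lt_min hp0 (by linarith)
  have hlam1 : lam < 1 := lt_of_le_of_lt (min_le_left _ _) hp1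
  have hpq : p * (1 - p) ≤ lam := by
    rcases le_total p (1 - p) with h | h
    · rw [hlam, min_eq_left h]; nlinarith
    · rw [hlam, min_eq_right h]; nlinarith
  have hpq0 : 0 < p * (1 - p) := mul_pos hp0 (by linarith)
  have hu : 0 ≤ Real.log (1 / lam) := Real.log_nonneg (by
    rw [le_div_iff₀ hlam0]; linarith)
  have hcc : cc p = 20 * (1 + Real.log (1 / lam)) := rfl
  have hcc1 : 1 ≤ cc p := by rw [hcc]; linarith
  have hDge : ∀ K : ℝ, 0 ≤ K → K * (4 * lam) ≤ I → K ≤ D := by
    intro K hK hKI
    by_contra hlt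
    push Not at hlt
    have h1 : 4 * (p * (1 - p)) * D < 4 * (p * (1 - p)) * K := by
      apply mul_lt_mul_of_pos_left hlt; positivity
    have h2 : 4 * (p * (1 - p)) * K ≤ K * (4 * lam) := by
      nlinarith [mul_le_mul_of_nonneg_left hpq hK]
    linarith
  by_cases hcase : L0 * cc p ≤ L
  · -- use the influence bound
    have h1 := H n hn0 p hp0 hp1 hcase f hfpm hfinv
    have hexp : lam * (cc p) ^ α ≤ 800 := by
      have h2 : (cc p) ^ α ≤ (cc p) ^ 2 := by
        have := Real.rpow_le_rpow_of_exponent_le hcc1 hα2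
        rwa [Real.rpow_two] at this
      have h3 : lam * (1 + Real.log (1 / lam)) ^ 2 ≤ 2 := by
        have h4 := one_add_sq_le_exp hu
        rw [Real.exp_log (by positivity)] at h4
        calc lam * (1 + Real.log (1 / lam)) ^ 2 ≤ lam * (2 * (1 / lam)) :=
              mul_le_mul_of_nonneg_left h4 hlam0.le
          _ = 2 := by field_simp
      calc lam * (cc p) ^ α ≤ lam * (cc p) ^ 2 := mul_le_mul_of_nonneg_left h2 hlam0.le
        _ = 400 * (lam * (1 + Real.log (1 / lam)) ^ 2) := by rw [hcc]; ring
        _ ≤ 800 := by linarith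
    refine (mul_le_mul_of_nonneg_right (min_le_left _ _) hLα0.le).trans ?_
    apply hDge _ (by positivity)
    have hccpos : 0 < (cc p) ^ α := Real.rpow_pos_of_pos (by linarith) _
    have h5 : (L / cc p) ^ α = L ^ α / (cc p) ^ α := Real.div_rpow (by linarith) (by linarith) _
    rw [h5] at h1
    have h6 : κ * (2 * ε) * (L ^ α / (cc p) ^ α) ≤
        κ * (1 - (fc p f ∅) ^ 2) * (L ^ α / (cc p) ^ α) := by
      apply mul_le_mul_of_nonneg_right _ (by positivity)
      exact mul_le_mul_of_nonneg_left hvar hκ.le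
    have h7 : κ * ε / 1600 * L ^ α * (4 * lam) ≤ κ * (2 * ε) * (L ^ α / (cc p) ^ α) := by
      rw [mul_div_assoc', le_div_iff₀ hccpos]
      calc κ * ε / 1600 * L ^ α * (4 * lam) * (cc p) ^ α
          = κ * ε / 400 * L ^ α * (lam * (cc p) ^ α) := by ring
        _ ≤ κ * ε / 400 * L ^ α * 800 := by
            apply mul_le_mul_of_nonneg_left hexp; positivity
        _ = κ * (2 * ε) * L ^ α := by ring
    linarith
  · push Not at hcase
    have h1 : 2 * ε ≤ I := by
      have := influence_ge_var hp0 hp1 f
      rw [hEf2] at this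
      linarith
    have h2 : L / (20 * L0) ≤ 1 + Real.log (1 / lam) := by
      rw [div_le_iff₀ (by positivity)]
      rw [hcc] at hcase
      linarith
    have h3 : Real.exp (L / (20 * L0)) ≤ Real.exp 1 * (1 / lam) := by
      calc Real.exp (L / (20 * L0)) ≤ Real.exp (1 + Real.log (1 / lam)) := Real.exp_le_exp.2 h2
        _ = Real.exp 1 * (1 / lam) := by rw [Real.exp_add, Real.exp_log (by positivity)]
    have h4 : (L / (20 * L0)) ^ 2 / 2 ≤ Real.exp (L / (20 * L0)) := by
      have h : 0 ≤ L / (20 * L0) := by positivity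
      have := Real.quadratic_le_exp_of_nonneg h
      linarith
    refine (mul_le_mul_of_nonneg_right (min_le_right _ _) hLα0.le).trans ?_
    apply hDge _ (by positivity)
    have h5 : L ^ 2 / (800 * L0 ^ 2) * lam ≤ Real.exp 1 := by
      have h6 : L ^ 2 / (800 * L0 ^ 2) = (L / (20 * L0)) ^ 2 / 2 := by
        field_simp
        ring
      rw [h6]
      calc (L / (20 * L0)) ^ 2 / 2 * lam ≤ Real.exp 1 * (1 / lam) * lam :=
            mul_le_mul_of_nonneg_right (h4.trans h3) hlam0.le
        _ = Real.exp 1 := by field_simp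
    have hexp1 : 0 < Real.exp 1 := Real.exp_pos 1
    calc ε / (2 * Real.exp 1 * (800 * L0 ^ 2)) * L ^ α * (4 * lam)
        ≤ ε / (2 * Real.exp 1 * (800 * L0 ^ 2)) * L ^ 2 * (4 * lam) := by
          apply mul_le_mul_of_nonneg_right _ (by positivity)
          exact mul_le_mul_of_nonneg_left hLα (by positivity)
      _ = 2 * ε * ((L ^ 2 / (800 * L0 ^ 2) * lam) / Real.exp 1) := by
          field_simp
          ring
      _ ≤ 2 * ε * 1 := by
          apply mul_le_mul_of_nonneg_left _ (by positivity)
          rw [div_le_one hexp1]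
          exact h5
      _ ≤ I := by linarith

/-- basic facts on the critical probability -/
theorem pcrit_mem {n r : ℕ} (P : Set (HG n r)) (hPup : IsUpperSet P) (hne : P.Nonempty) (a : ℝ)
    (ha1 : a ≤ 1) : pcrit P a ∈ {p : ℝ | p ∈ Set.Icc (0 : ℝ) 1 ∧ a ≤ mu p P} := by
  have hclosed : IsClosed {p : ℝ | p ∈ Set.Icc (0 : ℝ) 1 ∧ a ≤ mu p P} := by
    apply IsClosed.inter isClosed_Icc
    have hc : Continuous (fun p => mu p P) := by
      simp_rw [mu_eq_EE]
      exact continuous_iff_continuousAt.2 (fun p => (hasDerivAt_EE p (ind P)).continuousAt)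
    exact isClosed_le continuous_const hc
  have h1 : (1 : ℝ) ∈ {p : ℝ | p ∈ Set.Icc (0 : ℝ) 1 ∧ a ≤ mu p P} := by
    refine ⟨⟨zero_le_one, le_refl _⟩, ?_⟩
    rw [mu_eq_EE, EE_one]
    unfold ind
    rw [if_pos (top_mem P hPup hne)]
    exact ha1
  exact hclosed.csInf_mem ⟨1, h1⟩ ⟨0, fun p hp => hp.1.1⟩

theorem lt_of_lt_pcrit {n r : ℕ} (P : Set (HG n r)) (a : ℝ) {p : ℝ} (hp : p ∈ Set.Icc (0 : ℝ) 1)
    (h : p < pcrit P a) : mu p P < a := by
  by_contra hlt
  push Not at hlt
  have : pcrit P a ≤ p := csInf_le ⟨0, fun p hp => hp.1.1⟩ ⟨hp, hlt⟩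
  linarith

theorem width_of_influence (r : ℕ) (hr : 2 ≤ r) (H : InfluenceBound r) (ε : ℝ) (hε0 : 0 < ε)
    (hε1 : ε < 1 / 2) : ∃ C : ℝ, 0 < C ∧ ∀ n : ℕ, r ≤ n → ∀ P : Set (HG n r),
      IsProperty P → IsUpperSet P → P.Nonempty → P ≠ Set.univ →
      width P ε ≤ C * (Real.log n) ^ (-((r : ℝ) / ((r : ℝ) - 1))) := by
  obtain ⟨c, hc, n1, hn1, hder⟩ := deriv_lower r hr H ε hε0 hε1
  obtain ⟨hα1, hα2⟩ := exponent_bounds r hr
  set α : ℝ := (r : ℝ) / ((r : ℝ) - 1) with hα
  refine ⟨1 / c + (Real.log n1) ^ 2, by positivity, ?_⟩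
  intro n hn P hPprop hPup hne hnu
  have hn2 : 2 ≤ n := hr.trans hn
  have hlogpos : 0 < Real.log n := Real.log_pos (by exact_mod_cast hn2)
  have hLα0 : 0 < (Real.log n) ^ α := Real.rpow_pos_of_pos hlogpos _
  rw [Real.rpow_neg hlogpos.le, ← div_eq_mul_inv, le_div_iff₀ hLα0]
  have ha := pcrit_mem P hPup hne ε (by linarith)
  have hb := pcrit_mem P hPup hne (1 - ε) (by linarith)
  obtain ⟨⟨ha0, ha1⟩, haε⟩ := ha
  obtain ⟨⟨hb0, hb1⟩, hbε⟩ := hb
  have hw1 : width P ε ≤ 1 := by unfold width; linarith
  have hlogn1 : 1 ≤ Real.log n1 := by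
    rw [Real.le_log_iff_exp_le (by positivity)]
    have h3 : (3 : ℝ) ≤ n1 := by exact_mod_cast hn1
    have := Real.exp_one_lt_d9
    linarith
  have hcinv : 0 < 1 / c := by positivity
  by_cases hsmall : n < n1
  · have h1 : (Real.log n) ^ α ≤ (Real.log n1) ^ 2 := by
      have h2 : Real.log n ≤ Real.log n1 :=
        Real.log_le_log (by positivity) (by exact_mod_cast hsmall.le)
      calc (Real.log n) ^ α ≤ (Real.log n1) ^ α := Real.rpow_le_rpow hlogpos.le h2 (by linarith)
        _ ≤ (Real.log n1) ^ (2 : ℝ) := Real.rpow_le_rpow_of_exponent_le hlogn1 hα2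
        _ = (Real.log n1) ^ 2 := Real.rpow_two _
    calc width P ε * (Real.log n) ^ α ≤ 1 * (Real.log n) ^ α :=
          mul_le_mul_of_nonneg_right hw1 hLα0.le
      _ ≤ (Real.log n1) ^ 2 := by linarith
      _ ≤ _ := by linarith
  · push Not at hsmall
    have hsq : 0 ≤ (Real.log n1) ^ 2 := by positivity
    rcases le_total (pcrit P (1 - ε)) (pcrit P ε) with hle | hle
    · have : width P ε ≤ 0 := by unfold width; linarith
      have h2 : width P ε * (Real.log n) ^ α ≤ 0 := mul_nonpos_of_nonpos_of_nonneg this hLα0.le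
      linarith
    · set a := pcrit P ε with hadef
      set b := pcrit P (1 - ε) with hbdef
      have hMVT : c * (Real.log n) ^ α * (b - a) ≤ EE b (ind P) - EE a (ind P) := by
        apply Convex.mul_sub_le_image_sub_of_le_deriv (convex_Icc a b)
          (f := fun p => EE p (ind P))
        · exact fun p _ => (hasDerivAt_EE p (ind P)).continuousAt.continuousWithinAt
        · exact fun p _ => (hasDerivAt_EE p (ind P)).differentiableAt.differentiableWithinAt
        · intro p hp
          rw [interior_Icc] at hp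
          have hp0 : 0 < p := lt_of_le_of_lt ha0 hp.1
          have hp1 : p < 1 := lt_of_lt_of_le hp.2 hb1
          rw [(hasDerivAt_EE p (ind P)).deriv]
          apply hder n hsmall P hPprop hPup p hp0 hp1
          · have hm := mono_EE_ind P hPup ⟨ha0, ha1⟩ ⟨hp0.le, hp1.le⟩ hp.1.le
            simp only at hm
            rw [mu_eq_EE] at haε
            linarith
          · have := lt_of_lt_pcrit P (1 - ε) ⟨hp0.le, hp1.le⟩ hp.2
            rw [mu_eq_EE] at this
            exact this.le
        · exact ⟨le_refl _, hle⟩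
        · exact ⟨hle, le_refl _⟩
        · exact hle
      have h1 : EE b (ind P) ≤ 1 := EE_ind_le_one hb0 hb1 P
      have h2 : 0 ≤ EE a (ind P) := EE_ind_nonneg ha0 ha1 P
      have h3 : c * (width P ε * (Real.log n) ^ α) ≤ 1 := by
        unfold width
        rw [← hadef, ← hbdef]
        calc c * ((b - a) * Real.log n ^ α) = c * (Real.log n) ^ α * (b - a) := by ring
          _ ≤ 1 := by linarith
      have h4 : width P ε * (Real.log n) ^ α ≤ 1 / c := by
        rw [le_div_iff₀ hc]; linarith
      linarith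

end Vale.Agent.P063
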