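import Vale.Agent.P063.Convex

/-!
The low-level (KKL type) estimate for functions invariant under a transitive group.
-/

namespace Vale.Agent.P063

open Finset

set_option linter.unusedSectionVars false

variable {ι : Type*} [Fintype ι] [DecidableEq ι] {p : ℝ}

lemma EE_perm (p : ℝ) (σ : Equiv.Perm ι) (F : (ι → Bool) → ℝ) :
    EE p (fun x => F (x ∘ σ)) = EE p F := by
  unfold EE
  refine Fintype.sum_equiv (Equiv.arrowCongr σ.symm (Equiv.refl Bool)) _ _ (fun x => ?_)
  have h1 : (Equiv.arrowCongr σ.symm (Equiv.refl Bool)) x = x ∘ σ := by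
    funext i; simp [Equiv.arrowCongr]
  rw [h1]
  congr 1
  exact (Equiv.prod_comp σ (fun i => wt p (x i))).symm

lemma fc_perm (σ : Equiv.Perm ι) (f : (ι → Bool) → ℝ) (hf : ∀ x, f (x ∘ σ) = f x)
    (S : Finset ι) : fc p f (S.image σ) = fc p f S := by
  unfold fc
  rw [← EE_perm p σ (fun x => f x * chi p S x)]
  refine EE_congr p (fun x => ?_)
  rw [hf]
  congr 1
  unfold chi
  rw [Finset.prod_image (fun a _ b _ h => σ.injective h)]
  rfl

/-- marginals of an invariant weight are constant along orbits -/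
lemma marginal_perm (σ : Equiv.Perm ι) (g : Finset ι → ℝ) (hg : ∀ S, g (S.image σ) = g S)
    (i : ι) :
    (∑ S : Finset ι, if σ i ∈ S then g S else 0) = ∑ S : Finset ι, if i ∈ S then g S else 0 := by
  refine (Fintype.sum_equiv (Equiv.finsetCongr σ) _ _ (fun S => ?_)).symm
  have h1 : (Equiv.finsetCongr σ) S = S.image σ := by
    rw [Equiv.finsetCongr_apply, Finset.map_eq_image]; rfl
  rw [h1, hg]
  have : (σ i ∈ S.image σ) ↔ i ∈ S := by
    rw [Finset.mem_image]
    constructor
    · rintro ⟨j, hj, hji⟩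
      rw [← σ.injective hji]; exact hj
    · intro h; exact ⟨i, h, rfl⟩
  simp only [this]

/-- A family of coordinate permutations acts transitively and preserves `f`. -/
def TransInv (f : (ι → Bool) → ℝ) : Prop :=
  ∀ i j : ι, ∃ σ : Equiv.Perm ι, σ i = j ∧ ∀ x, f (x ∘ σ) = f x

lemma kkl_pointwise (hp0 : 0 < p) (hp1 : p < 1) (f : (ι → Bool) → ℝ)
    (hf : ∀ x, f x = 1 ∨ f x = -1) (htr : TransInv f) [Nonempty ι] {t l : ℝ}
    (ht0 : 0 < t) (ht1 : t ≤ 1) (hl0 : 0 < l) :
    (Fintype.card ι : ℝ) * phi ((∑ S : Finset ι, (S.card : ℝ) * (t ^ S.card * (fc p f S) ^ 2))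
        / Fintype.card ι)
      ≤ cc p * (∑ S : Finset ι, (S.card : ℝ) * (((S.card : ℝ) - 1) * t ^ S.card * (fc p f S) ^ 2))
        + 2 * Real.log (1 / l) *
          (∑ S : Finset ι, (S.card : ℝ) * (t ^ S.card * (fc p f S) ^ 2))
        + 2 * l * ((∑ S : Finset ι, (S.card : ℝ) * (fc p f S) ^ 2)
          / (2 * Real.sqrt (p * (1 - p)))) := by
  have hs : Real.sqrt t ^ 2 = t := Real.sq_sqrt ht0.le
  have hs1 : Real.sqrt t ≤ 1 := by
    rw [← Real.sqrt_one]; exact Real.sqrt_le_sqrt ht1
  set g : Finset ι → ℝ := fun S => t ^ S.card * (fc p f S) ^ 2 with hg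
  obtain ⟨i0⟩ := (inferInstance : Nonempty ι)
  have hconst : ∀ i : ι, (∑ S : Finset ι, if i ∈ S then g S else 0)
      = ∑ S : Finset ι, if i0 ∈ S then g S else 0 := by
    intro i
    obtain ⟨σ, hσ, hσf⟩ := htr i0 i
    rw [← hσ]
    refine marginal_perm σ g (fun S => ?_) i0
    rw [hg]; simp only
    rw [fc_perm σ f hσf, Finset.card_image_of_injective _ σ.injective]
  have hN : (0 : ℝ) < Fintype.card ι := by exact_mod_cast Fintype.card_pos
  have hsum : (∑ S : Finset ι, (S.card : ℝ) * g S)
      = Fintype.card ι * (∑ S : Finset ι, if i0 ∈ S then g S else 0) := by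
    rw [← sum_ite_mem_card g]
    simp_rw [hconst]
    rw [Finset.sum_const, nsmul_eq_mul, Finset.card_univ]
  have h2 : ∑ i : ι, phi (∑ S : Finset ι, if i ∈ S then t ^ S.card * (fc p f S) ^ 2 else 0)
      ≤ ∑ i : ι, (cc p * (∑ S : Finset ι,
          if i ∈ S then ((S.card : ℝ) - 1) * t ^ S.card * (fc p f S) ^ 2 else 0)
        + 2 * Real.log (1 / l) *
          (∑ S : Finset ι, if i ∈ S then t ^ S.card * (fc p f S) ^ 2 else 0)
        + 2 * l * ((∑ S : Finset ι, if i ∈ S then (fc p f S) ^ 2 else 0)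
          / (2 * Real.sqrt (p * (1 - p))))) := by
    refine Finset.sum_le_sum (fun i _ => ?_)
    have := deriv_lemma hp0 hp1 f hf i (Real.sqrt_nonneg t) hs1 hl0
    rw [hs] at this
    exact this
  rw [Finset.sum_add_distrib, Finset.sum_add_distrib, ← Finset.mul_sum, ← Finset.mul_sum,
    ← Finset.mul_sum, ← Finset.sum_div, sum_ite_mem_card, sum_ite_mem_card,
    sum_ite_mem_card] at h2
  have h3 : ∑ i : ι, phi (∑ S : Finset ι, if i ∈ S then t ^ S.card * (fc p f S) ^ 2 else 0)
      = (Fintype.card ι : ℝ) *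
        phi ((∑ S : Finset ι, (S.card : ℝ) * (t ^ S.card * (fc p f S) ^ 2)) / Fintype.card ι) := by
    have e1 : ∀ i : ι, phi (∑ S : Finset ι, if i ∈ S then t ^ S.card * (fc p f S) ^ 2 else 0)
        = phi ((∑ S : Finset ι, (S.card : ℝ) * g S) / Fintype.card ι) := by
      intro i
      rw [hsum, mul_div_cancel_left₀ _ (ne_of_gt hN)]
      exact congrArg phi (hconst i)
    simp_rw [e1]
    rw [Finset.sum_const, nsmul_eq_mul, Finset.card_univ]
  rw [h3] at h2
  exact h2

/-- integrated form -/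
lemma kkl_integrated (q : Finset ι → ℝ) (hq : ∀ S, 0 ≤ q S) {t0 τ D c b : ℝ} (ht0 : 0 < t0)
    (htτ : t0 ≤ τ) (hτ1 : τ < 1) (hD : 0 ≤ D) (hc : 0 ≤ c) (hb : 0 ≤ b)
    (h : ∀ t, t0 ≤ t → t ≤ τ →
      D * (∑ S : Finset ι, (S.card : ℝ) * (t ^ S.card * q S))
        ≤ c * (∑ S : Finset ι, (S.card : ℝ) * (((S.card : ℝ) - 1) * t ^ S.card * q S)) + b) :
    D * (∑ S : Finset ι, if S = ∅ then 0 else q S * τ ^ S.card)
      ≤ D * t0 * (∑ S : Finset ι, if S = ∅ then 0 else q S)
        + c * (∑ S : Finset ι, if S = ∅ then 0 else q S) / (1 - τ) + b / t0 := by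
  have hτ0 : 0 < τ := lt_of_lt_of_le ht0 htτ
  -- the auxiliary function
  set H : ℝ → ℝ := fun t =>
    c * (∑ S : Finset ι, if S = ∅ then 0 else q S * (((S.card : ℝ) - 1) * t ^ S.card))
      + b / t0 * t - D * (∑ S : Finset ι, if S = ∅ then 0 else q S * t ^ S.card) with hH
  have hder : ∀ t : ℝ, HasDerivAt H
      (c * (∑ S : Finset ι, if S = ∅ then 0 else
          q S * (((S.card : ℝ) - 1) * ((S.card : ℝ) * t ^ (S.card - 1))))
        + b / t0 - D * (∑ S : Finset ι, if S = ∅ then 0 else
          q S * ((S.card : ℝ) * t ^ (S.card - 1)))) t := by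
    intro t
    rw [hH]
    refine HasDerivAt.sub (HasDerivAt.add (HasDerivAt.const_mul c ?_) ?_)
      (HasDerivAt.const_mul D ?_)
    · refine HasDerivAt.fun_sum (fun S _ => ?_)
      by_cases hS : S = ∅
      · simp only [hS, if_true]; exact hasDerivAt_const t 0
      · simp only [hS, if_false]
        exact HasDerivAt.const_mul _ (HasDerivAt.const_mul _ (hasDerivAt_pow _ t))
    · simpa using (hasDerivAt_id t).const_mul (b / t0)
    · refine HasDerivAt.fun_sum (fun S _ => ?_)
      by_cases hS : S = ∅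
      · simp only [hS, if_true]; exact hasDerivAt_const t 0
      · simp only [hS, if_false]
        exact HasDerivAt.const_mul _ (hasDerivAt_pow _ t)
  have hmono : H t0 ≤ H τ := by
    have hm : MonotoneOn H (Set.Icc t0 τ) := by
      refine monotoneOn_of_deriv_nonneg (convex_Icc t0 τ)
        (fun t _ => (hder t).continuousAt.continuousWithinAt)
        (fun t _ => (hder t).differentiableAt.differentiableWithinAt) (fun t ht => ?_)
      rw [interior_Icc] at ht
      have htpos : 0 < t := lt_trans ht0 ht.1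
      rw [(hder t).deriv]
      have hh := h t ht.1.le ht.2.le
      have e1 : (∑ S : Finset ι, (S.card : ℝ) * (t ^ S.card * q S))
          = t * (∑ S : Finset ι, if S = ∅ then 0 else q S * ((S.card : ℝ) * t ^ (S.card - 1))) := by
        rw [Finset.mul_sum]
        refine Finset.sum_congr rfl (fun S _ => ?_)
        by_cases hS : S = ∅
        · simp [hS]
        · simp only [hS, if_false]
          have hcard : S.card - 1 + 1 = S.card :=
            Nat.sub_add_cancel (Finset.card_pos.mpr (Finset.nonempty_iff_ne_empty.mpr hS))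
          have : t ^ S.card = t ^ (S.card - 1) * t := by rw [← pow_succ, hcard]
          rw [this]; ring
      have e2 : (∑ S : Finset ι, (S.card : ℝ) * (((S.card : ℝ) - 1) * t ^ S.card * q S))
          = t * (∑ S : Finset ι, if S = ∅ then 0 else
          q S * (((S.card : ℝ) - 1) * ((S.card : ℝ) * t ^ (S.card - 1)))) := by
        rw [Finset.mul_sum]
        refine Finset.sum_congr rfl (fun S _ => ?_)
        by_cases hS : S = ∅
        · simp [hS]
        · simp only [hS, if_false]
          have hcard : S.card - 1 + 1 = S.card :=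
            Nat.sub_add_cancel (Finset.card_pos.mpr (Finset.nonempty_iff_ne_empty.mpr hS))
          have : t ^ S.card = t ^ (S.card - 1) * t := by rw [← pow_succ, hcard]
          rw [this]; ring
      rw [e1, e2] at hh
      set A1 := (∑ S : Finset ι, if S = ∅ then 0 else q S * ((S.card : ℝ) * t ^ (S.card - 1)))
      set A2 := (∑ S : Finset ι, if S = ∅ then 0 else
          q S * (((S.card : ℝ) - 1) * ((S.card : ℝ) * t ^ (S.card - 1))))
      have hbt : b ≤ t * (b / t0) := by
        have : t0 * (b / t0) = b := by field_simp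
        calc b = t0 * (b / t0) := this.symm
          _ ≤ t * (b / t0) := mul_le_mul_of_nonneg_right ht.1.le (by positivity)
      have : 0 ≤ t * (c * A2 + b / t0 - D * A1) := by nlinarith
      exact nonneg_of_mul_nonneg_right this htpos
    exact hm ⟨le_refl _, htτ⟩ ⟨htτ, le_refl _⟩ htτ
  rw [hH] at hmono
  simp only at hmono
  -- bounds
  have b1 : (∑ S : Finset ι, if S = ∅ then 0 else q S * (((S.card : ℝ) - 1) * τ ^ S.card))
      ≤ (∑ S : Finset ι, if S = ∅ then 0 else q S) / (1 - τ) := by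
    rw [Finset.sum_div]
    refine Finset.sum_le_sum (fun S _ => ?_)
    split_ifs with hS
    · simp
    · rw [div_eq_mul_inv]
      refine mul_le_mul_of_nonneg_left ?_ (hq S)
      have h1τ : 0 < 1 - τ := by linarith
      have hb : (S.card : ℝ) * τ ^ S.card ≤ (1 - τ)⁻¹ := by
        have := one_add_mul_le_pow (a := 1 - τ) (by linarith) S.card
        -- (1 + n(1-τ)) ≤ (2-τ)^n ; need n (1-τ) τ^n ≤ 1
        have h2 : (1 + (1 - τ)) * τ ≤ 1 := by nlinarith
        have h3 : ((1 + (1 - τ)) * τ) ^ S.card ≤ 1 := pow_le_one₀ (by nlinarith) h2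
        rw [mul_pow] at h3
        have h4 : (S.card : ℝ) * (1 - τ) * τ ^ S.card ≤ 1 := by
          have hp' : 0 ≤ τ ^ S.card := pow_nonneg hτ0.le _
          nlinarith
        rw [← one_div, le_div_iff₀ h1τ]
        nlinarith
      have hpos : 0 ≤ τ ^ S.card := pow_nonneg hτ0.le _
      nlinarith
  have b2 : 0 ≤ (∑ S : Finset ι, if S = ∅ then 0 else q S * (((S.card : ℝ) - 1) * t0 ^ S.card)) := by
    refine Finset.sum_nonneg (fun S _ => ?_)
    split_ifs with hS
    · exact le_refl _
    · have : (1 : ℝ) ≤ S.card := by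
        exact_mod_cast Finset.card_pos.mpr (Finset.nonempty_iff_ne_empty.mpr hS)
      have hpos : 0 ≤ t0 ^ S.card := pow_nonneg ht0.le _
      exact mul_nonneg (hq S) (mul_nonneg (by linarith) hpos)
  have b3 : (∑ S : Finset ι, if S = ∅ then 0 else q S * t0 ^ S.card)
      ≤ t0 * (∑ S : Finset ι, if S = ∅ then 0 else q S) := by
    rw [Finset.mul_sum]
    refine Finset.sum_le_sum (fun S _ => ?_)
    split_ifs with hS
    · simp
    · rw [mul_comm]
      refine mul_le_mul_of_nonneg_right ?_ (hq S)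
      have hc1 : 1 ≤ S.card := Finset.card_pos.mpr (Finset.nonempty_iff_ne_empty.mpr hS)
      calc t0 ^ S.card ≤ t0 ^ 1 := pow_le_pow_of_le_one ht0.le (by linarith) hc1
        _ = t0 := pow_one _
  have b4 : b / t0 * τ - b / t0 * t0 ≤ b / t0 := by
    have : 0 ≤ b / t0 := by positivity
    nlinarith
  have c1 := mul_le_mul_of_nonneg_left b1 hc
  have c2 := mul_nonneg hc b2
  have c3 := mul_le_mul_of_nonneg_left b3 hD
  have e5 : c * ((∑ S : Finset ι, if S = ∅ then 0 else q S) / (1 - τ))
      = c * (∑ S : Finset ι, if S = ∅ then 0 else q S) / (1 - τ) := by ring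
  rw [e5] at c1
  nlinarith

end Vale.Agent.P063
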