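import Vale.Agent.P063.Basic

/-!
Log-Sobolev inequality on the `p`-biased cube: the two-point inequality and tensorisation.
-/

namespace Vale.Agent.P063

open Finset

set_option linter.unusedSectionVars false

lemma lsi_pointwise (g : ℝ) :
    (1 + g) ^ 2 * Real.log ((1 + g) ^ 2) - 2 * g - g ^ 2 ≤
      4 * g ^ 2 + 2 * g ^ 2 * Real.log (1 + |g|) := by
  have hlog0 : 0 ≤ Real.log (1 + |g|) := Real.log_nonneg (by linarith [abs_nonneg g])
  rcases le_or_gt 0 g with hg | hg
  · rw [abs_of_nonneg hg] at hlog0 ⊢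
    have h1 : Real.log ((1 + g) ^ 2) = 2 * Real.log (1 + g) := by
      rw [Real.log_pow]; norm_num
    have h2 : Real.log (1 + g) ≤ g := by
      have := Real.log_le_sub_one_of_pos (show (0 : ℝ) < 1 + g by linarith)
      linarith
    rw [h1]
    nlinarith [mul_nonneg hg (sub_nonneg.mpr h2), mul_nonneg hg hg]
  · rcases le_or_gt (-2) g with hg2 | hg2
    · have h1 : (1 + g) ^ 2 * Real.log ((1 + g) ^ 2) ≤ (1 + g) ^ 2 * ((1 + g) ^ 2 - 1) := by
        rcases eq_or_lt_of_le (sq_nonneg (1 + g)) with h0 | h0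
        · rw [← h0]; simp
        · exact mul_le_mul_of_nonneg_left (Real.log_le_sub_one_of_pos h0) h0.le
      have h2 : 0 ≤ 2 * g ^ 2 * Real.log (1 + |g|) := by positivity
      have h3 : g ^ 2 * (2 + g) ^ 2 ≤ g ^ 2 * 4 := by
        apply mul_le_mul_of_nonneg_left _ (sq_nonneg g)
        nlinarith
      nlinarith
    · have habs : |g| = -g := abs_of_neg hg
      have h1 : Real.log ((1 + g) ^ 2) ≤ 2 * Real.log (1 + |g|) := by
        have : (2 : ℝ) * Real.log (1 + |g|) = Real.log ((1 + |g|) ^ 2) := by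
          rw [Real.log_pow]; norm_num
        rw [this]
        apply Real.log_le_log
        · have : 1 + g ≠ 0 := by intro h; linarith
          positivity
        · rw [habs]; nlinarith
      have h2 : (1 + g) ^ 2 * Real.log ((1 + g) ^ 2) ≤ (1 + g) ^ 2 * (2 * Real.log (1 + |g|)) :=
        mul_le_mul_of_nonneg_left h1 (sq_nonneg _)
      have h3 : (1 + g) ^ 2 * (2 * Real.log (1 + |g|)) ≤ g ^ 2 * (2 * Real.log (1 + |g|)) := by
        apply mul_le_mul_of_nonneg_right _ (by linarith)
        nlinarith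
      nlinarith

lemma sq_log_le {a N L : ℝ} (hN : 0 < N) (h : a ^ 2 ≤ N * Real.exp L) :
    a ^ 2 * Real.log (a ^ 2) ≤ a ^ 2 * (Real.log N + L) := by
  rcases eq_or_lt_of_le (sq_nonneg a) with h0 | h0
  · rw [← h0]; simp
  · apply mul_le_mul_of_nonneg_left _ h0.le
    have h1 := Real.log_le_log h0 h
    rwa [Real.log_mul hN.ne' (Real.exp_pos L).ne', Real.log_exp] at h1

lemma lsi_scaled {a m g : ℝ} (hm : m ≠ 0) (hg : a = m * (1 + g)) :
    a ^ 2 * Real.log (a ^ 2) = a ^ 2 * Real.log (m ^ 2) +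
      m ^ 2 * ((1 + g) ^ 2 * Real.log ((1 + g) ^ 2)) := by
  by_cases h0 : 1 + g = 0
  · rw [hg, h0]; simp
  · have h1 : a ^ 2 = m ^ 2 * (1 + g) ^ 2 := by rw [hg]; ring
    have h2 : Real.log (a ^ 2) = Real.log (m ^ 2) + Real.log ((1 + g) ^ 2) := by
      rw [h1, Real.log_mul (pow_ne_zero 2 hm) (pow_ne_zero 2 h0)]
    rw [h2, h1]; ring

lemma lsi_log_bound {lam t : ℝ} (h0 : 0 < lam) (h1 : lam ≤ 1) (ht : lam * t ^ 2 ≤ 1) :
    Real.log (1 + |t|) ≤ 1 + Real.log (1 / lam) := by
  have h2 : |t| ≤ 1 / lam := by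
    rw [le_div_iff₀ h0]
    by_contra h
    push Not at h
    have e : |t| ^ 2 = t ^ 2 := sq_abs t
    have h3 : 1 < |t| := by
      by_contra h4
      push Not at h4
      have : |t| * lam ≤ 1 * 1 := mul_le_mul h4 h1 h0.le (by norm_num)
      linarith
    have h5 : |t| * lam * 1 < |t| * lam * |t| := by
      apply mul_lt_mul_of_pos_left h3
      linarith
    have h6 : |t| * lam * |t| = lam * t ^ 2 := by rw [← e]; ring
    linarith
  have h3 : 1 + |t| ≤ 2 * (1 / lam) := by
    have : 1 ≤ 1 / lam := by rw [le_div_iff₀ h0]; linarith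
    linarith
  have h4 := Real.log_le_log (by positivity : (0 : ℝ) < 1 + |t|) h3
  rw [Real.log_mul (by norm_num) (by positivity)] at h4
  have h5 : Real.log 2 ≤ 1 := by
    have := Real.log_two_lt_d9
    linarith
  linarith

lemma lsi_two_point {p : ℝ} (hp0 : 0 < p) (hp1 : p < 1) (a b : ℝ) :
    p * (a ^ 2 * Real.log (a ^ 2)) + (1 - p) * (b ^ 2 * Real.log (b ^ 2)) -
      (p * a ^ 2 + (1 - p) * b ^ 2) * Real.log (p * a ^ 2 + (1 - p) * b ^ 2) ≤
      cc p * (p * (1 - p) * (a - b) ^ 2) := by
  obtain ⟨lam, hlam⟩ : ∃ lam, lam = min p (1 - p) := ⟨_, rfl⟩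
  obtain ⟨L, hL⟩ : ∃ L, L = Real.log (1 / lam) := ⟨_, rfl⟩
  have hq0 : 0 < 1 - p := by linarith
  have hlam0 : 0 < lam := by rw [hlam]; exact lt_min hp0 hq0
  have hlamp : lam ≤ p := by rw [hlam]; exact min_le_left _ _
  have hlamq : lam ≤ 1 - p := by rw [hlam]; exact min_le_right _ _
  have hlam1 : lam ≤ 1 / 2 := by linarith
  have hL0 : 0 ≤ L := by
    rw [hL]
    apply Real.log_nonneg
    rw [le_div_iff₀ hlam0]; linarith
  have hcc : cc p = 20 * (1 + L) := by rw [cc, hL, hlam]
  have hexpL : Real.exp L = 1 / lam := by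
    rw [hL, Real.exp_log (by positivity)]
  obtain ⟨N, hN⟩ : ∃ N, N = p * a ^ 2 + (1 - p) * b ^ 2 := ⟨_, rfl⟩
  obtain ⟨m, hm⟩ : ∃ m, m = p * a + (1 - p) * b := ⟨_, rfl⟩
  obtain ⟨V, hV⟩ : ∃ V, V = p * (1 - p) * (a - b) ^ 2 := ⟨_, rfl⟩
  have hNV : N = V + m ^ 2 := by rw [hN, hV, hm]; ring
  have hV0 : 0 ≤ V := by rw [hV]; positivity
  have hN0 : 0 ≤ N := by rw [hNV]; positivity
  rw [← hN, ← hV, hcc]
  rcases eq_or_lt_of_le hN0 with hNz | hNpos
  · -- both vanish
    have ha : a ^ 2 = 0 := by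
      have h1 : p * a ^ 2 ≤ 0 := by
        have : 0 ≤ (1 - p) * b ^ 2 := by positivity
        linarith
      have h2 : 0 ≤ a ^ 2 := sq_nonneg a
      nlinarith
    have hb : b ^ 2 = 0 := by
      have h1 : (1 - p) * b ^ 2 ≤ 0 := by
        have : 0 ≤ p * a ^ 2 := by positivity
        linarith
      have h2 : 0 ≤ b ^ 2 := sq_nonneg b
      nlinarith
    rw [← hNz, ha, hb]
    simp
    positivity
  rcases le_or_gt (m ^ 2) V with hc | hc
  · have ha : a ^ 2 ≤ N * Real.exp L := by
      rw [hexpL, mul_one_div, le_div_iff₀ hlam0]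
      have h1 : 0 ≤ (1 - p) * b ^ 2 := by positivity
      nlinarith [sq_nonneg a]
    have hb : b ^ 2 ≤ N * Real.exp L := by
      rw [hexpL, mul_one_div, le_div_iff₀ hlam0]
      have h1 : 0 ≤ p * a ^ 2 := by positivity
      nlinarith [sq_nonneg b]
    have h1 := mul_le_mul_of_nonneg_left (sq_log_le hNpos ha) hp0.le
    have h2 := mul_le_mul_of_nonneg_left (sq_log_le hNpos hb) hq0.le
    have h3 : p * (a ^ 2 * (Real.log N + L)) + (1 - p) * (b ^ 2 * (Real.log N + L)) =
        N * (Real.log N + L) := by rw [hN]; ring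
    have h4 : N * L ≤ 2 * V * L := mul_le_mul_of_nonneg_right (by linarith) hL0
    have h5 := mul_nonneg hV0 hL0
    have h6 : N * (Real.log N + L) = N * Real.log N + N * L := by ring
    have h7 : 20 * (1 + L) * V = 20 * V + 20 * (V * L) := by ring
    have h8 : 2 * V * L = 2 * (V * L) := by ring
    rw [h7]
    linarith
  · have hm0 : m ≠ 0 := by
      intro h
      rw [h] at hc
      simp at hc
      linarith
    have hm2 : 0 < m ^ 2 := by positivity
    obtain ⟨g, hg⟩ : ∃ g, g = a / m - 1 := ⟨_, rfl⟩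
    obtain ⟨k, hk⟩ : ∃ k, k = b / m - 1 := ⟨_, rfl⟩
    have hga : a = m * (1 + g) := by rw [hg]; field_simp; ring
    have hkb : b = m * (1 + k) := by rw [hk]; field_simp; ring
    have hmean : p * g + (1 - p) * k = 0 := by
      have h1 : m * (p * g + (1 - p) * k) = 0 := by
        have : m = p * (m * (1 + g)) + (1 - p) * (m * (1 + k)) := by
          rw [← hga, ← hkb]; exact hm
        linarith
      rcases mul_eq_zero.mp h1 with h | h
      · exact absurd h hm0
      · exact h
    have hVg : V = m ^ 2 * (p * g ^ 2 + (1 - p) * k ^ 2) := by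
      have h1 : V = m ^ 2 * (p * (1 - p) * (g - k) ^ 2) := by
        rw [hV, hga, hkb]; ring
      have h2 : p * g ^ 2 + (1 - p) * k ^ 2 =
          p * (1 - p) * (g - k) ^ 2 + (p * g + (1 - p) * k) ^ 2 := by ring
      rw [h1, h2, hmean]; ring
    have hsum1 : p * g ^ 2 + (1 - p) * k ^ 2 < 1 := by
      by_contra h
      push Not at h
      have : m ^ 2 * 1 ≤ m ^ 2 * (p * g ^ 2 + (1 - p) * k ^ 2) :=
        mul_le_mul_of_nonneg_left h hm2.le
      linarith
    have hlog : ∀ t : ℝ, lam * t ^ 2 ≤ 1 → Real.log (1 + |t|) ≤ 1 + L := by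
      intro t ht
      rw [hL]
      exact lsi_log_bound hlam0 (by linarith) ht
    have hg1 : lam * g ^ 2 ≤ 1 := by
      have h1 : 0 ≤ (1 - p) * k ^ 2 := by positivity
      have h2 : lam * g ^ 2 ≤ p * g ^ 2 := mul_le_mul_of_nonneg_right hlamp (sq_nonneg g)
      linarith
    have hk1 : lam * k ^ 2 ≤ 1 := by
      have h1 : 0 ≤ p * g ^ 2 := by positivity
      have h2 : lam * k ^ 2 ≤ (1 - p) * k ^ 2 := mul_le_mul_of_nonneg_right hlamq (sq_nonneg k)
      linarith
    have hpw : ∀ t : ℝ, lam * t ^ 2 ≤ 1 →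
        (1 + t) ^ 2 * Real.log ((1 + t) ^ 2) - 2 * t - t ^ 2 ≤ (6 + 2 * L) * t ^ 2 := by
      intro t ht
      have h1 := lsi_pointwise t
      have h2 := hlog t ht
      have h3 : 2 * t ^ 2 * Real.log (1 + |t|) ≤ 2 * t ^ 2 * (1 + L) :=
        mul_le_mul_of_nonneg_left h2 (by positivity)
      have h4 : 4 * t ^ 2 + 2 * t ^ 2 * (1 + L) = (6 + 2 * L) * t ^ 2 := by ring
      linarith
    have hA := lsi_scaled hm0 hga
    have hB := lsi_scaled hm0 hkb
    have hvar : -(N * Real.log N) ≤ -(N * Real.log (m ^ 2)) - N + m ^ 2 := by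
      have h1 := Real.log_le_sub_one_of_pos (show 0 < m ^ 2 / N by positivity)
      rw [Real.log_div hm2.ne' hNpos.ne'] at h1
      have h2 := mul_le_mul_of_nonneg_left h1 hNpos.le
      have h3 : N * (m ^ 2 / N - 1) = m ^ 2 - N := by field_simp
      rw [h3] at h2
      linarith
    have hgp := mul_le_mul_of_nonneg_left (hpw g hg1) hp0.le
    have hkp := mul_le_mul_of_nonneg_left (hpw k hk1) hq0.le
    have hadd := mul_le_mul_of_nonneg_left (add_le_add hgp hkp) hm2.le
    -- rewrite N in terms of g, k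
    have hN2 : N = m ^ 2 * (1 + (p * g ^ 2 + (1 - p) * k ^ 2)) := by
      rw [hNV, hVg]; ring
    have hNlog : p * (a ^ 2 * Real.log (m ^ 2)) + (1 - p) * (b ^ 2 * Real.log (m ^ 2)) =
        N * Real.log (m ^ 2) := by rw [hN]; ring
    have hfin : m ^ 2 * (p * ((6 + 2 * L) * g ^ 2) + (1 - p) * ((6 + 2 * L) * k ^ 2)) =
        (6 + 2 * L) * V := by rw [hVg]; ring
    rw [hfin] at hadd
    have hexpand : m ^ 2 * (p * ((1 + g) ^ 2 * Real.log ((1 + g) ^ 2) - 2 * g - g ^ 2) +
        (1 - p) * ((1 + k) ^ 2 * Real.log ((1 + k) ^ 2) - 2 * k - k ^ 2)) =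
        p * (m ^ 2 * ((1 + g) ^ 2 * Real.log ((1 + g) ^ 2))) +
        (1 - p) * (m ^ 2 * ((1 + k) ^ 2 * Real.log ((1 + k) ^ 2))) -
        2 * m ^ 2 * (p * g + (1 - p) * k) - V := by
      rw [hVg]; ring
    rw [hexpand, hmean] at hadd
    rw [hA, hB]
    have hLV := mul_nonneg hV0 hL0
    have hexp2 : 20 * (1 + L) * V = 20 * V + 20 * (V * L) := by ring
    have hexp3 : (6 + 2 * L) * V = 6 * V + 2 * (V * L) := by ring
    have hexp4 : p * (a ^ 2 * Real.log (m ^ 2) + m ^ 2 * ((1 + g) ^ 2 * Real.log ((1 + g) ^ 2))) +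
        (1 - p) * (b ^ 2 * Real.log (m ^ 2) + m ^ 2 * ((1 + k) ^ 2 * Real.log ((1 + k) ^ 2))) =
        N * Real.log (m ^ 2) + (p * (m ^ 2 * ((1 + g) ^ 2 * Real.log ((1 + g) ^ 2))) +
        (1 - p) * (m ^ 2 * ((1 + k) ^ 2 * Real.log ((1 + k) ^ 2)))) := by
      rw [← hNlog]; ring
    rw [hexp4, hexp2]
    rw [hexp3] at hadd
    linarith

variable {ι : Type*} [Fintype ι] [DecidableEq ι]

/-- resampling one coordinate -/
lemma EE_split (p : ℝ) (j : ι) (F : (ι → Bool) → ℝ) :
    EE p F = p * EE p (fun x => F (Function.update x j true)) +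
      (1 - p) * EE p (fun x => F (Function.update x j false)) := by
  classical
  have hinv : Function.Involutive (fun x : ι → Bool => Function.update x j (!(x j))) := by
    intro x
    funext i
    by_cases h : i = j
    · subst h; simp
    · simp [Function.update_of_ne h]
  have hsum : ∀ G : (ι → Bool) → ℝ,
      2 * ∑ x, G x = ∑ x, (G x + G (Function.update x j (!(x j)))) := by
    intro G
    rw [Finset.sum_add_distrib]
    have := Equiv.sum_comp hinv.toPerm G
    have h2 : ∑ x, G (Function.update x j (!(x j))) = ∑ x, G x := by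
      rw [← this]; rfl
    rw [h2]; ring
  have hprod : ∀ (x : ι → Bool) (b : Bool),
      ∏ i, wt p (Function.update x j b i) = wt p b * ∏ i ∈ univ.erase j, wt p (x i) := by
    intro x b
    rw [← Finset.mul_prod_erase univ _ (Finset.mem_univ j)]
    congr 1
    · simp
    · refine Finset.prod_congr rfl (fun i hi => ?_)
      rw [Function.update_of_ne (Finset.ne_of_mem_erase hi)]
  have hself : ∀ x : ι → Bool,
      ∏ i, wt p (x i) = wt p (x j) * ∏ i ∈ univ.erase j, wt p (x i) := fun x => by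
    rw [← Finset.mul_prod_erase univ _ (Finset.mem_univ j)]
  have key : 2 * EE p F = 2 * (p * EE p (fun x => F (Function.update x j true)) +
      (1 - p) * EE p (fun x => F (Function.update x j false))) := by
    have e1 : p * EE p (fun x => F (Function.update x j true)) +
      (1 - p) * EE p (fun x => F (Function.update x j false)) =
        ∑ x : ι → Bool, (∏ i, wt p (x i)) * (p * F (Function.update x j true) +
          (1 - p) * F (Function.update x j false)) := by
      unfold EE
      rw [Finset.mul_sum, Finset.mul_sum, ← Finset.sum_add_distrib]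
      exact Finset.sum_congr rfl (fun x _ => by ring)
    rw [e1]
    unfold EE
    rw [hsum, hsum]
    refine Finset.sum_congr rfl (fun x _ => ?_)
    rw [hprod x, hself x]
    simp only [Function.update_idem]
    cases hx : x j
    · have h1 : Function.update x j false = x := by
        rw [← hx]; exact Function.update_eq_self j x
      simp only [Bool.not_false, wt, if_true, h1, Bool.false_eq_true, if_false]
      ring
    · have h1 : Function.update x j true = x := by
        rw [← hx]; exact Function.update_eq_self j x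
      simp only [Bool.not_true, wt, if_true, h1, Bool.false_eq_true, if_false]
      ring
  linarith

lemma EE_cauchy {p : ℝ} (hp0 : 0 ≤ p) (hp1 : p ≤ 1) (F G : (ι → Bool) → ℝ) :
    EE p (fun x => F x * G x) ≤
      Real.sqrt (EE p (fun x => F x ^ 2)) * Real.sqrt (EE p (fun x => G x ^ 2)) := by
  have h := Real.sum_mul_le_sqrt_mul_sqrt (univ : Finset (ι → Bool))
    (fun x => Real.sqrt (∏ i, wt p (x i)) * F x) (fun x => Real.sqrt (∏ i, wt p (x i)) * G x)
  have hw : ∀ x : ι → Bool, Real.sqrt (∏ i, wt p (x i)) * Real.sqrt (∏ i, wt p (x i)) =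
      ∏ i, wt p (x i) := fun x =>
    Real.mul_self_sqrt (Finset.prod_nonneg (fun i _ => wt_nonneg hp0 hp1 _))
  have e1 : ∀ x : ι → Bool, (Real.sqrt (∏ i, wt p (x i)) * F x) *
      (Real.sqrt (∏ i, wt p (x i)) * G x) = (∏ i, wt p (x i)) * (F x * G x) := by
    intro x
    rw [mul_mul_mul_comm, hw x]
  have e2 : ∀ (H : (ι → Bool) → ℝ) (x : ι → Bool), (Real.sqrt (∏ i, wt p (x i)) * H x) ^ 2 =
      (∏ i, wt p (x i)) * (H x ^ 2) := by
    intro H x
    rw [mul_pow, sq (Real.sqrt _), hw x]
  simp only [e1, e2] at h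
  exact h

lemma sqrt_sub_sq_le {p : ℝ} (hp0 : 0 ≤ p) (hp1 : p ≤ 1) (F G : (ι → Bool) → ℝ) :
    (Real.sqrt (EE p (fun x => F x ^ 2)) - Real.sqrt (EE p (fun x => G x ^ 2))) ^ 2 ≤
      EE p (fun x => (F x - G x) ^ 2) := by
  have hF : 0 ≤ EE p (fun x => F x ^ 2) := EE_nonneg hp0 hp1 (fun x => sq_nonneg _)
  have hG : 0 ≤ EE p (fun x => G x ^ 2) := EE_nonneg hp0 hp1 (fun x => sq_nonneg _)
  have h1 := EE_cauchy hp0 hp1 F G
  have h2 : EE p (fun x => (F x - G x) ^ 2) = EE p (fun x => F x ^ 2) -
      2 * EE p (fun x => F x * G x) + EE p (fun x => G x ^ 2) := by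
    rw [← EE_mul_left, ← EE_sub, ← EE_add]
    exact EE_congr p (fun x => by ring)
  rw [h2, sub_sq, Real.sq_sqrt hF, Real.sq_sqrt hG]
  linarith

lemma lsi_aux {p : ℝ} (hp0 : 0 < p) (hp1 : p < 1) (s : Finset ι) :
    ∀ F : (ι → Bool) → ℝ, (∀ x y : ι → Bool, (∀ i ∈ s, x i = y i) → F x = F y) →
    EE p (fun x => (F x) ^ 2 * Real.log ((F x) ^ 2)) -
      EE p (fun x => (F x) ^ 2) * Real.log (EE p (fun x => (F x) ^ 2)) ≤
      cc p * ∑ i ∈ s, p * (1 - p) *
        EE p (fun x => (F (Function.update x i true) - F (Function.update x i false)) ^ 2) := by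
  induction s using Finset.induction_on with
  | empty =>
    intro F hF
    have hc : ∀ x, F x = F (fun _ => false) := fun x => hF x _ (by simp)
    simp only [Finset.sum_empty, mul_zero]
    have h1 : EE p (fun x => (F x) ^ 2 * Real.log ((F x) ^ 2)) =
        (F (fun _ => false)) ^ 2 * Real.log ((F (fun _ => false)) ^ 2) := by
      rw [← EE_const (ι := ι) p ((F (fun _ => false)) ^ 2 * Real.log ((F (fun _ => false)) ^ 2))]
      exact EE_congr p (fun x => by rw [hc x])
    have h2 : EE p (fun x => (F x) ^ 2) = (F (fun _ => false)) ^ 2 := by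
      rw [← EE_const (ι := ι) p ((F (fun _ => false)) ^ 2)]
      exact EE_congr p (fun x => by rw [hc x])
    rw [h1, h2]
    simp
  | insert j s hj ih =>
    intro F hF
    have hdep : ∀ b : Bool, ∀ x y : ι → Bool, (∀ i ∈ s, x i = y i) →
        F (Function.update x j b) = F (Function.update y j b) := by
      intro b x y hxy
      apply hF
      intro i hi
      rcases Finset.mem_insert.mp hi with h | h
      · subst h; simp
      · have hne : i ≠ j := fun h' => hj (h' ▸ h)
        rw [Function.update_of_ne hne, Function.update_of_ne hne]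
        exact hxy i h
    have ih1 := ih (fun x => F (Function.update x j true)) (hdep true)
    have ih0 := ih (fun x => F (Function.update x j false)) (hdep false)
    rw [Finset.sum_insert hj]
    -- split the three expectations
    have s1 := EE_split p j (fun x => (F x) ^ 2 * Real.log ((F x) ^ 2))
    have s2 := EE_split p j (fun x => (F x) ^ 2)
    have s3 : ∑ i ∈ s, p * (1 - p) *
        EE p (fun x => (F (Function.update x i true) - F (Function.update x i false)) ^ 2) =
        p * (∑ i ∈ s, p * (1 - p) * EE p (fun x =>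
          (F (Function.update (Function.update x i true) j true) -
            F (Function.update (Function.update x i false) j true)) ^ 2)) +
        (1 - p) * (∑ i ∈ s, p * (1 - p) * EE p (fun x =>
          (F (Function.update (Function.update x i true) j false) -
            F (Function.update (Function.update x i false) j false)) ^ 2)) := by
      rw [Finset.mul_sum, Finset.mul_sum, ← Finset.sum_add_distrib]
      refine Finset.sum_congr rfl (fun i hi => ?_)
      have hne : i ≠ j := fun h' => hj (h' ▸ hi)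
      rw [EE_split p j (fun x =>
        (F (Function.update x i true) - F (Function.update x i false)) ^ 2)]
      simp only [Function.update_comm hne]
      ring
    have hA0 : 0 ≤ EE p (fun x => (F (Function.update x j true)) ^ 2) :=
      EE_nonneg hp0.le hp1.le (fun x => sq_nonneg _)
    have hB0 : 0 ≤ EE p (fun x => (F (Function.update x j false)) ^ 2) :=
      EE_nonneg hp0.le hp1.le (fun x => sq_nonneg _)
    have h2 := lsi_two_point hp0 hp1 (Real.sqrt (EE p (fun x => (F (Function.update x j true)) ^ 2)))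
      (Real.sqrt (EE p (fun x => (F (Function.update x j false)) ^ 2)))
    rw [Real.sq_sqrt hA0, Real.sq_sqrt hB0] at h2
    have h3 := sqrt_sub_sq_le hp0.le hp1.le (fun x => F (Function.update x j true))
      (fun x => F (Function.update x j false))
    have hccpos : 0 ≤ cc p := by
      unfold cc
      have hmin : 0 < min p (1 - p) := lt_min hp0 (by linarith)
      have hmin1 : min p (1 - p) ≤ 1 := le_trans (min_le_left _ _) hp1.le
      have : 0 ≤ Real.log (1 / min p (1 - p)) := by
        apply Real.log_nonneg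
        rw [le_div_iff₀ hmin]; linarith
      linarith
    have hpq : 0 ≤ p * (1 - p) := by nlinarith
    have h4 := mul_le_mul_of_nonneg_left (mul_le_mul_of_nonneg_left h3 hpq) hccpos
    have i1 := mul_le_mul_of_nonneg_left ih1 hp0.le
    have i0 := mul_le_mul_of_nonneg_left ih0 (by linarith : (0 : ℝ) ≤ 1 - p)
    rw [s1, s2, s3]
    linarith

theorem lsi {p : ℝ} (hp0 : 0 < p) (hp1 : p < 1) (F : (ι → Bool) → ℝ) :
    EE p (fun x => (F x) ^ 2 * Real.log ((F x) ^ 2)) -
      EE p (fun x => (F x) ^ 2) * Real.log (EE p (fun x => (F x) ^ 2)) ≤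
      cc p * ∑ i, p * (1 - p) *
        EE p (fun x => (F (Function.update x i true) - F (Function.update x i false)) ^ 2) := by
  apply lsi_aux hp0 hp1 univ F
  intro x y h
  have : x = y := funext (fun i => h i (Finset.mem_univ i))
  rw [this]

end Vale.Agent.P063
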