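import Vale.Agent.P063.KKL
import Vale.Agent.P063.Comb
import Vale.Agent.P063.Graph
import Vale.Agent.P063.Influence

/-!
The lower bound for the averaged entropy coming from the symmetry under vertex permutations.
-/

namespace Vale.Agent.P063

open Finset

set_option linter.unusedSectionVars false

variable {n r : ℕ} {p : ℝ}

lemma edgeMap_symm (σ : Equiv.Perm (Fin n)) (e : Edge n r) :
    edgeMap σ.symm (edgeMap σ e) = e := by
  apply Subtype.ext
  unfold edgeMap
  simp only [Finset.map_map]
  ext a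
  simp

/-- the action of a vertex permutation on the edges as a permutation -/
def edgePerm (σ : Equiv.Perm (Fin n)) : Equiv.Perm (Edge n r) where
  toFun := edgeMap σ
  invFun := edgeMap σ.symm
  left_inv := edgeMap_symm σ
  right_inv := fun e => by
    have := edgeMap_symm (r := r) σ.symm e
    rw [Equiv.symm_symm] at this
    exact this

lemma relabel_eq (σ : Equiv.Perm (Fin n)) (x : HG n r) : relabel σ x = x ∘ (edgePerm σ) := rfl

lemma transInv_of_invariant (f : HG n r → ℝ)
    (hf : ∀ (σ : Equiv.Perm (Fin n)) (x : HG n r), f (relabel σ x) = f x) : TransInv f := by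
  intro e e'
  obtain ⟨σ, hσ⟩ := exists_perm_map_eq e.1 e'.1 (by rw [e.2, e'.2])
  refine ⟨edgePerm σ, ?_, fun x => ?_⟩
  · apply Subtype.ext
    exact hσ
  · rw [← relabel_eq]; exact hf σ x

lemma Pbar_invariant (f : HG n r → ℝ)
    (hf : ∀ (σ : Equiv.Perm (Fin n)) (x : HG n r), f (relabel σ x) = f x) (ρ : ℝ)
    (σ : Equiv.Perm (Fin n)) (J : Finset (Edge n r)) :
    Pbar ρ (fun S => (fc p f S) ^ 2) (J.image (edgeMap σ))
      = Pbar ρ (fun S => (fc p f S) ^ 2) J := by
  unfold Pbar
  refine (Fintype.sum_equiv (Equiv.finsetCongr (edgePerm σ)) _ _ (fun S => ?_)).symm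
  have h1 : (Equiv.finsetCongr (edgePerm (r := r) σ)) S = S.image (edgePerm σ) := by
    rw [Equiv.finsetCongr_apply, Finset.map_eq_image]; rfl
  rw [h1]
  have h2 : J.image (edgeMap σ) = J.image (edgePerm σ) := rfl
  have h5 := fc_perm (p := p) (edgePerm σ) f (fun x => by rw [← relabel_eq]; exact hf σ x) S
  rw [h2]
  have h3 : (J.image (edgePerm (r := r) σ) ⊆ S.image (edgePerm σ)) ↔ J ⊆ S :=
    Finset.image_subset_image_iff (edgePerm σ).injective
  have h4 : bb ρ (S.image (edgePerm (r := r) σ)) (J.image (edgePerm σ)) = bb ρ S J := by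
    unfold bb
    rw [Finset.card_image_of_injective _ (edgePerm σ).injective,
      Finset.card_image_of_injective _ (edgePerm σ).injective]
  rw [h4]
  simp only [h3, h5]

lemma sum_Pbar {ι : Type*} [Fintype ι] [DecidableEq ι] (ρ : ℝ) (u : Finset ι → ℝ)
    (w : Finset ι → ℝ) :
    ∑ J : Finset ι, w J * Pbar ρ u J = ∑ S : Finset ι, u S * ∑ J ∈ S.powerset, bb ρ S J * w J := by
  unfold Pbar
  simp_rw [Finset.mul_sum]
  rw [Finset.sum_comm]
  refine Finset.sum_congr rfl (fun S _ => ?_)
  have e0 : ∀ J : Finset ι, w J * (if J ⊆ S then u S * bb ρ S J else 0)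
      = if J ∈ S.powerset then u S * (bb ρ S J * w J) else 0 := by
    intro J
    by_cases hJ : J ⊆ S
    · rw [if_pos hJ, if_pos (Finset.mem_powerset.mpr hJ)]; ring
    · rw [if_neg hJ, if_neg (fun h => hJ (Finset.mem_powerset.mp h)), mul_zero]
  simp_rw [e0]
  rw [Finset.sum_ite_mem, Finset.univ_inter]

lemma sum_bb {ι : Type*} [DecidableEq ι] (ρ : ℝ) (S : Finset ι) :
    ∑ J ∈ S.powerset, bb ρ S J = 1 := by
  have := binom_C2 S ρ 1
  simp only [one_pow, mul_one, sub_add_cancel] at this
  exact this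

lemma log_choose_ge {n v : ℕ} (hv : 2 * (v : ℝ) ≤ Real.sqrt n) :
    (v : ℝ) * (Real.log n / 2) ≤ Real.log (n.choose v) := by
  rcases Nat.eq_zero_or_pos v with h0 | h0
  · subst h0; simp
  · have hv1 : (1 : ℝ) ≤ v := by exact_mod_cast h0
    have hs : 2 ≤ Real.sqrt n := by linarith
    have hn0 : (0 : ℝ) ≤ n := Nat.cast_nonneg n
    have hsq : Real.sqrt n * Real.sqrt n = n := Real.mul_self_sqrt hn0
    have hn4 : (4 : ℝ) ≤ n := by nlinarith
    have hvn : (v : ℝ) ≤ n / 2 := by nlinarith
    have hvn' : v ≤ n := by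
      have : (v : ℝ) ≤ n := by linarith
      exact_mod_cast this
    have h1 : ((n + 1 - v : ℕ) : ℝ) ^ v ≤ (v : ℝ) ^ v * (n.choose v : ℝ) := by
      have h2 : (n + 1 - v) ^ v ≤ n.descFactorial v := Nat.pow_sub_le_descFactorial n v
      have h3 : n.descFactorial v = v.factorial * n.choose v := Nat.descFactorial_eq_factorial_mul_choose n v
      have h4 : v.factorial ≤ v ^ v := Nat.factorial_le_pow v
      have h5 : (n + 1 - v) ^ v ≤ v ^ v * n.choose v := by
        rw [h3] at h2
        exact h2.trans (Nat.mul_le_mul_right _ h4)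
      exact_mod_cast h5
    have h6 : (v : ℝ) * Real.sqrt n ≤ ((n + 1 - v : ℕ) : ℝ) := by
      rw [Nat.cast_sub (by omega)]
      push_cast
      nlinarith
    have h7 : (v : ℝ) ^ v * (Real.sqrt n) ^ v ≤ (v : ℝ) ^ v * (n.choose v : ℝ) := by
      rw [← mul_pow]
      exact (pow_le_pow_left₀ (by positivity) h6 v).trans h1
    have h8 : (Real.sqrt n) ^ v ≤ (n.choose v : ℝ) :=
      le_of_mul_le_mul_left h7 (by positivity)
    have h9 := Real.log_le_log (by positivity) h8
    rw [Real.log_pow, Real.log_sqrt hn0] at h9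
    exact h9

/-- Lower bound for the left-hand side of the master inequality. -/
lemma lower_bound (hr : 2 ≤ r) (hp0 : 0 < p) (hp1 : p < 1) (f : HG n r → ℝ)
    (hf : ∀ x, f x = 1 ∨ f x = -1)
    (hinv : ∀ (σ : Equiv.Perm (Fin n)) (x : HG n r), f (relabel σ x) = f x)
    {ρ t : ℝ} (h0 : 0 < ρ) (h1 : ρ < 1) (ht0 : 0 < t) (ht1 : t ≤ 1)
    (hK : ∀ s : ℕ, (s : ℝ) ^ (r - 1) * ρ ^ r ≤ 1 → 2 * ((r : ℝ) * s) ≤ Real.sqrt n) :
    (Real.log n / 2) * (∑ S : Finset (Edge n r),
        (if (S.card : ℝ) ^ (r - 1) * ρ ^ r ≤ 1 then (fc p f S) ^ 2 else 0)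
          * (ρ * t * S.card / 4 * (1 - ρ + ρ * t) ^ S.card))
      ≤ ∑ J : Finset (Edge n r), t ^ J.card * phi (Pbar ρ (fun S => (fc p f S) ^ 2) J) := by
  set q : Finset (Edge n r) → ℝ := fun S => (fc p f S) ^ 2 with hq
  have hq0 : ∀ S, 0 ≤ q S := fun S => sq_nonneg _
  have hqsum : ∑ S, q S = 1 := by
    rw [hq, parseval hp0 hp1]
    have : ∀ x, f x ^ 2 = 1 := fun x => by rcases hf x with h | h <;> rw [h] <;> norm_num
    rw [EE_congr p this, EE_const]
  have hP0 : ∀ J, 0 ≤ Pbar ρ q J := by
    intro J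
    unfold Pbar
    refine Finset.sum_nonneg (fun S _ => ?_)
    split_ifs
    · exact mul_nonneg (hq0 S) (bb_pos h0 h1 S J).le
    · exact le_refl _
  have hPsum : ∑ J, Pbar ρ q J ≤ 1 := by
    have := sum_Pbar ρ q (fun _ => 1)
    simp only [one_mul, mul_one] at this
    rw [this]
    simp_rw [sum_bb, mul_one]
    exact hqsum.le
  have horb := fun J => orbit_bound (Pbar ρ q) hP0 hPsum
    (fun σ J => Pbar_invariant f hinv ρ σ J) J
  have hP1 : ∀ J, Pbar ρ q J ≤ 1 := fun J =>
    (Finset.single_le_sum (fun J _ => hP0 J) (Finset.mem_univ J)).trans hPsum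
  have hlogn : 0 ≤ Real.log n := Real.log_natCast_nonneg n
  -- pointwise bound
  set v : Finset (Edge n r) → ℝ := fun J => ((verts J).card : ℝ) with hv
  have hv0 : ∀ J, 0 ≤ v J := fun J => Nat.cast_nonneg _
  have hpt : ∀ J, (if 2 * v J ≤ Real.sqrt n then v J else 0) * (Real.log n / 2) * Pbar ρ q J
      ≤ phi (Pbar ρ q J) := by
    intro J
    have hphi : 0 ≤ phi (Pbar ρ q J) := Real.negMulLog_nonneg (hP0 J) (hP1 J)
    split_ifs with hJ
    · rcases (hP0 J).eq_or_lt with h | h
      · rw [← h]; simp [phi, Real.negMulLog]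
      · have hch : (0 : ℝ) < (n.choose (verts J).card : ℝ) := by
          have : (verts J).card ≤ n := by
            have := Finset.card_le_univ (verts J)
            simpa using this
          exact_mod_cast Nat.choose_pos this
        have h2 : Real.log (n.choose (verts J).card : ℝ) ≤ - Real.log (Pbar ρ q J) := by
          have h3 := Real.log_le_log (mul_pos h hch) (horb J)
          rw [Real.log_one, Real.log_mul (ne_of_gt h) (ne_of_gt hch)] at h3
          linarith
        have h3 := log_choose_ge hJ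
        have h4 : v J * (Real.log n / 2) ≤ - Real.log (Pbar ρ q J) := h3.trans h2
        have h5 := mul_le_mul_of_nonneg_right h4 (hP0 J)
        unfold phi Real.negMulLog
        linarith
    · simpa using hphi
  -- sum up
  have s1 : ∑ J : Finset (Edge n r), (t ^ J.card * ((if 2 * v J ≤ Real.sqrt n then v J else 0)
        * (Real.log n / 2))) * Pbar ρ q J
      ≤ ∑ J : Finset (Edge n r), t ^ J.card * phi (Pbar ρ q J) := by
    refine Finset.sum_le_sum (fun J _ => ?_)
    have := mul_le_mul_of_nonneg_left (hpt J) (pow_nonneg ht0.le J.card)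
    linarith
  refine le_trans ?_ s1
  rw [sum_Pbar, Finset.mul_sum]
  refine Finset.sum_le_sum (fun S _ => ?_)
  split_ifs with hS
  · have hd := degree_lemma hr S h0 h1.le ht0 ht1 hS
    have e1 : ∑ J ∈ S.powerset, bb ρ S J * (t ^ J.card *
        ((if 2 * v J ≤ Real.sqrt n then v J else 0) * (Real.log n / 2)))
        = (Real.log n / 2) * ∑ J ∈ S.powerset,
          ρ ^ J.card * (1 - ρ) ^ (S.card - J.card) * t ^ J.card * ((verts J).card : ℝ) := by
      rw [Finset.mul_sum]
      refine Finset.sum_congr rfl (fun J hJ => ?_)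
      have hJS : J.card ≤ S.card := Finset.card_le_card (Finset.mem_powerset.mp hJ)
      have h2 : 2 * v J ≤ Real.sqrt n := by
        refine le_trans ?_ (hK S.card hS)
        have h3 : (verts J).card ≤ r * J.card := by
          unfold verts
          refine Finset.card_biUnion_le.trans ?_
          rw [Finset.sum_congr rfl (fun e _ => e.2), Finset.sum_const, smul_eq_mul, mul_comm]
        have h4 : v J ≤ (r : ℝ) * S.card := by
          have : (verts J).card ≤ r * S.card := h3.trans (Nat.mul_le_mul_left r hJS)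
          simp only [hv]; exact_mod_cast this
        linarith
      rw [if_pos h2, hv]
      unfold bb
      ring
    rw [e1]
    have := mul_le_mul_of_nonneg_left hd (mul_nonneg (hq0 S) (by positivity : 0 ≤ Real.log n / 2))
    have e2 : q S = (fc p f S) ^ 2 := rfl
    rw [← e2]
    linarith
  · rw [zero_mul, mul_zero]
    refine mul_nonneg (hq0 S) (Finset.sum_nonneg (fun J _ => ?_))
    refine mul_nonneg (bb_pos h0 h1 S J).le (mul_nonneg (pow_nonneg ht0.le _) ?_)
    refine mul_nonneg ?_ (by positivity)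
    split_ifs
    · exact hv0 J
    · exact le_refl _

end Vale.Agent.P063
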