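import Vale.Agent.P063.Basic
import Vale.Agent.P063.LSI

/-!
Noise operator is an `L¹` contraction; log-Sobolev inequality applied to smoothed derivatives of
Boolean functions.
-/

namespace Vale.Agent.P063

open Finset

set_option linter.unusedSectionVars false

variable {ι : Type*} [Fintype ι] [DecidableEq ι] {p : ℝ}

lemma abs_EE_le (hp0 : 0 < p) (hp1 : p < 1) (F : (ι → Bool) → ℝ) :
    |EE p F| ≤ EE p (fun x => |F x|) := by
  unfold EE
  refine (Finset.abs_sum_le_sum_abs _ _).trans (Finset.sum_le_sum (fun x _ => ?_))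
  rw [abs_mul, abs_of_nonneg (Finset.prod_nonneg (fun i _ => wt_nonneg hp0.le hp1.le _))]

lemma noise_kernel (hp0 : 0 < p) (hp1 : p < 1) (s : ℝ) (a : Finset ι → ℝ) (x : ι → Bool) :
    syn p (fun S => s ^ S.card * a S) x
      = EE p (fun y => syn p a y * ∏ i, (1 + s * (ph p (y i) * ph p (x i)))) := by
  have h1 : ∀ y : ι → Bool, syn p a y * ∏ i, (1 + s * (ph p (y i) * ph p (x i)))
      = ∑ S : Finset ι, (syn p a y * chi p S y) * (s ^ S.card * chi p S x) := by
    intro y
    rw [← sum_chi_mul_chi, Finset.mul_sum]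
    exact Finset.sum_congr rfl (fun S _ => by ring)
  rw [EE_congr p h1, EE_sum]
  unfold syn
  refine Finset.sum_congr rfl (fun S _ => ?_)
  rw [EE_mul_right]
  have h2 := fc_syn hp0 hp1 a S
  unfold fc syn at h2
  rw [h2]
  ring

lemma kernel_mean (hp0 : 0 < p) (hp1 : p < 1) (s : ℝ) (y : ι → Bool) :
    EE p (fun x => ∏ i, (1 + s * (ph p (y i) * ph p (x i)))) = 1 := by
  rw [EE_prod p (fun i b => 1 + s * (ph p (y i) * ph p b))]
  refine Finset.prod_eq_one (fun i _ => ?_)
  have := ph_mean hp0 hp1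
  linear_combination (s * ph p (y i)) * this

lemma noise_L1 (hp0 : 0 < p) (hp1 : p < 1) {s : ℝ} (hs0 : 0 ≤ s) (hs1 : s ≤ 1)
    (a : Finset ι → ℝ) :
    EE p (fun x => |syn p (fun S => s ^ S.card * a S) x|) ≤ EE p (fun x => |syn p a x|) := by
  calc EE p (fun x => |syn p (fun S => s ^ S.card * a S) x|)
      ≤ EE p (fun x => EE p (fun y => |syn p a y| * ∏ i, (1 + s * (ph p (y i) * ph p (x i))))) := by
        refine EE_mono hp0.le hp1.le (fun x => ?_)
        rw [noise_kernel hp0 hp1]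
        refine (abs_EE_le hp0 hp1 _).trans (le_of_eq ?_)
        refine EE_congr p (fun y => ?_)
        rw [abs_mul, abs_of_nonneg (a := ∏ i, (1 + s * (ph p (y i) * ph p (x i))))
          (Finset.prod_nonneg (fun i _ => one_add_s_ph_nonneg hp0 hp1 hs0 hs1 _ _))]
    _ = EE p (fun y => EE p (fun x => |syn p a y| * ∏ i, (1 + s * (ph p (y i) * ph p (x i))))) :=
        EE_comm p _
    _ = EE p (fun x => |syn p a x|) := by
        refine EE_congr p (fun y => ?_)
        rw [EE_mul_left, kernel_mean hp0 hp1, mul_one]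

/-- log-Sobolev inequality in terms of coefficients -/
lemma lsi_syn (hp0 : 0 < p) (hp1 : p < 1) (a : Finset ι → ℝ) :
    phi (∑ S : Finset ι, a S ^ 2) ≤ cc p * ∑ S : Finset ι, (S.card : ℝ) * a S ^ 2
      + EE p (fun x => phi (syn p a x ^ 2)) := by
  have h1 := lsi hp0 hp1 (syn p a)
  rw [← influence_formula hp0 hp1, parseval_syn hp0 hp1] at h1
  simp_rw [fc_syn hp0 hp1] at h1
  have h2 : EE p (fun x => phi (syn p a x ^ 2))
      = - EE p (fun x => syn p a x ^ 2 * Real.log (syn p a x ^ 2)) := by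
    rw [← neg_one_mul, ← EE_mul_left]
    refine EE_congr p (fun x => ?_)
    unfold phi Real.negMulLog
    ring
  rw [h2]
  unfold phi Real.negMulLog
  linarith

/-- elementary inequality `a² log (1/a²) ≤ 2 a² log (1/λ) + 2 λ |a|` -/
lemma phi_sq_le {a l : ℝ} (hl0 : 0 < l) :
    phi (a ^ 2) ≤ 2 * Real.log (1 / l) * a ^ 2 + 2 * l * |a| := by
  unfold phi Real.negMulLog
  by_cases ha : a = 0
  · subst ha; simp
  · have hpos : 0 < |a| := abs_pos.mpr ha
    have h1 : Real.log (a ^ 2) = 2 * Real.log |a| := by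
      rw [← sq_abs, Real.log_pow]; norm_num
    rw [h1]
    have h2 : Real.log (1 / l) = - Real.log l := by rw [one_div, Real.log_inv]
    rw [h2]
    have h3 : Real.log (l / |a|) ≤ l / |a| := (Real.log_le_sub_one_of_pos (div_pos hl0 hpos)).trans
      (by linarith)
    rw [Real.log_div (ne_of_gt hl0) (ne_of_gt hpos)] at h3
    have h4 : a ^ 2 * (Real.log l - Real.log |a|) ≤ a ^ 2 * (l / |a|) :=
      mul_le_mul_of_nonneg_left h3 (sq_nonneg a)
    have h5 : a ^ 2 * (l / |a|) = l * |a| := by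
      rw [← sq_abs]; field_simp
    nlinarith

/-- the `L¹` norm of the derivative of a `±1`-valued function -/
lemma deriv_L1 (hp0 : 0 < p) (hp1 : p < 1) (g : (ι → Bool) → ℝ)
    (hg : ∀ x, g x = 1 ∨ g x = -1) (i : ι) :
    EE p (fun x => |syn p (der i (fc p g)) x|)
      = (∑ S : Finset ι, if i ∈ S then (fc p g S) ^ 2 else 0) / (2 * Real.sqrt (p * (1 - p))) := by
  have h0 := sqrt_pq_pos hp0 hp1
  have h1 : ∀ x : ι → Bool, |syn p (der i (fc p g)) x|
      = syn p (der i (fc p g)) x ^ 2 * (1 / (2 * Real.sqrt (p * (1 - p)))) := by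
    intro x
    rw [← diff_syn hp0 hp1, ← inversion_syn hp0 hp1, abs_mul, abs_of_pos h0]
    rcases hg (Function.update x i true) with h | h <;>
    rcases hg (Function.update x i false) with h' | h' <;> rw [h, h']
    · simp
    · have : |(1:ℝ) - -1| = 2 := by norm_num
      rw [this]
      have : (1 - -1 : ℝ) = 2 := by norm_num
      rw [this]
      field_simp
    · have : |(-1:ℝ) - 1| = 2 := by norm_num
      rw [this]
      have : (-1 - 1 : ℝ) = -2 := by norm_num
      rw [this]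
      field_simp
    · simp
  rw [EE_congr p h1, EE_mul_right, parseval_syn hp0 hp1]
  have := sum_der_sq i (fc p g) (fun _ => 1)
  simp only [one_mul] at this
  rw [this]
  ring

lemma deriv_lemma (hp0 : 0 < p) (hp1 : p < 1) (g : (ι → Bool) → ℝ)
    (hg : ∀ x, g x = 1 ∨ g x = -1) (i : ι) {s l : ℝ} (hs0 : 0 ≤ s) (hs1 : s ≤ 1) (hl0 : 0 < l) :
    phi (∑ S : Finset ι, if i ∈ S then (s ^ 2) ^ S.card * (fc p g S) ^ 2 else 0)
      ≤ cc p * (∑ S : Finset ι,
          if i ∈ S then ((S.card : ℝ) - 1) * (s ^ 2) ^ S.card * (fc p g S) ^ 2 else 0)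
        + 2 * Real.log (1 / l) *
          (∑ S : Finset ι, if i ∈ S then (s ^ 2) ^ S.card * (fc p g S) ^ 2 else 0)
        + 2 * l * ((∑ S : Finset ι, if i ∈ S then (fc p g S) ^ 2 else 0)
          / (2 * Real.sqrt (p * (1 - p)))) := by
  set a : Finset ι → ℝ := fun T => s ^ T.card * (s * der i (fc p g) T) with ha
  have h1 := lsi_syn hp0 hp1 a
  have h2 : ∑ S : Finset ι, a S ^ 2
      = ∑ S : Finset ι, if i ∈ S then (s ^ 2) ^ S.card * (fc p g S) ^ 2 else 0 := by
    rw [← sum_der_sq i (fc p g) (fun n => (s ^ 2) ^ n)]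
    refine Finset.sum_congr rfl (fun S _ => ?_)
    rw [ha]; simp only; ring
  have h3 : ∑ S : Finset ι, (S.card : ℝ) * a S ^ 2
      = ∑ S : Finset ι,
          if i ∈ S then ((S.card : ℝ) - 1) * (s ^ 2) ^ S.card * (fc p g S) ^ 2 else 0 := by
    rw [← sum_der_sq i (fc p g) (fun n => ((n : ℝ) - 1) * (s ^ 2) ^ n)]
    refine Finset.sum_congr rfl (fun S _ => ?_)
    rw [ha]; simp only; push_cast; ring
  rw [h2, h3] at h1
  have h4 : EE p (fun x => phi (syn p a x ^ 2))
      ≤ EE p (fun x => 2 * Real.log (1 / l) * syn p a x ^ 2 + 2 * l * |syn p a x|) :=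
    EE_mono hp0.le hp1.le (fun x => phi_sq_le hl0)
  rw [EE_add, EE_mul_left, EE_mul_left, parseval_syn hp0 hp1, h2] at h4
  have h5 : EE p (fun x => |syn p a x|) ≤
      (∑ S : Finset ι, if i ∈ S then (fc p g S) ^ 2 else 0) / (2 * Real.sqrt (p * (1 - p))) := by
    refine (noise_L1 hp0 hp1 hs0 hs1 _).trans ?_
    rw [← deriv_L1 hp0 hp1 g hg i]
    refine EE_mono hp0.le hp1.le (fun x => ?_)
    have : syn p (fun T => s * der i (fc p g) T) x = s * syn p (der i (fc p g)) x := by
      unfold syn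
      rw [Finset.mul_sum]
      exact Finset.sum_congr rfl (fun S _ => by ring)
    rw [this, abs_mul, abs_of_nonneg hs0]
    exact mul_le_of_le_one_left (abs_nonneg _) hs1
  have h6 : 2 * l * EE p (fun x => |syn p a x|) ≤ 2 * l *
      ((∑ S : Finset ι, if i ∈ S then (fc p g S) ^ 2 else 0) / (2 * Real.sqrt (p * (1 - p)))) :=
    mul_le_mul_of_nonneg_left h5 (by positivity)
  linarith

end Vale.Agent.P063
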