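import Vale.Agent.P063.Subadd

/-!
Restrictions: the log-Sobolev inequality applied to the Fourier coefficients of restricted
functions.
-/

namespace Vale.Agent.P063

open Finset

set_option linter.unusedSectionVars false

variable {ι : Type*} [Fintype ι] [DecidableEq ι] {p : ℝ}

/-- use `y` on `R` and `z` outside `R` -/
def mix (R : Finset ι) (y z : ι → Bool) : ι → Bool := fun i => if i ∈ R then y i else z i

/-- probability that `S ∩ R = J` when `S` is distributed according to `u` -/
noncomputable def PR (u : Finset ι → ℝ) (R J : Finset ι) : ℝ :=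
  ∑ S : Finset ι, if S ∩ R = J then u S else 0

lemma chi_mix (p : ℝ) (R S : Finset ι) (y z : ι → Bool) :
    chi p S (mix R y z) = chi p (S ∩ R) y * chi p (S \ R) z := by
  unfold chi mix
  rw [← Finset.prod_inter_mul_prod_sdiff S R]
  congr 1
  · exact Finset.prod_congr rfl (fun i hi => by rw [if_pos (Finset.mem_inter.mp hi).2])
  · exact Finset.prod_congr rfl (fun i hi => by rw [if_neg (Finset.mem_sdiff.mp hi).2])

lemma reindex (R J : Finset ι) (h : Finset ι → Finset ι → ℝ) :
    ∑ S : Finset ι, (if S ∩ R = J then h S (S \ R) else 0)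
      = ∑ T : Finset ι, (if J ⊆ R ∧ Disjoint T R then h (J ∪ T) T else 0) := by
  rw [← Finset.sum_filter, ← Finset.sum_filter]
  refine Finset.sum_bij' (fun S _ => S \ R) (fun T _ => J ∪ T) ?_ ?_ ?_ ?_ ?_
  · intro S hS
    have hS' : S ∩ R = J := by simpa using hS
    simp only [Finset.mem_filter, Finset.mem_univ, true_and]
    exact ⟨by rw [← hS']; exact Finset.inter_subset_right, Finset.sdiff_disjoint⟩
  · intro T hT
    have hT' : J ⊆ R ∧ Disjoint T R := by simpa using hT
    simp only [Finset.mem_filter, Finset.mem_univ, true_and]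
    rw [Finset.union_inter_distrib_right, Finset.inter_eq_left.mpr hT'.1,
      Finset.disjoint_iff_inter_eq_empty.mp hT'.2, Finset.union_empty]
  · intro S hS
    have hS' : S ∩ R = J := by simpa using hS
    rw [← hS', Finset.union_comm, Finset.sdiff_union_inter]
  · intro T hT
    have hT' : J ⊆ R ∧ Disjoint T R := by simpa using hT
    rw [Finset.union_sdiff_distrib, Finset.sdiff_eq_empty_iff_subset.mpr hT'.1,
      Finset.empty_union, Finset.sdiff_eq_self_of_disjoint hT'.2]
  · intro S hS
    have hS' : S ∩ R = J := by simpa using hS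
    rw [← hS', Finset.union_comm, Finset.sdiff_union_inter]

/-- coefficients (as a function of `z`) of the `J`-th Fourier coefficient of the restriction -/
noncomputable def acoef (a : Finset ι → ℝ) (R J : Finset ι) : Finset ι → ℝ :=
  fun T => if J ⊆ R ∧ Disjoint T R then a (J ∪ T) else 0

lemma fc_restrict (hp0 : 0 < p) (hp1 : p < 1) (f : (ι → Bool) → ℝ) (R J : Finset ι)
    (z : ι → Bool) :
    fc p (fun y => f (mix R y z)) J = syn p (acoef (fc p f) R J) z := by
  unfold fc
  have h1 : ∀ y : ι → Bool, f (mix R y z) * chi p J y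
      = ∑ S : Finset ι, (fc p f S * chi p (S \ R) z) * (chi p (S ∩ R) y * chi p J y) := by
    intro y
    rw [inversion hp0 hp1 f, Finset.sum_mul]
    refine Finset.sum_congr rfl (fun S _ => ?_)
    rw [chi_mix]; ring
  rw [EE_congr p h1, EE_sum]
  simp_rw [EE_mul_left, chi_orthonormal hp0 hp1]
  unfold syn acoef
  have h2 := reindex R J (fun S T => fc p f S * chi p T z)
  have h3 : ∀ S : Finset ι, fc p f S * chi p (S \ R) z * (if S ∩ R = J then (1:ℝ) else 0)
      = if S ∩ R = J then fc p f S * chi p (S \ R) z else 0 := by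
    intro S; split_ifs <;> ring
  simp_rw [h3]
  rw [h2]
  refine Finset.sum_congr rfl (fun T _ => ?_)
  split_ifs
  · rfl
  · rw [zero_mul]

lemma sum_acoef_sq (a : Finset ι → ℝ) (R J : Finset ι) (w : ℕ → ℝ) :
    ∑ T : Finset ι, w T.card * acoef a R J T ^ 2
      = ∑ S : Finset ι, if S ∩ R = J then w (S \ R).card * a S ^ 2 else 0 := by
  have h2 := reindex R J (fun S T => w T.card * a S ^ 2)
  rw [h2]
  refine Finset.sum_congr rfl (fun T _ => ?_)
  unfold acoef
  split_ifs <;> ring

lemma sum_fiber (R : Finset ι) (g : Finset ι → ℝ) (w : Finset ι → ℝ) :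
    ∑ J : Finset ι, w J * (∑ S : Finset ι, if S ∩ R = J then g S else 0)
      = ∑ S : Finset ι, w (S ∩ R) * g S := by
  simp_rw [Finset.mul_sum]
  rw [Finset.sum_comm]
  refine Finset.sum_congr rfl (fun S _ => ?_)
  rw [Finset.sum_eq_single (S ∩ R)]
  · simp
  · intro J _ hJ
    rw [if_neg (Ne.symm hJ), mul_zero]
  · intro h; exact absurd (Finset.mem_univ _) h

/-- First level inequality. -/
lemma first_level (hp0 : 0 < p) (hp1 : p < 1) (f : (ι → Bool) → ℝ)
    (hf : ∀ x, f x = 1 ∨ f x = -1) (R : Finset ι) {t l : ℝ} (ht0 : 0 < t) (ht1 : t ≤ 1)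
    (hl0 : 0 < l) :
    ∑ J : Finset ι, t ^ J.card * phi (PR (fun S => (fc p f S) ^ 2) R J)
      ≤ ∑ S : Finset ι, (fc p f S) ^ 2 *
          (cc p * (t ^ (S ∩ R).card * (S \ R).card) + Psi p t l (S ∩ R).card) := by
  have h1 : ∀ J : Finset ι, phi (PR (fun S => (fc p f S) ^ 2) R J)
      ≤ cc p * (∑ S : Finset ι, if S ∩ R = J then ((S \ R).card : ℝ) * (fc p f S) ^ 2 else 0)
        + EE p (fun z => phi ((fc p (fun y => f (mix R y z)) J) ^ 2)) := by
    intro J
    have := lsi_syn hp0 hp1 (acoef (fc p f) R J)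
    have e1 := sum_acoef_sq (fc p f) R J (fun _ => 1)
    have e2 := sum_acoef_sq (fc p f) R J (fun n => (n : ℝ))
    simp only [one_mul] at e1
    rw [e1, e2] at this
    unfold PR
    simp_rw [fc_restrict hp0 hp1]
    exact this
  have h2 : ∑ J : Finset ι, t ^ J.card * phi (PR (fun S => (fc p f S) ^ 2) R J)
      ≤ ∑ J : Finset ι, t ^ J.card *
        (cc p * (∑ S : Finset ι, if S ∩ R = J then ((S \ R).card : ℝ) * (fc p f S) ^ 2 else 0)
        + EE p (fun z => phi ((fc p (fun y => f (mix R y z)) J) ^ 2))) :=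
    Finset.sum_le_sum (fun J _ => mul_le_mul_of_nonneg_left (h1 J) (pow_nonneg ht0.le _))
  refine h2.trans ?_
  simp_rw [mul_add]
  rw [Finset.sum_add_distrib, Finset.sum_add_distrib]
  refine add_le_add (le_of_eq ?_) ?_
  · have := sum_fiber R (fun S => ((S \ R).card : ℝ) * (fc p f S) ^ 2)
      (fun J => t ^ J.card * cc p)
    have e : ∀ J : Finset ι, t ^ J.card * (cc p *
        (∑ S : Finset ι, if S ∩ R = J then ((S \ R).card : ℝ) * (fc p f S) ^ 2 else 0))
        = t ^ J.card * cc p *
        (∑ S : Finset ι, if S ∩ R = J then ((S \ R).card : ℝ) * (fc p f S) ^ 2 else 0) := by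
      intro J; ring
    simp_rw [e]
    rw [this]
    refine Finset.sum_congr rfl (fun S _ => by ring)
  · have e1 : ∑ J : Finset ι, t ^ J.card *
        EE p (fun z => phi ((fc p (fun y => f (mix R y z)) J) ^ 2))
        = EE p (fun z => ∑ J : Finset ι, t ^ J.card *
          phi ((fc p (fun y => f (mix R y z)) J) ^ 2)) := by
      rw [EE_sum]
      refine Finset.sum_congr rfl (fun J _ => ?_)
      rw [EE_mul_left]
    rw [e1]
    have e2 : EE p (fun z => ∑ J : Finset ι, t ^ J.card *
          phi ((fc p (fun y => f (mix R y z)) J) ^ 2))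
        ≤ EE p (fun z => ∑ J : Finset ι,
          (fc p (fun y => f (mix R y z)) J) ^ 2 * Psi p t l J.card) := by
      refine EE_mono hp0.le hp1.le (fun z => ?_)
      exact entropy_bound hp0 hp1 _ (fun y => hf _) ht0 ht1 hl0
    refine e2.trans (le_of_eq ?_)
    rw [EE_sum]
    have e3 : ∀ J : Finset ι, EE p (fun z =>
          (fc p (fun y => f (mix R y z)) J) ^ 2 * Psi p t l J.card)
        = Psi p t l J.card * (∑ S : Finset ι, if S ∩ R = J then (fc p f S) ^ 2 else 0) := by
      intro J
      rw [EE_mul_right, mul_comm]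
      congr 1
      simp_rw [fc_restrict hp0 hp1]
      rw [parseval_syn hp0 hp1]
      have e1 := sum_acoef_sq (fc p f) R J (fun _ => 1)
      simp only [one_mul] at e1
      exact e1
    simp_rw [e3]
    rw [sum_fiber R (fun S => (fc p f S) ^ 2) (fun J => Psi p t l J.card)]
    refine Finset.sum_congr rfl (fun S _ => by ring)

end Vale.Agent.P063
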