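import Vale.Agent.P063.Noise

/-!
Subadditivity of the weighted Fourier entropy, and the resulting entropy bound for
`±1`-valued functions.
-/

namespace Vale.Agent.P063

open Finset

set_option linter.unusedSectionVars false

variable {ι : Type*} [Fintype ι] [DecidableEq ι] {p : ℝ}

/-- marginals of a weight function on sets -/
noncomputable def marg (ν : Finset ι → ℝ) (i : ι) : ℝ :=
  ∑ S : Finset ι, if i ∈ S then ν S else 0

/-- pointwise Gibbs inequality: `ν log (π T / ν') ≤ ...` -/
lemma gibbs_pointwise {u T pi : ℝ} (hu : 0 ≤ u) (hT : 0 < T) (hpi : 0 ≤ pi)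
    (hpi' : u ≠ 0 → 0 < pi) :
    T * phi u ≤ T * (u * Real.log (1 / pi)) + (pi * T - T * u) := by
  unfold phi Real.negMulLog
  by_cases h0 : u = 0
  · subst h0; simp; positivity
  · have hu' : 0 < u := lt_of_le_of_ne hu (Ne.symm h0)
    have hpi2 := hpi' h0
    have h1 : Real.log (pi / u) ≤ pi / u - 1 := Real.log_le_sub_one_of_pos (div_pos hpi2 hu')
    rw [Real.log_div (ne_of_gt hpi2) h0] at h1
    have h2 : Real.log (1 / pi) = - Real.log pi := by rw [one_div, Real.log_inv]
    rw [h2]
    have h3 : u * (Real.log pi - Real.log u) ≤ u * (pi / u - 1) :=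
      mul_le_mul_of_nonneg_left h1 hu
    have h4 : u * (pi / u - 1) = pi - u := by field_simp
    rw [h4] at h3
    have h5 := mul_le_mul_of_nonneg_left h3 hT.le
    nlinarith

lemma log_one_div_one_sub_le {x : ℝ} (hx0 : 0 ≤ x) (hx1 : x ≤ 1 / 2) :
    Real.log (1 / (1 - x)) ≤ 2 * x := by
  have h1 : 0 < 1 - x := by linarith
  have h2 : Real.log (1 / (1 - x)) ≤ 1 / (1 - x) - 1 :=
    Real.log_le_sub_one_of_pos (by positivity)
  refine h2.trans ?_
  rw [div_sub_one (ne_of_gt h1), div_le_iff₀ h1]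
  nlinarith

/-- Subadditivity of entropy in the weighted form that we need. Here `u S ≥ 0` has total mass one,
`0 < t ≤ 1`. -/
lemma subadd (u : Finset ι → ℝ) (hu : ∀ S, 0 ≤ u S) (hsum : ∑ S, u S = 1) {t : ℝ}
    (ht0 : 0 < t) (ht1 : t ≤ 1) :
    ∑ S : Finset ι, t ^ S.card * phi (u S)
      ≤ (1 - t) * (∑ S : Finset ι, (S.card : ℝ) * u S)
        + 2 * (∑ S : Finset ι, (S.card : ℝ) * (t ^ S.card * u S))
        + ∑ i : ι, phi (∑ S : Finset ι, if i ∈ S then t ^ S.card * u S else 0) := by
  set ν : Finset ι → ℝ := fun S => t ^ S.card * u S with hν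
  have hν0 : ∀ S, 0 ≤ ν S := fun S => mul_nonneg (pow_nonneg ht0.le _) (hu S)
  have hνle : ∀ S, ν S ≤ u S := fun S => by
    rw [hν]; simp only
    exact mul_le_of_le_one_left (hu S) (pow_le_one₀ ht0.le ht1)
  set m : ι → ℝ := fun i => ∑ S : Finset ι, if i ∈ S then ν S else 0 with hm
  have hm0 : ∀ i, 0 ≤ m i := fun i => Finset.sum_nonneg (fun S _ => by
    split_ifs
    · exact hν0 S
    · exact le_refl _)
  have hνsum : ∑ S, ν S ≤ 1 := by rw [← hsum]; exact Finset.sum_le_sum (fun S _ => hνle S)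
  have hm1 : ∀ i, m i ≤ 1 := fun i => by
    refine le_trans (Finset.sum_le_sum (fun S _ => ?_)) hνsum
    split_ifs
    · exact le_refl _
    · exact hν0 S
  -- the product measure
  set π : Finset ι → ℝ := fun S => (∏ i ∈ S, (m i / 2)) * ∏ i ∈ univ \ S, (1 - m i / 2) with hπ
  have hπ0 : ∀ S, 0 ≤ π S := fun S => mul_nonneg
    (Finset.prod_nonneg (fun i _ => by have := hm0 i; linarith))
    (Finset.prod_nonneg (fun i _ => by have := hm1 i; linarith))
  have hπsum : ∑ S, π S = 1 := by
    have := Finset.prod_add (fun i => m i / 2) (fun i => 1 - m i / 2) (Finset.univ : Finset ι)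
    rw [Finset.powerset_univ] at this
    rw [hπ]
    simp only
    rw [← this]
    exact Finset.prod_eq_one (fun i _ => by ring)
  have hmpos : ∀ S, u S ≠ 0 → ∀ i ∈ S, 0 < m i := by
    intro S hS i hi
    have h1 : 0 < ν S := mul_pos (pow_pos ht0 _) (lt_of_le_of_ne (hu S) (Ne.symm hS))
    refine lt_of_lt_of_le h1 ?_
    have := Finset.single_le_sum (f := fun S => if i ∈ S then ν S else 0)
      (fun S _ => by
        split_ifs
        · exact hν0 S
        · exact le_refl _) (Finset.mem_univ S)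
    simpa [hi] using this
  have hπpos : ∀ S, u S ≠ 0 → 0 < π S := by
    intro S hS
    refine mul_pos (Finset.prod_pos (fun i hi => ?_)) (Finset.prod_pos (fun i _ => ?_))
    · have := hmpos S hS i hi; linarith
    · have := hm1 i; linarith
  have hT : ∀ S : Finset ι, 0 < t ^ S.card := fun S => pow_pos ht0 _
  -- Gibbs
  have h1 : ∑ S : Finset ι, t ^ S.card * phi (u S)
      ≤ ∑ S : Finset ι, (ν S * Real.log (1 / π S) + (π S * t ^ S.card - ν S)) := by
    refine Finset.sum_le_sum (fun S _ => ?_)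
    have := gibbs_pointwise (hu S) (hT S) (hπ0 S) (hπpos S)
    rw [hν]; simp only
    linarith
  -- bound on log(1/π)
  have h2 : ∀ S : Finset ι, ν S * Real.log (1 / π S)
      ≤ ν S * (∑ i ∈ S, (Real.log 2 - Real.log (m i))) + ν S * ∑ i, m i := by
    intro S
    by_cases hS : u S = 0
    · have : ν S = 0 := by rw [hν]; simp [hS]
      rw [this]; simp
    · rw [← mul_add]
      refine mul_le_mul_of_nonneg_left ?_ (hν0 S)
      have hne1 : ∏ i ∈ S, (m i / 2) ≠ 0 := ne_of_gt (Finset.prod_pos (fun i hi => by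
        have := hmpos S hS i hi; linarith))
      have hne2 : ∏ i ∈ univ \ S, (1 - m i / 2) ≠ 0 := ne_of_gt (Finset.prod_pos (fun i _ => by
        have := hm1 i; linarith))
      rw [one_div, Real.log_inv, hπ]
      simp only
      rw [Real.log_mul hne1 hne2, Real.log_prod (fun i hi => by
        have := hmpos S hS i hi; positivity), Real.log_prod (fun i _ => by
        have := hm1 i; exact ne_of_gt (by linarith))]
      rw [neg_add]
      refine add_le_add ?_ ?_
      · rw [← Finset.sum_neg_distrib]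
        refine Finset.sum_le_sum (fun i hi => ?_)
        rw [Real.log_div (ne_of_gt (hmpos S hS i hi)) (by norm_num)]
        linarith
      · rw [← Finset.sum_neg_distrib]
        refine le_trans (Finset.sum_le_sum (g := fun i => m i) (fun i _ => ?_)) ?_
        · have := log_one_div_one_sub_le (x := m i / 2) (by have := hm0 i; linarith)
            (by have := hm1 i; linarith)
          rw [one_div, Real.log_inv] at this
          linarith
        · exact Finset.sum_le_sum_of_subset_of_nonneg (Finset.subset_univ _)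
            (fun i _ _ => hm0 i)
  have h3 : ∑ S : Finset ι, ν S * (∑ i ∈ S, (Real.log 2 - Real.log (m i)))
      = ∑ i : ι, m i * (Real.log 2 - Real.log (m i)) := by
    have : ∀ S : Finset ι, ν S * (∑ i ∈ S, (Real.log 2 - Real.log (m i)))
        = ∑ i : ι, (if i ∈ S then ν S else 0) * (Real.log 2 - Real.log (m i)) := by
      intro S
      rw [Finset.mul_sum]
      simp_rw [ite_mul, zero_mul]
      rw [Finset.sum_ite_mem, Finset.univ_inter]
    simp_rw [this]
    rw [Finset.sum_comm]
    refine Finset.sum_congr rfl (fun i _ => ?_)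
    rw [← Finset.sum_mul]
  have hmsum : ∑ i, m i = ∑ S : Finset ι, (S.card : ℝ) * ν S := by
    rw [hm]; exact sum_ite_mem_card ν
  have hmsum0 : 0 ≤ ∑ i, m i := Finset.sum_nonneg (fun i _ => hm0 i)
  have h4 : ∑ S : Finset ι, (π S * t ^ S.card - ν S)
      ≤ (1 - t) * (∑ S : Finset ι, (S.card : ℝ) * u S) := by
    rw [Finset.sum_sub_distrib]
    have h5 : ∑ S, π S * t ^ S.card ≤ 1 := by
      rw [← hπsum]
      exact Finset.sum_le_sum (fun S _ => mul_le_of_le_one_right (hπ0 S)
        (pow_le_one₀ ht0.le ht1))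
    have h6 : 1 - ∑ S, ν S ≤ (1 - t) * (∑ S : Finset ι, (S.card : ℝ) * u S) := by
      have h10 : 1 - ∑ S, ν S = ∑ S, (u S - ν S) := by rw [Finset.sum_sub_distrib, hsum]
      rw [h10, Finset.mul_sum]
      refine Finset.sum_le_sum (fun S _ => ?_)
      rw [hν]; simp only
      have h7 : 1 - t ^ S.card ≤ (S.card : ℝ) * (1 - t) := by
        have := one_add_mul_le_pow (a := t - 1) (by linarith) S.card
        have h8 : (1 + (t - 1)) = t := by ring
        rw [h8] at this
        linarith
      have := mul_le_mul_of_nonneg_right h7 (hu S)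
      nlinarith
    linarith
  have h5 : ∑ S : Finset ι, ν S * ∑ i, m i ≤ ∑ i, m i := by
    rw [← Finset.sum_mul]
    exact mul_le_of_le_one_left hmsum0 hνsum
  calc ∑ S : Finset ι, t ^ S.card * phi (u S)
      ≤ ∑ S : Finset ι, (ν S * Real.log (1 / π S) + (π S * t ^ S.card - ν S)) := h1
    _ = ∑ S : Finset ι, ν S * Real.log (1 / π S) + ∑ S : Finset ι, (π S * t ^ S.card - ν S) :=
        Finset.sum_add_distrib
    _ ≤ ∑ S : Finset ι, (ν S * (∑ i ∈ S, (Real.log 2 - Real.log (m i))) + ν S * ∑ i, m i)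
        + (1 - t) * (∑ S : Finset ι, (S.card : ℝ) * u S) :=
        add_le_add (Finset.sum_le_sum (fun S _ => h2 S)) h4
    _ ≤ (∑ i : ι, m i * (Real.log 2 - Real.log (m i)) + ∑ i, m i)
        + (1 - t) * (∑ S : Finset ι, (S.card : ℝ) * u S) := by
        rw [Finset.sum_add_distrib, h3]
        linarith
    _ ≤ _ := by
        have h6 : ∑ i : ι, m i * (Real.log 2 - Real.log (m i))
            = Real.log 2 * ∑ i, m i + ∑ i, phi (m i) := by
          rw [Finset.mul_sum, ← Finset.sum_add_distrib]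
          refine Finset.sum_congr rfl (fun i _ => ?_)
          unfold phi Real.negMulLog
          ring
        rw [h6, hmsum]
        have h7 : Real.log 2 ≤ 1 := by
          have := Real.log_two_lt_d9; linarith
        have h8 : 0 ≤ ∑ S : Finset ι, (S.card : ℝ) * ν S := by rw [← hmsum]; exact hmsum0
        have h9 := mul_le_mul_of_nonneg_right h7 h8
        linarith

/-- The function `Ψ` of the cardinality that bounds the weighted Fourier entropy. -/
noncomputable def Psi (p t l : ℝ) (j : ℕ) : ℝ :=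
  (1 - t) * j + (2 + 2 * Real.log (1 / l)) * (j * t ^ j) + cc p * (j * (j - 1) * t ^ j)
    + 2 * l / (2 * Real.sqrt (p * (1 - p))) * j

/-- Weighted Fourier entropy bound for `±1`-valued functions. -/
lemma entropy_bound (hp0 : 0 < p) (hp1 : p < 1) (g : (ι → Bool) → ℝ)
    (hg : ∀ x, g x = 1 ∨ g x = -1) {t l : ℝ} (ht0 : 0 < t) (ht1 : t ≤ 1) (hl0 : 0 < l) :
    ∑ S : Finset ι, t ^ S.card * phi ((fc p g S) ^ 2)
      ≤ ∑ S : Finset ι, (fc p g S) ^ 2 * Psi p t l S.card := by
  have hsum : ∑ S : Finset ι, (fc p g S) ^ 2 = 1 := by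
    rw [parseval hp0 hp1]
    have : ∀ x, g x ^ 2 = 1 := fun x => by rcases hg x with h | h <;> rw [h] <;> norm_num
    rw [EE_congr p this, EE_const]
  have h1 := subadd (fun S => (fc p g S) ^ 2) (fun S => sq_nonneg _) hsum ht0 ht1
  have hs : Real.sqrt t ^ 2 = t := Real.sq_sqrt ht0.le
  have hs1 : Real.sqrt t ≤ 1 := by
    rw [← Real.sqrt_one]; exact Real.sqrt_le_sqrt ht1
  have h2 : ∑ i : ι, phi (∑ S : Finset ι, if i ∈ S then t ^ S.card * (fc p g S) ^ 2 else 0)
      ≤ ∑ i : ι, (cc p * (∑ S : Finset ι,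
          if i ∈ S then ((S.card : ℝ) - 1) * t ^ S.card * (fc p g S) ^ 2 else 0)
        + 2 * Real.log (1 / l) *
          (∑ S : Finset ι, if i ∈ S then t ^ S.card * (fc p g S) ^ 2 else 0)
        + 2 * l * ((∑ S : Finset ι, if i ∈ S then (fc p g S) ^ 2 else 0)
          / (2 * Real.sqrt (p * (1 - p))))) := by
    refine Finset.sum_le_sum (fun i _ => ?_)
    have := deriv_lemma hp0 hp1 g hg i (Real.sqrt_nonneg t) hs1 hl0
    rw [hs] at this
    exact this
  rw [Finset.sum_add_distrib, Finset.sum_add_distrib, ← Finset.mul_sum, ← Finset.mul_sum,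
    ← Finset.mul_sum, ← Finset.sum_div, sum_ite_mem_card, sum_ite_mem_card,
    sum_ite_mem_card] at h2
  refine h1.trans ((add_le_add_right h2 _).trans (le_of_eq ?_))
  have h3 : ∑ S : Finset ι, (fc p g S) ^ 2 * Psi p t l S.card
      = (1 - t) * (∑ S : Finset ι, (S.card : ℝ) * (fc p g S) ^ 2)
        + (2 + 2 * Real.log (1 / l)) *
          (∑ S : Finset ι, (S.card : ℝ) * (t ^ S.card * (fc p g S) ^ 2))
        + cc p * (∑ S : Finset ι, (S.card : ℝ) *
            (((S.card : ℝ) - 1) * t ^ S.card * (fc p g S) ^ 2))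
        + 2 * l / (2 * Real.sqrt (p * (1 - p))) *
          (∑ S : Finset ι, (S.card : ℝ) * (fc p g S) ^ 2) := by
    rw [Finset.mul_sum, Finset.mul_sum, Finset.mul_sum, Finset.mul_sum,
      ← Finset.sum_add_distrib, ← Finset.sum_add_distrib, ← Finset.sum_add_distrib]
    refine Finset.sum_congr rfl (fun S _ => ?_)
    unfold Psi
    ring
  rw [h3]
  ring

end Vale.Agent.P063
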